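import Crest.Agent.R167.Defs

/-!
# Row 167: lattice geometry
-/

set_option autoImplicit false
set_option linter.unusedSectionVars false

namespace Crest.Agent.R167

open MeasureTheory Finset
open scoped InnerProductSpace

/-! ### Lattice geometry -/

theorem mem_rect {p q : ℕ} {r z : ℤ × ℤ} : z ∈ rect p q r ↔
    (r.1 * p ≤ z.1 ∧ z.1 < (r.1 + 1) * p) ∧ (r.2 * q ≤ z.2 ∧ z.2 < (r.2 + 1) * q) := by
  simp [rect]

theorem mem_rect_iff_cell {p q : ℕ} (hp : 1 ≤ p) (hq : 1 ≤ q) {r z : ℤ × ℤ} :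
    z ∈ rect p q r ↔ cell p q z = r := by
  have hp' : (0 : ℤ) < p := by exact_mod_cast hp
  have hq' : (0 : ℤ) < q := by exact_mod_cast hq
  rw [mem_rect, cell, Prod.ext_iff, Int.ediv_eq_iff_of_pos hp', Int.ediv_eq_iff_of_pos hq',
    add_mul, add_mul, one_mul, one_mul]

theorem card_rect (p q : ℕ) (r : ℤ × ℤ) : (rect p q r).card = p * q := by
  simp only [rect, card_product, Int.card_Ico, add_mul, one_mul, add_sub_cancel_left,
    Int.toNat_natCast]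

theorem Sat.of_dvd {p q p' q' : ℕ} {W : Finset (ℤ × ℤ)} (h : Sat p' q' W) (hp : p ∣ p')
    (hq : q ∣ q') : Sat p q W := by
  obtain ⟨a, rfl⟩ := hp
  obtain ⟨b, rfl⟩ := hq
  intro z z' e
  obtain ⟨e1, e2⟩ := Prod.mk.inj e
  refine h z z' (Prod.ext ?_ ?_)
  · simp only [cell, Nat.cast_mul, ← Int.ediv_ediv_of_nonneg (Int.natCast_nonneg p), e1]
  · simp only [cell, Nat.cast_mul, ← Int.ediv_ediv_of_nonneg (Int.natCast_nonneg q), e2]

theorem sat_rect {p q : ℕ} (hp : 1 ≤ p) (hq : 1 ≤ q) (r : ℤ × ℤ) : Sat p q (rect p q r) := by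
  intro z z' e hz
  rw [mem_rect_iff_cell hp hq] at hz ⊢
  rw [← e, hz]

theorem Sat.rect_subset {p q : ℕ} {W : Finset (ℤ × ℤ)} (h : Sat p q W) (hp : 1 ≤ p) (hq : 1 ≤ q)
    {r : ℤ × ℤ} (hr : r ∈ W.image (cell p q)) : rect p q r ⊆ W := by
  obtain ⟨z, hz, rfl⟩ := mem_image.1 hr
  exact fun z' hz' => h z z' ((mem_rect_iff_cell hp hq).1 hz').symm hz

theorem Sat.card_image {p q : ℕ} {W : Finset (ℤ × ℤ)} (h : Sat p q W) (hp : 1 ≤ p)
    (hq : 1 ≤ q) : (W.image (cell p q)).card * (p * q) = W.card := by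
  rw [card_eq_sum_card_fiberwise (f := cell p q) (s := W) (t := W.image (cell p q))
    fun z hz => mem_image_of_mem _ hz, sum_congr rfl fun r hr => ?_, sum_const, smul_eq_mul]
  rw [← card_rect p q r]
  congr 1
  ext z
  rw [mem_filter, mem_rect_iff_cell hp hq]
  exact ⟨fun h => h.2, fun e => ⟨h.rect_subset hp hq hr ((mem_rect_iff_cell hp hq).2 e), e⟩⟩

namespace Model
variable {β : ℝ} {V Ed : Type} (M : Model β V Ed) [Fintype V] [DecidableEq V] [Fintype Ed]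
  {k : ℕ}

theorem mem_Lam {p q : ℕ} {W : Finset (ℤ × ℤ)} {v : V} : v ∈ M.Lam p q W ↔
    M.pos v ∈ W ∧ ¬(p : ℤ) ∣ M.X v ∧ ¬(q : ℤ) ∣ M.Y v := by simp [Lam]

theorem mem_ball {z v : V} {R : ℕ} : v ∈ M.ball z R ↔ M.dist v z < R := by simp [ball]

theorem Lam_mono {p q p' q' : ℕ} {W W' : Finset (ℤ × ℤ)} (hp : p ∣ p') (hq : q ∣ q')
    (hW : W ⊆ W') : M.Lam p q W ⊆ M.Lam p' q' W' := by
  intro v hv
  rw [mem_Lam] at hv ⊢
  exact ⟨hW hv.1, fun h => hv.2.1 ((Int.natCast_dvd_natCast.2 hp).trans h),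
    fun h => hv.2.2 ((Int.natCast_dvd_natCast.2 hq).trans h)⟩

theorem Mar.mono {U : Finset V} {W W' : Finset (ℤ × ℤ)} {ρ ρ' : ℕ} (h : M.Mar U W' ρ')
    (hW : W ⊆ W') (hρ : ρ ≤ ρ') : M.Mar U W ρ := by
  have : (ρ : ℤ) ≤ ρ' := by exact_mod_cast hρ
  exact fun v z hz h1 h2 => h v z (hW hz) (h1.trans this) (h2.trans this)

theorem Mar.Lam_subset {U : Finset V} {W : Finset (ℤ × ℤ)} {ρ : ℕ} (h : M.Mar U W ρ) (p q : ℕ) :
    M.Lam p q W ⊆ U := by
  exact fun v hv => h v _ (M.mem_Lam.1 hv).1 (by simp [pos]) (by simp [pos])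

/-- Both ends of an edge with source in `W` lie in `U`. -/
theorem Mar.ends {U : Finset V} {W : Finset (ℤ × ℤ)} {ρ : ℕ} (h : M.Mar U W ρ) (hρ : 1 ≤ ρ)
    {e : Ed} (he : M.pos (M.s e) ∈ W) : M.s e ∈ U ∧ M.t e ∈ U := by
  refine ⟨h _ _ he (by simp [pos]) (by simp [pos]), h _ _ he ?_ ?_⟩ <;>
    rcases M.step e with h | h <;> simp [pos, h.1, h.2, hρ]

theorem card_vert_le (W : Finset (ℤ × ℤ)) : #{v | M.pos v ∈ W} ≤ W.card := by
  exact card_le_card_of_injOn M.pos (fun v hv => (mem_filter.1 hv).2)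
    fun u _ v _ e => M.inj u v (congrArg Prod.fst e) (congrArg Prod.snd e)

theorem card_edge_le (W : Finset (ℤ × ℤ)) : #{e | M.pos (M.s e) ∈ W} ≤ 2 * W.card := by
  have := card_le_card_of_injOn (s := ({e | M.pos (M.s e) ∈ W} : Finset Ed))
    (t := (univ : Finset Bool) ×ˢ W)
    (fun e => (decide (M.X (M.t e) = M.X (M.s e)), M.pos (M.s e)))
    (fun e he => mem_coe.2 (mem_product.2 ⟨mem_univ _, (mem_filter.1 he).2⟩))
    (fun e _ e' _ h => by
      obtain ⟨h1, h2⟩ := Prod.mk.inj h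
      obtain ⟨h3, h4⟩ := Prod.mk.inj h2
      rw [decide_eq_decide] at h1
      refine M.einj e e' (M.inj _ _ h3 h4) (M.inj _ _ ?_ ?_) <;>
        rcases M.step e with a | a <;> rcases M.step e' with b | b <;> omega)
  simpa using this

/-- `∑ |a| ≤ 2 |W| μ` for a form bounded by `μ` and supported on edges with source in `W`. -/
theorem sum_abs_le {W : Finset (ℤ × ℤ)} {a : Ed → ℝ} {μ : ℝ} (hμ : 0 ≤ μ)
    (hs : ∀ e, a e ≠ 0 → M.pos (M.s e) ∈ W) (hb : ∀ e, |a e| ≤ μ) :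
    ∑ e, |a e| ≤ 2 * W.card * μ := by
  rw [← sum_filter_add_sum_filter_not univ (fun e => M.pos (M.s e) ∈ W),
    sum_eq_zero (s := filter (fun e => ¬ M.pos (M.s e) ∈ W) univ) fun e he => by
      rw [abs_eq_zero]; by_contra hc; exact (mem_filter.1 he).2 (hs e hc), add_zero]
  refine (sum_le_card_nsmul _ _ μ fun e _ => hb e).trans ?_
  rw [nsmul_eq_mul]
  exact mul_le_mul_of_nonneg_right (by exact_mod_cast M.card_edge_le W) hμ

theorem sum_sq_le {W : Finset (ℤ × ℤ)} {a : Ed → ℝ} {μ : ℝ}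
    (hs : ∀ e, a e ≠ 0 → M.pos (M.s e) ∈ W) (hb : ∀ e, |a e| ≤ μ) :
    ∑ e, a e ^ 2 ≤ 2 * W.card * μ ^ 2 := by
  have := M.sum_abs_le (W := W) (a := fun e => a e ^ 2) (sq_nonneg μ)
    (fun e he => hs e fun h => he (by rw [h]; ring))
    (fun e => by rw [abs_pow]; exact pow_le_pow_left₀ (abs_nonneg _) (hb e) 2)
  simpa only [abs_pow, sq_abs] using this

theorem ω_eq (e : Ed) : M.ω e = 0 ∨ M.ω e = 1 := by
  rcases M.step e with h | h <;> simp [ω, d, h.1]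

theorem abs_ω_le (e : Ed) : |M.ω e| ≤ 1 := by
  rcases M.ω_eq e with h | h <;> simp [h]

/-- An edge touching the open cell `r` has its source in the half-open cell `r`. -/
theorem src_mem_rect {p q : ℕ} {r : ℤ × ℤ} {e : Ed}
    (h : M.s e ∈ M.Lam p q (rect p q r) ∨ M.t e ∈ M.Lam p q (rect p q r)) :
    M.pos (M.s e) ∈ rect p q r := by
  rcases h with h | h
  · exact (M.mem_Lam.1 h).1
  · obtain ⟨h1, h2, h3⟩ := M.mem_Lam.1 h
    rw [mem_rect] at h1 ⊢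
    have a1 : M.X (M.t e) ≠ r.1 * p := fun e => h2 (e ▸ dvd_mul_left _ _)
    have a2 : M.Y (M.t e) ≠ r.2 * q := fun e => h3 (e ▸ dvd_mul_left _ _)
    simp only [pos] at h1 ⊢
    rcases M.step e with h | h <;> omega

end Model

end Crest.Agent.R167
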