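import Crest.Agent.R167.Cur
import Crest.Agent.R167.Lat

/-!
# Row 167: locality
-/

set_option autoImplicit false
set_option linter.unusedSectionVars false

namespace Crest.Agent.R167

open MeasureTheory Finset
open scoped InnerProductSpace

namespace Model
variable {β : ℝ} {V Ed : Type} (M : Model β V Ed) [Fintype V] [DecidableEq V] [Fintype Ed]
  {k : ℕ}

variable {U : Finset V} (σ₀ : Ω k V)

/-! ### Locality -/

/-- Markov property: `ce Λ F` only sees the edges touching `Λ`. -/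
theorem indep_ce {Λ Δ : Finset V} {F : CF k V} (hF : Indep (Δ \ Λ) F)
    (h : ∀ e, (M.s e ∈ Λ ∨ M.t e ∈ Λ) → (M.s e ∉ Λ → M.s e ∉ Δ) ∧ (M.t e ∉ Λ → M.t e ∉ Δ)) :
    Indep Δ (M.ce Λ F) := by
  classical
  set P : Ed → Prop := fun e => M.s e ∈ Λ ∨ M.t e ∈ Λ with hP
  set H₁ : CF k V := M.bil k 1 fun e => if P e then 1 else 0 with hH₁
  have h1 : Indep Λ (M.H k - H₁) := by
    rw [H, hH₁, ← M.bil_sub]
    refine M.indep_bil _ fun e he => ?_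
    by_cases hp : P e
    · simp [hp] at he
    · simpa [hP, not_or] using hp
  have h2 : Indep (Δ \ Λ) H₁ := by
    refine M.indep_bil _ fun e he => ?_
    have hp : P e := by by_contra hp; simp [hp] at he
    have := h e hp
    simp only [Finset.mem_sdiff, not_and, not_not]
    exact ⟨fun hs => by by_contra hn; exact this.1 hn hs,
      fun ht => by by_contra hn; exact this.2 hn ht⟩
  have h3 : Indep (Δ \ Λ) (M.ce Λ F) := by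
    rw [ce, cE_congr_H h1]; exact hF.cE h2 Λ
  refine ((indep_cE _ Λ F).union h3).mono fun v hv => ?_
  by_cases hm : v ∈ Λ <;> simp [hm, hv]

/-- If no edge joins `Λ₁` to `Λ \ Λ₁` and `F` does not depend on `Λ \ Λ₁`, resampling `Λ` is the
same as resampling `Λ₁`. -/
theorem ce_eq_of_indep {Λ₁ Λ : Finset V} (h₁ : Λ₁ ⊆ Λ) {F : CF k V} (hF : Indep (Λ \ Λ₁) F)
    (h : ∀ e, M.s e ∈ Λ → M.t e ∈ Λ → (M.s e ∈ Λ₁ ↔ M.t e ∈ Λ₁)) : M.ce Λ F = M.ce Λ₁ F := by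
  have h2 : Indep Λ (M.ce Λ₁ F) := by
    refine M.indep_ce hF fun e he => ⟨fun hs hs' => ?_, fun ht ht' => ?_⟩
    · rcases he with he | he
      · exact hs he
      · exact hs ((h e hs' (h₁ he)).2 he)
    · rcases he with he | he
      · exact ht ((h e (h₁ he) ht').1 he)
      · exact ht he
  rw [ce, ← cE_cE _ h₁ F]
  exact cE_of_indep _ h2

theorem cv_eq_of_indep {Λ₁ Λ : Finset V} (h₁ : Λ₁ ⊆ Λ) {F F' G : CF k V}
    (hF : Indep (Λ \ Λ₁) F) (hF' : Indep Λ₁ F') (hG : Indep (Λ \ Λ₁) G)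
    (h : ∀ e, M.s e ∈ Λ → M.t e ∈ Λ → (M.s e ∈ Λ₁ ↔ M.t e ∈ Λ₁)) :
    M.cv Λ (F + F') G = M.cv Λ₁ F G := by
  have e1 := M.ce_eq_of_indep h₁ hF h
  have e2 := M.ce_eq_of_indep h₁ hG h
  have e3 := M.ce_eq_of_indep h₁ (hF.mul hG) h
  simp only [ce] at e1 e2 e3
  have e4 : cov (M.H k) Λ F' G = 0 := by
    rw [cov, ← cE_cE _ h₁ (F' * G), cE_mul_indep _ hF', ← e2, mul_comm F',
      cE_mul_indep _ (indep_cE _ Λ G), mul_comm, sub_self]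
  rw [cv, cv, cov_add_left, e4, add_zero, cov, cov, e1, e2, e3]

/-- An edge whose target is off the `ℓ`-grid does not leave a cell. -/
theorem src_mem_rect_iff {ℓ p q : ℕ} (hp : ℓ ∣ p) (hq : ℓ ∣ q) {W : Finset (ℤ × ℤ)} (r : ℤ × ℤ)
    {e : Ed} (ht : M.t e ∈ M.Lam ℓ ℓ W) :
    M.pos (M.s e) ∈ rect p q r ↔ M.pos (M.t e) ∈ rect p q r := by
  rw [mem_Lam] at ht
  have hp' : (ℓ : ℤ) ∣ p := Int.natCast_dvd_natCast.2 hp
  have hq' : (ℓ : ℤ) ∣ q := Int.natCast_dvd_natCast.2 hq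
  have n1 : ∀ c : ℤ, M.X (M.t e) ≠ c * p := fun c hc => ht.2.1 (hc ▸ hp'.mul_left c)
  have n2 : ∀ c : ℤ, M.Y (M.t e) ≠ c * q := fun c hc => ht.2.2 (hc ▸ hq'.mul_left c)
  have := n1 r.1; have := n1 (r.1 + 1); have := n2 r.2; have := n2 (r.2 + 1)
  simp only [mem_rect, pos]
  rcases M.step e with h | h <;> omega

theorem indep_bil_rst {ℓ p q : ℕ} (hp : ℓ ∣ p) (hq : ℓ ∣ q) (W : Finset (ℤ × ℤ)) (r : ℤ × ℤ)
    (A : E k →L[ℝ] E k) (a : Ed → ℝ) :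
    Indep (M.Lam ℓ ℓ W \ M.Lam ℓ ℓ (rect p q r)) (M.bil k A (M.rst (rect p q r) a)) := by
  refine M.indep_bil _ fun e he => ?_
  have hs : M.pos (M.s e) ∈ rect p q r := by
    by_contra hs; simp [rst, hs] at he
  simp only [Finset.mem_sdiff, not_and, not_not]
  refine ⟨fun h => M.mem_Lam.2 ⟨hs, (M.mem_Lam.1 h).2⟩, fun h => M.mem_Lam.2
    ⟨(M.src_mem_rect_iff hp hq r h).1 hs, (M.mem_Lam.1 h).2⟩⟩

theorem indep_bil_sub_rst {ℓ p q : ℕ} (hp : ℓ ∣ p) (hq : ℓ ∣ q) (r : ℤ × ℤ)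
    (A : E k →L[ℝ] E k) (a : Ed → ℝ) :
    Indep (M.Lam ℓ ℓ (rect p q r)) (M.bil k A (a - M.rst (rect p q r) a)) := by
  refine M.indep_bil _ fun e he => ?_
  have hs : M.pos (M.s e) ∉ rect p q r := by
    intro hs; simp [rst, hs] at he
  exact ⟨fun h => hs (M.mem_Lam.1 h).1,
    fun h => hs ((M.src_mem_rect_iff hp hq r h).2 (M.mem_Lam.1 h).1)⟩

theorem sum_rst {p q : ℕ} (hp1 : 1 ≤ p) (hq1 : 1 ≤ q) {R : Finset (ℤ × ℤ)} {a' : Ed → ℝ}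
    (ha' : ∀ e, a' e ≠ 0 → cell p q (M.pos (M.s e)) ∈ R) :
    ∑ r ∈ R, M.rst (rect p q r) a' = a' := by
  funext e
  simp only [Finset.sum_apply, rst, mem_rect_iff_cell hp1 hq1]
  by_cases h : a' e = 0
  · simp [h]
  · rw [Finset.sum_ite_eq, if_pos (ha' e h)]

theorem rst_mul_rst (W : Finset (ℤ × ℤ)) (a a' : Ed → ℝ) :
    M.rst W a * M.rst W a' = M.rst W (a * a') := by
  funext e; by_cases h : M.pos (M.s e) ∈ W <;> simp [rst, h]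

theorem rst_rst {W W' : Finset (ℤ × ℤ)} (h : W ⊆ W') (a : Ed → ℝ) :
    M.rst W (M.rst W' a) = M.rst W a := by
  funext e; by_cases h1 : M.pos (M.s e) ∈ W
  · simp [rst, h1, h h1]
  · simp [rst, h1]

/-- Resampling off-grid spins keeps independence of an open cell. -/
theorem indep_ce_cell {ℓ p q : ℕ} (hp : ℓ ∣ p) (hq : ℓ ∣ q) (W : Finset (ℤ × ℤ)) (r : ℤ × ℤ)
    {F : CF k V} (hF : Indep (M.Lam p q (rect p q r)) F) :
    Indep (M.Lam p q (rect p q r)) (M.ce (M.Lam ℓ ℓ W) F) := by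
  classical
  set Λ₁ := (M.Lam ℓ ℓ W).filter fun v => M.pos v ∉ rect p q r with hΛ₁
  have hm : ∀ v, v ∈ Λ₁ ↔ v ∈ M.Lam ℓ ℓ W ∧ M.pos v ∉ rect p q r := fun v => by simp [hΛ₁]
  have hp' : (ℓ : ℤ) ∣ p := Int.natCast_dvd_natCast.2 hp
  have hq' : (ℓ : ℤ) ∣ q := Int.natCast_dvd_natCast.2 hq
  have e1 : M.ce (M.Lam ℓ ℓ W) F = M.ce Λ₁ F := by
    refine M.ce_eq_of_indep (Finset.filter_subset _ _) (hF.mono fun v hv => ?_) fun e hs ht => ?_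
    · rw [Finset.mem_sdiff, hm] at hv
      have h1 := M.mem_Lam.1 hv.1
      refine M.mem_Lam.2 ⟨by_contra fun hn => hv.2 ⟨hv.1, hn⟩, fun hd => h1.2.1 (hp'.trans hd),
        fun hd => h1.2.2 (hq'.trans hd)⟩
    · rw [hm, hm, M.src_mem_rect_iff hp hq r ht]; simp [hs, ht]
  rw [e1]
  refine M.indep_ce (hF.mono Finset.sdiff_subset) fun e he => ⟨fun hs hs' => ?_, fun ht ht' => ?_⟩
  · rcases he with he | he
    · exact hs he
    · rw [hm] at he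
      exact he.2 ((M.src_mem_rect_iff hp hq r he.1).1 (M.mem_Lam.1 hs').1)
  · rcases he with he | he
    · rw [hm] at he
      exact he.2 (M.src_mem_rect (Or.inr ht'))
    · exact ht he

/-- Additivity of conditional covariances of currents over cells. -/
theorem cv_bil_sum {ℓ p q : ℕ} (hp1 : 1 ≤ p) (hq1 : 1 ≤ q) (hp : ℓ ∣ p) (hq : ℓ ∣ q)
    {W R : Finset (ℤ × ℤ)} (hR : ∀ r ∈ R, rect p q r ⊆ W) (A A' : E k →L[ℝ] E k)
    (a : Ed → ℝ) {a' : Ed → ℝ} (ha' : ∀ e, a' e ≠ 0 → cell p q (M.pos (M.s e)) ∈ R) :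
    M.cv (M.Lam ℓ ℓ W) (M.bil k A a) (M.bil k A' a') =
      ∑ r ∈ R, M.cv (M.Lam ℓ ℓ (rect p q r)) (M.bil k A (M.rst (rect p q r) a))
        (M.bil k A' (M.rst (rect p q r) a')) := by
  have key : ∀ r ∈ R, M.cv (M.Lam ℓ ℓ W) (M.bil k A a) (M.bil k A' (M.rst (rect p q r) a')) =
      M.cv (M.Lam ℓ ℓ (rect p q r)) (M.bil k A (M.rst (rect p q r) a))
        (M.bil k A' (M.rst (rect p q r) a')) := by
    intro r hr
    have e : M.bil k A a = M.bil k A (M.rst (rect p q r) a) +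
        M.bil k A (a - M.rst (rect p q r) a) := by rw [← M.bil_add]; simp
    rw [e]
    refine M.cv_eq_of_indep (M.Lam_mono dvd_rfl dvd_rfl (hR r hr)) (M.indep_bil_rst hp hq W r _ _)
      (M.indep_bil_sub_rst hp hq r _ _) (M.indep_bil_rst hp hq W r _ _) fun e hs ht => ?_
    have h1 := M.mem_Lam.1 hs
    have h2 := M.mem_Lam.1 ht
    rw [mem_Lam, mem_Lam, M.src_mem_rect_iff hp hq r ht]
    simp [h1.2, h2.2]
  rw [← Finset.sum_congr rfl key]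
  conv_lhs => rw [← M.sum_rst hp1 hq1 ha', M.bil_sum]
  simp only [cv, cov, Finset.mul_sum, map_sum, Finset.sum_sub_distrib]

/-- Additivity of `Q` over cells. -/
theorem Q_sum {ℓ p q : ℕ} (hp1 : 1 ≤ p) (hq1 : 1 ≤ q) (hp : ℓ ∣ p) (hq : ℓ ∣ q)
    {W R : Finset (ℤ × ℤ)} (hR : ∀ r ∈ R, rect p q r ⊆ W) (G : Gen k)
    (a : Ed → ℝ) {a' : Ed → ℝ} (ha' : ∀ e, a' e ≠ 0 → cell p q (M.pos (M.s e)) ∈ R) :
    M.Q U σ₀ (M.Lam ℓ ℓ W) G a a' =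
      ∑ r ∈ R, M.Q U σ₀ (M.Lam ℓ ℓ (rect p q r)) G (M.rst (rect p q r) a)
        (M.rst (rect p q r) a') := by
  have e : M.Mm G (a * a') = ∑ r ∈ R, M.Mm G (M.rst (rect p q r) a * M.rst (rect p q r) a') := by
    simp only [Mm, rst_mul_rst, Finset.sum_neg_distrib, ← M.bil_sum]
    rw [M.sum_rst hp1 hq1 (a' := a * a') fun e he => ha' e (right_ne_zero_of_mul he)]
  simp only [Q, J]
  rw [M.cv_bil_sum hp1 hq1 hp hq hR _ _ a ha', e, map_sum, map_sum, Finset.sum_sub_distrib]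

/-- Additivity of the stiffness over cells. -/
theorem Dst_sum {ℓ p q : ℕ} (hp1 : 1 ≤ p) (hq1 : 1 ≤ q) (hp : ℓ ∣ p) (hq : ℓ ∣ q)
    {W : Finset (ℤ × ℤ)} (hW : Sat p q W) :
    M.Dst U σ₀ ℓ W = ∑ r ∈ W.image (cell p q), M.Dst U σ₀ ℓ (rect p q r) := by
  simp only [Dst]
  rw [Finset.sum_comm]
  refine Finset.sum_congr rfl fun c _ => ?_
  rw [M.Q_sum σ₀ hp1 hq1 hp hq (R := W.image (cell p q)) (fun r hr => hW.rect_subset hp1 hq1 hr)]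
  · refine Finset.sum_congr rfl fun r hr => ?_
    rw [M.rst_rst (hW.rect_subset hp1 hq1 hr)]
  · intro e he
    have hs : M.pos (M.s e) ∈ W := by by_contra hs; simp [rst, hs] at he
    exact Finset.mem_image_of_mem _ hs

/-- Law of total variance. -/
theorem Dst_sub {ℓ ℓ' : ℕ} (h : ℓ ∣ ℓ') {W : Finset (ℤ × ℤ)} (hU : M.Lam ℓ' ℓ' W ⊆ U) :
    M.Dst U σ₀ ℓ W - M.Dst U σ₀ ℓ' W = ∑ c : Fin 3, M.Ex U σ₀
      ((M.ce (M.Lam ℓ ℓ W) (M.J (L k c) (M.rst W M.ω)) -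
        M.ce (M.Lam ℓ' ℓ' W) (M.J (L k c) (M.rst W M.ω))) ^ 2) := by
  simp only [Dst, Q]
  rw [← Finset.sum_sub_distrib]
  refine Finset.sum_congr rfl fun c _ => ?_
  set F := M.J (L k c) (M.rst W M.ω)
  have hs : M.Lam ℓ ℓ W ⊆ M.Lam ℓ' ℓ' W := M.Lam_mono h h subset_rfl
  have e1 := M.Ex_ce_mul_ce σ₀ (hs.trans hU) F F
  have e2 := M.Ex_ce_mul_ce σ₀ hU F F
  have e3 : M.Ex U σ₀ (M.ce (M.Lam ℓ' ℓ' W) F * M.ce (M.Lam ℓ ℓ W) F) =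
      M.Ex U σ₀ (M.ce (M.Lam ℓ' ℓ' W) F * M.ce (M.Lam ℓ' ℓ' W) F) := by
    have hI : Indep (M.Lam ℓ' ℓ' W) (M.ce (M.Lam ℓ' ℓ' W) F) := indep_cE _ _ _
    rw [← M.Ex_mul_ce σ₀ hU hI (M.ce (M.Lam ℓ ℓ W) F)]
    simp only [ce, cE_cE _ hs]
  have e4 : (M.ce (M.Lam ℓ ℓ W) F - M.ce (M.Lam ℓ' ℓ' W) F) ^ 2 =
      M.ce (M.Lam ℓ ℓ W) F * M.ce (M.Lam ℓ ℓ W) F -
        (2 : ℝ) • (M.ce (M.Lam ℓ' ℓ' W) F * M.ce (M.Lam ℓ ℓ W) F) +
        M.ce (M.Lam ℓ' ℓ' W) F * M.ce (M.Lam ℓ' ℓ' W) F := by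
    rw [two_smul]; ring
  rw [e4, map_add, map_sub, map_smul, e3, e1, e2, smul_eq_mul]
  ring

theorem indep_ce_self (Λ : Finset V) (F : CF k V) : Indep Λ (M.ce Λ F) := indep_cE _ _ _

theorem Dst_anti {ℓ ℓ' : ℕ} (h : ℓ ∣ ℓ') {W : Finset (ℤ × ℤ)} (hU : M.Lam ℓ' ℓ' W ⊆ U) :
    M.Dst U σ₀ ℓ' W ≤ M.Dst U σ₀ ℓ W := by
  have := M.Dst_sub σ₀ h hU
  have h2 : 0 ≤ ∑ c : Fin 3, M.Ex U σ₀
      ((M.ce (M.Lam ℓ ℓ W) (M.J (L k c) (M.rst W M.ω)) -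
        M.ce (M.Lam ℓ' ℓ' W) (M.J (L k c) (M.rst W M.ω))) ^ 2) :=
    Finset.sum_nonneg fun c _ => M.Ex_sq_nonneg U σ₀ _
  linarith

theorem Q_comm (Λ : Finset V) (G : Gen k) (a a' : Ed → ℝ) :
    M.Q U σ₀ Λ G a a' = M.Q U σ₀ Λ G a' a := by
  simp only [Q, cv, mul_comm a, cov_comm _ _ (M.J G a)]

theorem Q_add_right (Λ : Finset V) (G : Gen k) (a a' a'' : Ed → ℝ) :
    M.Q U σ₀ Λ G a (a' + a'') = M.Q U σ₀ Λ G a a' + M.Q U σ₀ Λ G a a'' := by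
  simp only [Q, cv, J, Mm, mul_add, bil_add, cov_add_right, map_add, map_neg, neg_add]
  ring

theorem Q_smul_right (Λ : Finset V) (G : Gen k) (c : ℝ) (a a' : Ed → ℝ) :
    M.Q U σ₀ Λ G a (c • a') = c * M.Q U σ₀ Λ G a a' := by
  simp only [Q, cv, J, Mm, mul_smul_comm, bil_smul, cov_smul_right, map_smul, map_neg,
    smul_eq_mul]
  ring

theorem Q_smul_smul (Λ : Finset V) (G : Gen k) (c : ℝ) (a : Ed → ℝ) :
    M.Q U σ₀ Λ G (c • a) (c • a) = c ^ 2 * M.Q U σ₀ Λ G a a := by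
  rw [Q_smul_right, Q_comm, Q_smul_right]; ring

theorem Q_self_le (hβ : 0 ≤ β) (Λ : Finset V) (G : Gen k) (a : Ed → ℝ) :
    M.Q U σ₀ Λ G a a ≤ β * ∑ e, a e ^ 2 := by
  have h1 : M.Ex U σ₀ (M.Mm G (a * a)) ≤ β * ∑ e, a e ^ 2 := by
    refine M.Ex_le U σ₀ fun σ => (le_abs_self _).trans ((M.abs_Mm_le G _ hβ σ).trans (le_of_eq ?_))
    simp [sq]
  have h2 : 0 ≤ M.Ex U σ₀ (M.cv Λ (M.J G a) (M.J G a)) :=
    M.Ex_nonneg U σ₀ fun σ => cov_self_nonneg _ _ _ σ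
  rw [Q]; linarith

theorem Dst_le (hβ : 0 ≤ β) (ℓ : ℕ) (W : Finset (ℤ × ℤ)) :
    M.Dst U σ₀ ℓ W ≤ 6 * β * W.card := by
  have h1 : ∑ e, M.rst W M.ω e ^ 2 ≤ 2 * W.card * (1 : ℝ) ^ 2 := by
    refine M.sum_sq_le (fun e he => ?_) fun e => ?_
    · by_contra hs; simp [rst, hs] at he
    · unfold rst; split_ifs
      exacts [M.abs_ω_le e, by simp]
  have h2 : ∀ c : Fin 3, M.Q U σ₀ (M.Lam ℓ ℓ W) (L k c) (M.rst W M.ω) (M.rst W M.ω) ≤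
      2 * β * W.card := fun c =>
    (M.Q_self_le σ₀ hβ _ _ _).trans (by nlinarith)
  rw [Dst, Fin.sum_univ_three]
  linarith [h2 0, h2 1, h2 2]

/-- The Fisher information of an exact form is its stiffness. -/
theorem Ex_ce_J_sq {Λ : Finset V} (h : Λ ⊆ U) (G : Gen k) {f : V → ℝ}
    (hf : ∀ v, v ∉ U → f v = 0) :
    M.Ex U σ₀ (M.ce Λ (M.J G (M.d f)) ^ 2) = M.Q U σ₀ Λ G (M.d f) (M.d f) := by
  rw [sq, M.Ex_ce_mul_ce σ₀ h, M.Ex_J_mul_J σ₀ G hf, Q]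

end Model

end Crest.Agent.R167
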