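import Crest.Agent.R167.Basic

/-!
# Row 167: fourth conditional moment in one box
-/

set_option autoImplicit false

namespace Crest.Agent.R167

open Finset

namespace Box

theorem tele {g : ℤ → ℝ} {μ : ℝ} {a : ℤ} (n : ℕ)
    (h : ∀ x, a ≤ x → x < a + n → |g (x + 1) - g x| ≤ μ) : |g (a + n) - g a| ≤ n * μ := by
  induction n with
  | zero => simp
  | succ n ih =>
    have h1 := ih fun x h1 h2 => h x h1 (by push_cast; omega)
    have h2 := h (a + n) (by omega) (by push_cast; omega)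
    have := abs_sub_le (g (a + n + 1)) (g (a + n)) (g a)
    push_cast
    rw [← add_assoc]
    linarith

theorem tele' {g : ℤ → ℝ} {μ : ℝ} (hμ : 0 ≤ μ) {a : ℤ} {l : ℕ}
    (h : ∀ x, a ≤ x → x < a + l → |g (x + 1) - g x| ≤ μ) {x : ℤ} (h1 : a ≤ x) (h2 : x ≤ a + l) :
    |g x - g a| ≤ l * μ := by
  obtain ⟨n, rfl⟩ := Int.le.dest h1
  refine (tele n fun x a1 a2 => h x a1 (by omega)).trans (mul_le_mul_of_nonneg_right ?_ hμ)
  exact_mod_cast (by omega : n ≤ l)

theorem prod_le {u u' s s' μ l : ℝ} (hl : 0 < l) (hμ : 0 ≤ μ) (h1 : |u' - u| ≤ μ)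
    (h2 : |u| ≤ 2 * l * μ) (h3 : |s' - s| ≤ 1) (h4 : |s'| ≤ l) :
    |u' * (s' / l) - u * (s / l)| ≤ 3 * μ := by
  have e : u' * (s' / l) - u * (s / l) = ((u' - u) * s' + u * (s' - s)) / l := by ring
  rw [e, abs_div, abs_of_pos hl, div_le_iff₀ hl]
  refine (abs_add_le _ _).trans ?_
  rw [abs_mul, abs_mul]
  nlinarith [mul_le_mul h1 h4 (abs_nonneg _) hμ, mul_le_mul h2 h3 (abs_nonneg _) (by positivity)]

theorem exists_ext (F : ℤ × ℤ → ℝ) {μ : ℝ} (hμ : 0 ≤ μ) (a b : ℤ) {l : ℕ} (hl : 1 ≤ l)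
    (hx : ∀ x y, a ≤ x → x < a + l → b ≤ y → y ≤ b + l → |F (x + 1, y) - F (x, y)| ≤ μ)
    (hy : ∀ x y, a ≤ x → x ≤ a + l → b ≤ y → y < b + l → |F (x, y + 1) - F (x, y)| ≤ μ) :
    ∃ T : ℤ × ℤ → ℝ, (∀ x y, |T (x + 1, y) - T (x, y)| ≤ 3 * μ) ∧
      (∀ x y, |T (x, y + 1) - T (x, y)| ≤ 3 * μ) ∧
      (∀ x y, a ≤ x → x ≤ a + l → b ≤ y → y ≤ b + l → T (x, y) = F (x, y) - F (a, b)) ∧
      ∀ x y, T (x, y) ≠ 0 → (a - l < x ∧ x < a + 2 * l) ∧ b - l < y ∧ y < b + 2 * l := by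
  have hl' : (0 : ℝ) < l := by exact_mod_cast hl
  let cx : ℤ → ℤ := fun x => max a (min x (a + l))
  let cy : ℤ → ℤ := fun y => max b (min y (b + l))
  let N : ℤ × ℤ → ℤ := fun z =>
    max 0 (min l (l - max (max (a - z.1) (z.1 - a - l)) (max (b - z.2) (z.2 - b - l))))
  have hb : ∀ x y, |F (cx x, cy y) - F (a, b)| ≤ 2 * l * μ := fun x y => by
    have h1 := tele' (g := fun x => F (x, cy y)) hμ (fun x h1 h2 => hx x _ h1 h2
      (by simp only [cy]; omega) (by simp only [cy]; omega)) (x := cx x)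
      (by simp only [cx]; omega) (by simp only [cx]; omega)
    have h2 := tele' (g := fun y => F (a, y)) hμ (fun y h1 h2 => hy a y le_rfl (by omega) h1 h2)
      (x := cy y) (by simp only [cy]; omega) (by simp only [cy]; omega)
    have := abs_sub_le (F (cx x, cy y)) (F (a, cy y)) (F (a, b))
    linarith
  have hN : ∀ z, |(N z : ℝ)| ≤ l := fun z => by
    have : |N z| ≤ l := by rw [abs_le]; simp only [N]; omega
    exact_mod_cast this
  refine ⟨fun z => (F (cx z.1, cy z.2) - F (a, b)) * ((N z : ℝ) / l), fun x y => ?_, fun x y => ?_,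
    fun x y h1 h2 h3 h4 => ?_, fun x y h => ?_⟩
  · refine prod_le hl' hμ ?_ (hb x y) ?_ (hN _)
    · rw [sub_sub_sub_cancel_right]
      rcases (by simp only [cx]; omega :
        cx (x + 1) = cx x ∨ (cx (x + 1) = cx x + 1 ∧ cx x < a + l)) with e | ⟨e, e'⟩
      · simpa [e] using hμ
      · rw [e]
        exact hx _ _ (by simp only [cx]; omega) e' (by simp only [cy]; omega)
          (by simp only [cy]; omega)
    · have : |N (x + 1, y) - N (x, y)| ≤ 1 := by rw [abs_le]; simp only [N]; omega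
      exact_mod_cast this
  · refine prod_le hl' hμ ?_ (hb x y) ?_ (hN _)
    · rw [sub_sub_sub_cancel_right]
      rcases (by simp only [cy]; omega :
        cy (y + 1) = cy y ∨ (cy (y + 1) = cy y + 1 ∧ cy y < b + l)) with e | ⟨e, e'⟩
      · simpa [e] using hμ
      · rw [e]
        exact hy _ _ (by simp only [cx]; omega) (by simp only [cx]; omega)
          (by simp only [cy]; omega) e'
    · have : |N (x, y + 1) - N (x, y)| ≤ 1 := by rw [abs_le]; simp only [N]; omega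
      exact_mod_cast this
  · have e1 : cx x = x := by simp only [cx]; omega
    have e2 : cy y = y := by simp only [cy]; omega
    have e3 : N (x, y) = l := by simp only [N]; omega
    simp only [e1, e2, e3, Int.cast_natCast, div_self hl'.ne', mul_one]
  · have : N (x, y) ≠ 0 := fun e => h (by simp [e])
    simp only [N] at this
    omega

end Box

theorem boxStmt : BoxStmt := by
  intro k
  refine ⟨48 * 162 ^ 2, by norm_num, fun β hβ V Ed _ _ _ M U σ₀ G ℓ B F μ hℓ hμ hU hx hy => ?_⟩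
  simp only [add_mul, one_mul] at hx hy
  obtain ⟨T, t1, t2, t3, t4⟩ := Box.exists_ext F hμ (B.1 * ℓ) (B.2 * ℓ) hℓ hx hy
  set Λ := M.Lam ℓ ℓ (rect ℓ ℓ B)
  set f : V → ℝ := fun v => T (M.pos v)
  set a := M.rst (rect ℓ ℓ B) (M.d fun v => F (M.pos v))
  have hf : ∀ v, v ∉ U → f v = 0 := fun v hv => by
    by_contra hc
    have := t4 _ _ hc
    refine hv (hU v (max (B.1 * ℓ) (min (M.X v) (B.1 * ℓ + ℓ - 1)),
      max (B.2 * ℓ) (min (M.Y v) (B.2 * ℓ + ℓ - 1))) ?_ ?_ ?_)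
    · rw [mem_rect]; simp only [add_mul]; omega
    · rw [abs_le]; omega
    · rw [abs_le]; omega
  have hI : Indep Λ (M.J G (M.d f) - M.J G a) := by
    rw [Model.J, Model.J, ← M.bil_sub]
    refine M.indep_bil _ fun e he => ?_
    by_contra hc
    have hs := M.src_mem_rect (p := ℓ) (q := ℓ) (r := B) (e := e) (by tauto)
    refine he ?_
    simp only [a, Model.rst, Pi.sub_apply, if_pos hs, Model.d, f]
    rw [mem_rect] at hs
    simp only [Model.pos, add_mul] at hs ⊢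
    rw [t3, t3] <;> first | ring1 | (rcases M.step e with h | h <;> omega)
  have e : M.J G a - M.ce Λ (M.J G a) = M.J G (M.d f) - M.ce Λ (M.J G (M.d f)) := by
    have := cE_of_indep (M.H k) hI
    rw [map_sub] at this
    simp only [Model.ce]
    linear_combination this
  have hd : ∀ e, |M.d f e| ≤ 3 * μ := fun e => by
    simp only [Model.d, f, Model.pos]
    rcases M.step e with h | h <;> rw [h.1, h.2]
    exacts [t1 _ _, t2 _ _]
  have hs := M.sum_sq_le (W := Ico (B.1 * ℓ - ℓ) (B.1 * ℓ + 2 * ℓ) ×ˢ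
    Ico (B.2 * ℓ - ℓ) (B.2 * ℓ + 2 * ℓ)) (fun e he => by
      have : f (M.s e) ≠ 0 ∨ f (M.t e) ≠ 0 := by
        by_contra hc
        push Not at hc
        exact he (by simp [Model.d, hc.1, hc.2])
      simp only [mem_product, mem_Ico, Model.pos]
      rcases this with h | h <;> have := t4 _ _ h <;> rcases M.step e with h | h <;> omega) hd
  have hc : ((Ico (B.1 * ℓ - ℓ) (B.1 * ℓ + 2 * ℓ) ×ˢ
      Ico (B.2 * ℓ - ℓ) (B.2 * ℓ + 2 * ℓ)).card : ℝ) = 9 * ℓ ^ 2 := by
    have e1 : ∀ c : ℤ, (c + 2 * ℓ - (c - ℓ)).toNat = 3 * ℓ := fun c => by omega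
    rw [card_product, Int.card_Ico, Int.card_Ico, e1, e1]
    push_cast; ring
  rw [hc] at hs
  rw [e]
  refine (M.Ex_sub_ce_four_le σ₀ (hU.Lam_subset M ℓ ℓ) _).trans ?_
  have h4 := M.Ex_J_four_le σ₀ hβ.le G hf
  have h5 : (β * ∑ e, M.d f e ^ 2) ^ 2 ≤ (162 * (β * ℓ ^ 2 * μ ^ 2)) ^ 2 := by
    refine pow_le_pow_left₀ (by positivity) ?_ 2
    nlinarith [mul_le_mul_of_nonneg_left hs hβ.le]
  nlinarith

end Crest.Agent.R167
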