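import Crest.Agent.R167.Defs

/-!
# Row 167: conditional expectations
-/

set_option autoImplicit false
set_option linter.unusedSectionVars false

namespace Crest.Agent.R167

open MeasureTheory Finset
open scoped InnerProductSpace

section Cond
variable {k : ℕ} {V : Type} [Fintype V] [DecidableEq V]

/-! ### `Indep` -/

theorem Indep.mono {Λ Λ' : Finset V} {F : CF k V} (h : Indep Λ' F) (hs : Λ ⊆ Λ') : Indep Λ F :=
  fun σ τ hv => h σ τ fun v hn => hv v fun hm => hn (hs hm)

theorem Indep.add {Λ : Finset V} {F G : CF k V} (h : Indep Λ F) (h' : Indep Λ G) :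
    Indep Λ (F + G) := fun σ τ hv => by simp [h σ τ hv, h' σ τ hv]

theorem Indep.mul {Λ : Finset V} {F G : CF k V} (h : Indep Λ F) (h' : Indep Λ G) :
    Indep Λ (F * G) := fun σ τ hv => by simp [h σ τ hv, h' σ τ hv]

theorem Indep.neg {Λ : Finset V} {F : CF k V} (h : Indep Λ F) : Indep Λ (-F) :=
  fun σ τ hv => by simp [h σ τ hv]

theorem Indep.sub {Λ : Finset V} {F G : CF k V} (h : Indep Λ F) (h' : Indep Λ G) :
    Indep Λ (F - G) := fun σ τ hv => by simp [h σ τ hv, h' σ τ hv]

theorem Indep.smul {Λ : Finset V} {F : CF k V} (c : ℝ) (h : Indep Λ F) : Indep Λ (c • F) :=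
  fun σ τ hv => by simp [h σ τ hv]

theorem Indep.pow {Λ : Finset V} {F : CF k V} (h : Indep Λ F) (n : ℕ) : Indep Λ (F ^ n) :=
  fun σ τ hv => by simp [h σ τ hv]

theorem Indep.cexp {Λ : Finset V} {F : CF k V} (h : Indep Λ F) : Indep Λ (cexp F) :=
  fun σ τ hv => by simp [h σ τ hv]

theorem indep_const (Λ : Finset V) (c : ℝ) : Indep Λ (ContinuousMap.const (Ω k V) c) :=
  fun _ _ _ => rfl

theorem indep_zero (Λ : Finset V) : Indep Λ (0 : CF k V) := fun _ _ _ => rfl

theorem indep_one (Λ : Finset V) : Indep Λ (1 : CF k V) := fun _ _ _ => rfl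

theorem indep_sum {ι : Type*} {Λ : Finset V} (I : Finset ι) {F : ι → CF k V}
    (h : ∀ i ∈ I, Indep Λ (F i)) : Indep Λ (∑ i ∈ I, F i) := fun σ τ hv => by
  simp only [ContinuousMap.coe_sum, Finset.sum_apply]
  exact Finset.sum_congr rfl fun i hi => h i hi σ τ hv

theorem Indep.union {Λ Λ' : Finset V} {F : CF k V} (h : Indep Λ F) (h' : Indep Λ' F) :
    Indep (Λ ∪ Λ') F := by
  intro σ τ hv
  have h1 : F σ = F (Λ.piecewise τ σ) := h _ _ fun v hn => by
    simp [Finset.piecewise, hn]
  have h2 : F (Λ.piecewise τ σ) = F τ := h' _ _ fun v hn => by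
    by_cases hm : v ∈ Λ
    · simp [Finset.piecewise, hm]
    · simp only [Finset.piecewise, hm, if_false]
      exact hv v (by simp [hm, hn])
  rw [h1, h2]

theorem indep_ip {Λ : Finset V} (A : E k →L[ℝ] E k) {u v : V} (hu : u ∉ Λ) (hv : v ∉ Λ) :
    Indep Λ (ip A u v) := fun σ τ h => by simp [ip, h u hu, h v hv]

theorem indep_crd {Λ : Finset V} (i : Fin (k + 3)) {v : V} (hv : v ∉ Λ) :
    Indep Λ (crd i v) := fun σ τ h => by simp [crd, h v hv]

theorem indep_obs {Λ : Finset V} (g : C(ℝ, ℝ)) {v : V} (hv : v ∉ Λ) :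
    Indep Λ (obs g v : CF k V) := fun σ τ h => by simp [obs, crd, h v hv]

/-! ### `pint` -/

theorem pint_one (Λ : Finset V) : pint Λ (1 : CF k V) = 1 := by
  ext σ
  simp [pint_apply]

theorem pint_nonneg (Λ : Finset V) {F : CF k V} (h : ∀ σ, 0 ≤ F σ) (σ : Ω k V) :
    0 ≤ pint Λ F σ := by
  rw [pint_apply]
  exact integral_nonneg fun τ => h _

theorem pint_mono (Λ : Finset V) {F G : CF k V} (h : ∀ σ, F σ ≤ G σ) (σ : Ω k V) :
    pint Λ F σ ≤ pint Λ G σ := by
  rw [pint_apply, pint_apply]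
  exact integral_mono (integrable_piecewise Λ F σ) (integrable_piecewise Λ G σ) fun τ => h _

theorem indep_pint (Λ : Finset V) (F : CF k V) : Indep Λ (pint Λ F) := by
  intro σ σ' hv
  rw [pint_apply, pint_apply]
  refine integral_congr_ae (Filter.Eventually.of_forall fun τ => ?_)
  have : Λ.piecewise τ σ = Λ.piecewise τ σ' := by
    funext v
    by_cases hm : v ∈ Λ
    · simp [Finset.piecewise, hm]
    · simp [Finset.piecewise, hm, hv v hm]
  simp only [this]

theorem pint_mul_indep {Λ : Finset V} {G : CF k V} (hG : Indep Λ G) (F : CF k V) :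
    pint Λ (G * F) = G * pint Λ F := by
  ext σ
  simp only [pint_apply, ContinuousMap.mul_apply]
  rw [← integral_const_mul]
  refine integral_congr_ae (Filter.Eventually.of_forall fun τ => ?_)
  have : G (Λ.piecewise τ σ) = G σ := hG _ _ fun v hn => by simp [Finset.piecewise, hn]
  simp only [this]

theorem measurePreserving_piecewise (Λ : Finset V) :
    MeasurePreserving (fun p : Ω k V × Ω k V => (Λ.piecewise p.2 p.1 : Ω k V))
      ((ν k V).prod (ν k V)) (ν k V) := by
  have hm := (continuous_piecewise (k := k) Λ).measurable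
  refine ⟨hm, ?_⟩
  symm
  refine Measure.pi_eq fun s hs => ?_
  rw [Measure.map_apply hm (MeasurableSet.univ_pi hs)]
  have hpre : (fun p : Ω k V × Ω k V => (Λ.piecewise p.2 p.1 : Ω k V)) ⁻¹' Set.univ.pi s =
      (Set.univ.pi fun v => if v ∈ Λ then Set.univ else s v) ×ˢ
        (Set.univ.pi fun v => if v ∈ Λ then s v else Set.univ) := by
    ext p
    simp only [Set.mem_preimage, Set.mem_pi, Set.mem_univ, forall_true_left, Set.mem_prod]
    constructor
    · intro h
      refine ⟨fun v => ?_, fun v => ?_⟩ <;> have := h v <;> by_cases hv : v ∈ Λ <;>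
        simp_all [Finset.piecewise]
    · rintro ⟨h1, h2⟩ v
      have := h1 v
      have := h2 v
      by_cases hv : v ∈ Λ <;> simp_all [Finset.piecewise]
  rw [hpre, Measure.prod_prod]
  simp only [ν, Measure.pi_pi]
  rw [← Finset.prod_mul_distrib]
  refine Finset.prod_congr rfl fun v _ => ?_
  by_cases hv : v ∈ Λ <;> simp [hv]

theorem integral_integral_piecewise (Λ : Finset V) (F : CF k V) :
    ∫ τ, ∫ τ', F (Λ.piecewise τ' τ) ∂ν k V ∂ν k V = ∫ τ, F τ ∂ν k V := by
  have h := measurePreserving_piecewise (k := k) Λ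
  have hc : Continuous fun p : Ω k V × Ω k V => F (Λ.piecewise p.2 p.1) :=
    F.continuous.comp (continuous_piecewise Λ)
  rw [integral_integral (f := fun τ τ' => F (Λ.piecewise τ' τ))
    (hc.integrable_of_hasCompactSupport (HasCompactSupport.of_compactSpace _))]
  conv_rhs => rw [← h.map_eq]
  rw [integral_map h.measurable.aemeasurable F.continuous.aestronglyMeasurable]

theorem pint_pint {Λ Λ' : Finset V} (h : Λ ⊆ Λ') (F : CF k V) :
    pint Λ' (pint Λ F) = pint Λ' F := by
  ext σ
  simp only [pint_apply]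
  have key : ∀ τ τ' : Ω k V,
      Λ.piecewise τ' (Λ'.piecewise τ σ) = Λ'.piecewise (Λ.piecewise τ' τ) σ := by
    intro τ τ'
    funext v
    by_cases hm : v ∈ Λ
    · simp [Finset.piecewise, hm, h hm]
    · by_cases hm' : v ∈ Λ' <;> simp [Finset.piecewise, hm, hm']
  simp only [key]
  exact integral_integral_piecewise Λ
    ⟨fun τ => F (Λ'.piecewise τ σ),
      F.continuous.comp ((continuous_piecewise Λ').comp (Continuous.prodMk_right σ))⟩

theorem pint_univ (F : CF k V) (σ : Ω k V) : pint univ F σ = ∫ τ, F τ ∂ν k V := by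
  simp [pint_apply]

/-- If `F` depends only on the spins in `U`, then `pint U F` is the full integral. -/
theorem pint_eq_integral {U : Finset V} {F : CF k V} (h : Indep Uᶜ F) (σ : Ω k V) :
    pint U F σ = ∫ τ, F τ ∂ν k V := by
  rw [pint_apply]
  refine integral_congr_ae (Filter.Eventually.of_forall fun τ => ?_)
  exact h _ _ fun v hn => by
    have : v ∈ U := by simpa using hn
    simp [Finset.piecewise, this]

theorem Indep.pint {Δ : Finset V} {F : CF k V} (h : Indep Δ F) (Λ : Finset V) :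
    Indep Δ (pint Λ F) := by
  intro σ σ' hv
  rw [pint_apply, pint_apply]
  refine integral_congr_ae (Filter.Eventually.of_forall fun τ => ?_)
  exact h _ _ fun v hn => by
    by_cases hm : v ∈ Λ
    · simp [Finset.piecewise, hm]
    · simp [Finset.piecewise, hm, hv v hn]

/-! ### `cE` -/

theorem cE_one (H : CF k V) (Λ : Finset V) : cE H Λ 1 = 1 := by
  ext σ
  rw [cE_apply, one_mul, div_self (pint_cexp_pos Λ H σ).ne']
  rfl

theorem cE_nonneg (H : CF k V) (Λ : Finset V) {F : CF k V} (h : ∀ σ, 0 ≤ F σ) (σ : Ω k V) :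
    0 ≤ cE H Λ F σ := by
  rw [cE_apply]
  refine div_nonneg (pint_nonneg Λ (fun τ => ?_) σ) (pint_cexp_pos Λ H σ).le
  exact mul_nonneg (h τ) (Real.exp_pos _).le

theorem cE_mono (H : CF k V) (Λ : Finset V) {F G : CF k V} (h : ∀ σ, F σ ≤ G σ) (σ : Ω k V) :
    cE H Λ F σ ≤ cE H Λ G σ := by
  rw [cE_apply, cE_apply]
  refine div_le_div_of_nonneg_right (pint_mono Λ (fun τ => ?_) σ) (pint_cexp_pos Λ H σ).le
  exact mul_le_mul_of_nonneg_right (h τ) (Real.exp_pos _).le

theorem cE_le (H : CF k V) (Λ : Finset V) {F : CF k V} {c : ℝ} (h : ∀ σ, F σ ≤ c) (σ : Ω k V) :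
    cE H Λ F σ ≤ c := by
  have h1 := cE_mono H Λ (F := F) (G := c • 1) (fun τ => by simpa using h τ) σ
  rw [map_smul, cE_one] at h1
  simpa using h1

theorem abs_cE_le (H : CF k V) (Λ : Finset V) {F : CF k V} {c : ℝ} (h : ∀ σ, |F σ| ≤ c)
    (σ : Ω k V) : |cE H Λ F σ| ≤ c := by
  rw [abs_le]
  refine ⟨?_, cE_le H Λ (fun τ => (abs_le.1 (h τ)).2) σ⟩
  have h1 := cE_le H Λ (F := -F) (c := c) (fun τ => by
    have := (abs_le.1 (h τ)).1
    simp only [ContinuousMap.neg_apply]; linarith) σ
  rw [map_neg] at h1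
  simp only [ContinuousMap.neg_apply] at h1
  linarith

theorem indep_cE (H : CF k V) (Λ : Finset V) (F : CF k V) : Indep Λ (cE H Λ F) := by
  intro σ τ hv
  rw [cE_apply, cE_apply, indep_pint Λ _ σ τ hv, indep_pint Λ (cexp H) σ τ hv]

theorem cE_mul_indep (H : CF k V) {Λ : Finset V} {G : CF k V} (hG : Indep Λ G) (F : CF k V) :
    cE H Λ (G * F) = G * cE H Λ F := by
  ext σ
  rw [ContinuousMap.mul_apply, cE_apply, cE_apply, mul_assoc, pint_mul_indep hG,
    ContinuousMap.mul_apply, mul_div_assoc]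

theorem cE_of_indep (H : CF k V) {Λ : Finset V} {G : CF k V} (hG : Indep Λ G) :
    cE H Λ G = G := by
  have := cE_mul_indep H hG 1
  rwa [mul_one, cE_one, mul_one] at this

/-- Tower property. -/
theorem cE_cE (H : CF k V) {Λ Λ' : Finset V} (h : Λ ⊆ Λ') (F : CF k V) :
    cE H Λ' (cE H Λ F) = cE H Λ' F := by
  ext σ
  rw [cE_apply, cE_apply H Λ' F]
  congr 1
  have h1 : pint Λ (cE H Λ F * cexp H) = pint Λ (F * cexp H) := by
    rw [pint_mul_indep (indep_cE H Λ F)]
    ext τ
    rw [ContinuousMap.mul_apply, cE_apply, div_mul_cancel₀ _ (pint_cexp_pos Λ H τ).ne']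
  rw [← pint_pint h, h1, pint_pint h]

theorem cE_congr_H {H H' : CF k V} {Λ : Finset V} (h : Indep Λ (H - H')) : cE H Λ = cE H' Λ := by
  have he : cexp H = cexp (H - H') * cexp H' := by
    ext σ
    simp [← Real.exp_add]
  refine LinearMap.ext fun F => ?_
  ext σ
  rw [cE_apply, cE_apply, he, mul_left_comm, pint_mul_indep h.cexp, pint_mul_indep h.cexp,
    ContinuousMap.mul_apply, ContinuousMap.mul_apply, mul_div_mul_left]
  exact (Real.exp_pos _).ne'

theorem Indep.cE {Δ : Finset V} {F H : CF k V} (hF : Indep Δ F) (hH : Indep Δ H) (Λ : Finset V) :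
    Indep Δ (cE H Λ F) := by
  intro σ τ hv
  rw [cE_apply, cE_apply, (hF.mul hH.cexp).pint Λ σ τ hv, hH.cexp.pint Λ σ τ hv]

theorem cE_univ (H F : CF k V) (σ : Ω k V) :
    cE H univ F σ = (∫ τ, F τ * Real.exp (H τ) ∂ν k V) / ∫ τ, Real.exp (H τ) ∂ν k V := by
  rw [cE_apply, pint_univ, pint_univ]
  rfl

/-- Cauchy-Schwarz. -/
theorem cE_mul_sq_le (H : CF k V) (Λ : Finset V) (F G : CF k V) (σ : Ω k V) :
    cE H Λ (F * G) σ ^ 2 ≤ cE H Λ (F ^ 2) σ * cE H Λ (G ^ 2) σ := by
  have h : ∀ t : ℝ, 0 ≤ cE H Λ (G ^ 2) σ * (t * t) + 2 * cE H Λ (F * G) σ * t +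
      cE H Λ (F ^ 2) σ := by
    intro t
    have h1 := cE_nonneg H Λ (F := (F + t • G) ^ 2) (fun τ => by
      simp only [ContinuousMap.pow_apply]; positivity) σ
    have h2 : (F + t • G) ^ 2 = (t * t) • G ^ 2 + (2 * t) • (F * G) + F ^ 2 := by
      ext τ
      simp only [ContinuousMap.pow_apply, ContinuousMap.add_apply, ContinuousMap.smul_apply,
        ContinuousMap.mul_apply, smul_eq_mul]
      ring
    rw [h2, map_add, map_add, map_smul, map_smul] at h1
    simp only [ContinuousMap.add_apply, ContinuousMap.smul_apply, smul_eq_mul] at h1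
    linarith
  have := discrim_le_zero h
  unfold discrim at this
  nlinarith

theorem cE_sq_le (H : CF k V) (Λ : Finset V) (F : CF k V) (σ : Ω k V) :
    cE H Λ F σ ^ 2 ≤ cE H Λ (F ^ 2) σ := by
  have := cE_mul_sq_le H Λ F 1 σ
  rwa [mul_one, one_pow, cE_one, ContinuousMap.one_apply, mul_one] at this

theorem cE_four_le (H : CF k V) (Λ : Finset V) (F : CF k V) (σ : Ω k V) :
    cE H Λ F σ ^ 4 ≤ cE H Λ (F ^ 4) σ := by
  have h1 := cE_sq_le H Λ F σ
  have h2 := cE_sq_le H Λ (F ^ 2) σ
  rw [← pow_mul] at h2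
  calc cE H Λ F σ ^ 4 = (cE H Λ F σ ^ 2) ^ 2 := by ring
    _ ≤ cE H Λ (F ^ 2) σ ^ 2 := pow_le_pow_left₀ (sq_nonneg _) h1 2
    _ ≤ _ := h2

/-- Jensen for the exponential. -/
theorem exp_cE_le (H : CF k V) (Λ : Finset V) (F : CF k V) (σ : Ω k V) :
    Real.exp (cE H Λ F σ) ≤ cE H Λ (cexp F) σ := by
  set m := cE H Λ F σ with hm
  have h1 := cE_mono H Λ (F := (Real.exp m * (1 - m)) • (1 : CF k V) + Real.exp m • F)
    (G := cexp F) (fun τ => by
      simp only [ContinuousMap.add_apply, ContinuousMap.smul_apply, ContinuousMap.one_apply,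
        smul_eq_mul, cexp_apply]
      have h2 := Real.add_one_le_exp (F τ - m)
      have h3 : Real.exp (F τ) = Real.exp m * Real.exp (F τ - m) := by
        rw [← Real.exp_add]; congr 1; ring
      have h4 := mul_le_mul_of_nonneg_left h2 (Real.exp_pos m).le
      rw [h3]; linarith) σ
  rw [map_add, map_smul, map_smul, cE_one] at h1
  simp only [ContinuousMap.add_apply, ContinuousMap.smul_apply, ContinuousMap.one_apply,
    smul_eq_mul, ← hm] at h1
  linarith

theorem cov_comm (H : CF k V) (Λ : Finset V) (F G : CF k V) : cov H Λ F G = cov H Λ G F := by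
  simp [cov, mul_comm]

theorem cov_eq (H : CF k V) (Λ : Finset V) (F G : CF k V) :
    cov H Λ F G = cE H Λ ((F - cE H Λ F) * (G - cE H Λ G)) := by
  have h1 : (F - cE H Λ F) * (G - cE H Λ G) =
      F * G - cE H Λ G * F - cE H Λ F * G + cE H Λ F * cE H Λ G := by ring
  rw [h1, map_add, map_sub, map_sub, cE_mul_indep H (indep_cE H Λ G),
    cE_mul_indep H (indep_cE H Λ F), cE_of_indep H ((indep_cE H Λ F).mul (indep_cE H Λ G)), cov]
  ring

theorem cov_eq' (H : CF k V) (Λ : Finset V) (F G : CF k V) :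
    cov H Λ F G = cE H Λ ((F - cE H Λ F) * G) := by
  have h1 : (F - cE H Λ F) * G = F * G - cE H Λ F * G := by ring
  rw [h1, map_sub, cE_mul_indep H (indep_cE H Λ F), cov]

theorem cov_add_left (H : CF k V) (Λ : Finset V) (F F' G : CF k V) :
    cov H Λ (F + F') G = cov H Λ F G + cov H Λ F' G := by
  simp only [cov, add_mul, map_add]; ring

theorem cov_add_right (H : CF k V) (Λ : Finset V) (F G G' : CF k V) :
    cov H Λ F (G + G') = cov H Λ F G + cov H Λ F G' := by
  simp only [cov, mul_add, map_add]; ring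

theorem cov_smul_left (H : CF k V) (Λ : Finset V) (c : ℝ) (F G : CF k V) :
    cov H Λ (c • F) G = c • cov H Λ F G := by
  simp only [cov, smul_mul_assoc, map_smul, smul_sub]

theorem cov_smul_right (H : CF k V) (Λ : Finset V) (c : ℝ) (F G : CF k V) :
    cov H Λ F (c • G) = c • cov H Λ F G := by
  simp only [cov, mul_smul_comm, map_smul, smul_sub]

theorem cov_of_indep_left (H : CF k V) {Λ : Finset V} {F : CF k V} (hF : Indep Λ F)
    (G : CF k V) : cov H Λ F G = 0 := by
  simp [cov, cE_mul_indep H hF, cE_of_indep H hF]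

theorem cov_self_nonneg (H : CF k V) (Λ : Finset V) (F : CF k V) (σ : Ω k V) :
    0 ≤ cov H Λ F F σ := by
  rw [cov_eq]
  exact cE_nonneg H Λ (fun τ => by
    simp only [ContinuousMap.mul_apply]; exact mul_self_nonneg _) σ

/-! ### Site-wise isometries -/

theorem sph_mem (T : E k →ₗᵢ[ℝ] E k) (x : Sph k) : T x ∈ Metric.sphere (0 : E k) 1 := by
  rw [mem_sphere_zero_iff_norm, T.norm_map]; exact norm_eq_of_mem_sphere x

/-- A linear isometry acting on the sphere. -/
noncomputable def sphMap (T : E k →ₗᵢ[ℝ] E k) : C(Sph k, Sph k) where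
  toFun x := ⟨T x, sph_mem T x⟩
  continuous_toFun := Continuous.subtype_mk (T.continuous.comp continuous_subtype_val) _

/-- Site-dependent linear isometries acting on configurations. -/
noncomputable def isoMap (T : V → E k →ₗᵢ[ℝ] E k) : C(Ω k V, Ω k V) :=
  ⟨fun σ v => sphMap (T v) (σ v),
    continuous_pi fun v => (sphMap (T v)).continuous.comp (continuous_apply v)⟩

@[simp] theorem isoMap_coe (T : V → E k →ₗᵢ[ℝ] E k) (σ : Ω k V) (v : V) :
    (isoMap T σ v : E k) = T v (σ v) := rfl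

open scoped Pointwise in
theorem measurePreserving_sphMap (T : E k →ₗᵢ[ℝ] E k) :
    MeasurePreserving (sphMap T) (ν₁ k) (ν₁ k) := by
  have hT : MeasurePreserving (T.toLinearIsometryEquiv rfl) (volume : Measure (E k)) volume :=
    LinearIsometryEquiv.measurePreserving _
  have h0 : MeasurePreserving (sphMap T) (volume : Measure (E k)).toSphere
      (volume : Measure (E k)).toSphere := by
    refine ⟨(sphMap T).continuous.measurable, ?_⟩
    ext s hs
    rw [Measure.map_apply (sphMap T).continuous.measurable hs,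
      Measure.toSphere_apply' _ ((sphMap T).continuous.measurable hs),
      Measure.toSphere_apply' _ hs]
    congr 1
    rw [← hT.measure_preimage_emb
      (T.toLinearIsometryEquiv rfl).toHomeomorph.measurableEmbedding
      (Set.Ioo (0 : ℝ) 1 • (Subtype.val '' s))]
    congr 1
    ext x
    simp only [Set.mem_preimage, Set.mem_smul, Set.mem_image]
    constructor
    · rintro ⟨r, hr, y, ⟨z, hz, rfl⟩, rfl⟩
      exact ⟨r, hr, T z, ⟨sphMap T z, hz, rfl⟩, by simp⟩
    · rintro ⟨r, hr, y, ⟨z, hz, rfl⟩, hx⟩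
      set S := T.toLinearIsometryEquiv rfl with hS
      have hmem : S.symm z ∈ Metric.sphere (0 : E k) 1 := by
        rw [mem_sphere_zero_iff_norm, S.symm.norm_map]; exact norm_eq_of_mem_sphere z
      refine ⟨r, hr, S.symm z, ⟨⟨S.symm z, hmem⟩, ?_, rfl⟩, ?_⟩
      · have : sphMap T ⟨S.symm z, hmem⟩ = z := Subtype.ext (S.apply_symm_apply z)
        rw [this]; exact hz
      · apply S.injective
        rw [map_smul, S.apply_symm_apply]
        exact hx
  exact h0.smul_measure _

theorem measurePreserving_isoMap (T : V → E k →ₗᵢ[ℝ] E k) :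
    MeasurePreserving (isoMap T) (ν k V) (ν k V) := by
  exact measurePreserving_pi _ _ fun v => measurePreserving_sphMap (T v)

theorem integral_isoMap (T : V → E k →ₗᵢ[ℝ] E k) (F : CF k V) :
    ∫ σ, F (isoMap T σ) ∂ν k V = ∫ σ, F σ ∂ν k V := by
  have h := measurePreserving_isoMap T
  conv_rhs => rw [← h.map_eq]
  rw [integral_map h.measurable.aemeasurable F.continuous.aestronglyMeasurable]

theorem pint_comp_isoMap (Λ : Finset V) (T : V → E k →ₗᵢ[ℝ] E k) (F : CF k V) :
    pint Λ (F.comp (isoMap T)) = (pint Λ F).comp (isoMap T) := by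
  ext σ
  simp only [pint_apply, ContinuousMap.comp_apply]
  have key : ∀ τ : Ω k V,
      isoMap T (Λ.piecewise τ σ) = Λ.piecewise (isoMap T τ) (isoMap T σ) := by
    intro τ
    funext v
    by_cases hm : v ∈ Λ <;> simp [Finset.piecewise, hm, isoMap]
  simp only [key]
  exact integral_isoMap T ⟨fun τ => F (Λ.piecewise τ (isoMap T σ)),
    F.continuous.comp ((continuous_piecewise Λ).comp (Continuous.prodMk_right _))⟩

theorem cE_comp_isoMap (H : CF k V) (Λ : Finset V) (T : V → E k →ₗᵢ[ℝ] E k) (F : CF k V) :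
    cE (H.comp (isoMap T)) Λ (F.comp (isoMap T)) = (cE H Λ F).comp (isoMap T) := by
  ext σ
  have h1 : F.comp (isoMap T) * cexp (H.comp (isoMap T)) = (F * cexp H).comp (isoMap T) := rfl
  have h2 : cexp (H.comp (isoMap T)) = (cexp H).comp (isoMap T) := rfl
  rw [cE_apply, h1, h2, pint_comp_isoMap, pint_comp_isoMap]
  rfl

end Cond

end Crest.Agent.R167
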