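import Crest.Agent.R167.Flow

/-!
# Row 167: currents and the expectation `Ex`
-/

set_option autoImplicit false
set_option linter.unusedSectionVars false

namespace Crest.Agent.R167

open MeasureTheory Finset
open scoped InnerProductSpace

namespace Model
variable {β : ℝ} {V Ed : Type} (M : Model β V Ed) [Fintype V] [DecidableEq V] [Fintype Ed]
  {k : ℕ}

/-! ### Currents -/

theorem bil_apply (A : E k →L[ℝ] E k) (a : Ed → ℝ) (σ : Ω k V) :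
    M.bil k A a σ = ∑ e, M.b e * a e * ⟪(σ (M.s e) : E k), A (σ (M.t e))⟫_ℝ := by
  simp [bil, ip]

theorem bil_add (A : E k →L[ℝ] E k) (a a' : Ed → ℝ) :
    M.bil k A (a + a') = M.bil k A a + M.bil k A a' := by
  simp [bil, mul_add, add_smul, Finset.sum_add_distrib]

theorem bil_sub (A : E k →L[ℝ] E k) (a a' : Ed → ℝ) :
    M.bil k A (a - a') = M.bil k A a - M.bil k A a' := by
  simp [bil, mul_sub, sub_smul]

theorem bil_smul (A : E k →L[ℝ] E k) (c : ℝ) (a : Ed → ℝ) :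
    M.bil k A (c • a) = c • M.bil k A a := by
  simp [bil, Finset.smul_sum, smul_smul, mul_left_comm]

theorem bil_zero (A : E k →L[ℝ] E k) : M.bil k A 0 = 0 := by simp [bil]

theorem bil_sum {ι : Type*} (A : E k →L[ℝ] E k) (I : Finset ι) (a : ι → Ed → ℝ) :
    M.bil k A (∑ i ∈ I, a i) = ∑ i ∈ I, M.bil k A (a i) := by
  classical
  induction I using Finset.induction_on with
  | empty => simp [bil_zero]
  | insert i I hi ih => rw [Finset.sum_insert hi, Finset.sum_insert hi, bil_add, ih]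

theorem bil_add_op (A A' : E k →L[ℝ] E k) (a : Ed → ℝ) :
    M.bil k (A + A') a = M.bil k A a + M.bil k A' a := by
  ext σ; simp [bil_apply, inner_add_right, mul_add, Finset.sum_add_distrib]

theorem bil_sub_op (A A' : E k →L[ℝ] E k) (a : Ed → ℝ) :
    M.bil k (A - A') a = M.bil k A a - M.bil k A' a := by
  ext σ; simp [bil_apply, inner_sub_right, mul_sub]

theorem bil_smul_op (c : ℝ) (A : E k →L[ℝ] E k) (a : Ed → ℝ) :
    M.bil k (c • A) a = c • M.bil k A a := by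
  ext σ; simp [bil_apply, inner_smul_right, Finset.mul_sum, mul_left_comm]

theorem abs_bil_le (A : E k →L[ℝ] E k) (a : Ed → ℝ) (σ : Ω k V) :
    |M.bil k A a σ| ≤ β * ‖A‖ * ∑ e, |a e| := by
  simp only [bil, ContinuousMap.coe_sum, Finset.sum_apply, ContinuousMap.smul_apply, smul_eq_mul]
  refine (Finset.abs_sum_le_sum_abs _ _).trans ?_
  rw [Finset.mul_sum]
  refine Finset.sum_le_sum fun e _ => ?_
  rw [abs_mul, abs_mul, abs_of_nonneg (M.b0 e)]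
  have h1 := abs_ip_le A (M.s e) (M.t e) σ
  have h2 := M.bβ e
  have h3 := M.b0 e
  calc M.b e * |a e| * |ip A (M.s e) (M.t e) σ| ≤ β * |a e| * ‖A‖ :=
        mul_le_mul (mul_le_mul_of_nonneg_right h2 (abs_nonneg _)) h1 (abs_nonneg _)
          (mul_nonneg (h3.trans h2) (abs_nonneg _))
    _ = β * ‖A‖ * |a e| := by ring

theorem abs_J_le (G : Gen k) (a : Ed → ℝ) (hβ : 0 ≤ β) (σ : Ω k V) :
    |M.J G a σ| ≤ β * ∑ e, |a e| := by
  refine (M.abs_bil_le G.A a σ).trans ?_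
  have h1 : β * ‖G.A‖ ≤ β := by nlinarith [G.norm_le_one, norm_nonneg G.A]
  exact mul_le_mul_of_nonneg_right h1 (Finset.sum_nonneg fun e _ => abs_nonneg _)

theorem abs_Mm_le (G : Gen k) (a : Ed → ℝ) (hβ : 0 ≤ β) (σ : Ω k V) :
    |M.Mm G a σ| ≤ β * ∑ e, |a e| := by
  rw [Mm, ContinuousMap.neg_apply, abs_neg]
  refine (M.abs_bil_le (G.A * G.A) a σ).trans ?_
  have h0 : ‖G.A * G.A‖ ≤ 1 := (norm_mul_le _ _).trans
    (by nlinarith [G.norm_le_one, norm_nonneg G.A])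
  have h1 : β * ‖G.A * G.A‖ ≤ β := by nlinarith [norm_nonneg (G.A * G.A)]
  exact mul_le_mul_of_nonneg_right h1 (Finset.sum_nonneg fun e _ => abs_nonneg _)

theorem indep_bil {Λ : Finset V} (A : E k →L[ℝ] E k) {a : Ed → ℝ}
    (h : ∀ e, a e ≠ 0 → M.s e ∉ Λ ∧ M.t e ∉ Λ) : Indep Λ (M.bil k A a) := by
  refine indep_sum _ fun e _ => ?_
  by_cases he : a e = 0
  · rw [he, mul_zero, zero_smul]; exact indep_zero _
  · exact (indep_ip A (h e he).1 (h e he).2).smul _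

theorem hasD_bil (G : Gen k) (f : V → ℝ) (A : E k →L[ℝ] E k) (a : Ed → ℝ) :
    HasD G f (M.bil k A a) (M.bil k (A * G.A) (fun e => a e * f (M.t e)) -
      M.bil k (G.A * A) (fun e => a e * f (M.s e))) := by
  have := hasD_sum (G := G) (f := f) univ
    (fun e _ => (hasD_ip (G := G) (f := f) A (M.s e) (M.t e)).smul (M.b e * a e))
  have e : M.bil k (A * G.A) (fun e => a e * f (M.t e)) -
      M.bil k (G.A * A) (fun e => a e * f (M.s e)) =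
      ∑ i, (M.b i * a i) • (f (M.t i) • ip (A * G.A) (M.s i) (M.t i) -
        f (M.s i) • ip (G.A * A) (M.s i) (M.t i)) := by
    simp only [bil, smul_sub, smul_smul, Finset.sum_sub_distrib, mul_assoc]
  rw [e]
  exact this

/-- Commutator / anticommutator form of the derivative of `bil`. -/
theorem bil_deriv_eq (A B : E k →L[ℝ] E k) (f : V → ℝ) (a : Ed → ℝ) :
    M.bil k (A * B) (fun e => a e * f (M.t e)) - M.bil k (B * A) (fun e => a e * f (M.s e)) =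
      M.bil k (A * B - B * A) (fun e => M.av f e * a e) +
        (1 / 2 : ℝ) • M.bil k (A * B + B * A) (fun e => a e * M.d f e) := by
  ext σ
  simp only [ContinuousMap.sub_apply, ContinuousMap.add_apply, ContinuousMap.smul_apply,
    bil_apply, smul_eq_mul, Finset.mul_sum, ← Finset.sum_sub_distrib, ← Finset.sum_add_distrib,
    _root_.sub_apply, _root_.add_apply, inner_sub_right,
    inner_add_right, av, d]
  exact Finset.sum_congr rfl fun e _ => by ring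

theorem hasD_H (G : Gen k) (f : V → ℝ) : HasD G f (M.H k) (M.J G (M.d f)) := by
  have := M.hasD_bil G f 1 1
  rw [one_mul, mul_one, ← bil_sub] at this
  have e : ((fun e => (1 : Ed → ℝ) e * f (M.t e)) - fun e => (1 : Ed → ℝ) e * f (M.s e)) =
      M.d f := by
    funext e
    simp [d]
  rw [e] at this
  exact this

theorem hasD_J_self (G : Gen k) (f : V → ℝ) (a : Ed → ℝ) :
    HasD G f (M.J G a) (-M.Mm G (a * M.d f)) := by
  have := M.hasD_bil G f G.A a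
  rw [← bil_sub] at this
  have e : ((fun e => a e * f (M.t e)) - fun e => a e * f (M.s e)) = a * M.d f := by
    funext e
    simp [d, mul_sub]
  rw [e] at this
  rw [Mm, neg_neg]
  exact this

theorem hasD_ce {G : Gen k} {f : V → ℝ} {F F' : CF k V} (h : HasD G f F F') (Λ : Finset V) :
    HasD G f (M.ce Λ F) (M.ce Λ F' + M.cv Λ F (M.J G (M.d f))) :=
  (M.hasD_H G f).cE h Λ

theorem hasD_psi (Λ : Finset V) (B C : Gen k) (φ χ : V → ℝ) :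
    HasD B φ (M.psi Λ C χ) (M.dpsi Λ B C φ χ) :=
  M.hasD_ce (M.hasD_bil B φ C.A (M.d χ)) Λ

/-- The energy is invariant under a global isometry. -/
theorem H_comp_isoMap (T : E k →ₗᵢ[ℝ] E k) : (M.H k).comp (isoMap fun _ => T) = M.H k := by
  ext σ
  simp [H, bil_apply]

theorem ce_comp_isoMap (Λ : Finset V) (T : E k →ₗᵢ[ℝ] E k) (F : CF k V) :
    M.ce Λ (F.comp (isoMap fun _ => T)) = (M.ce Λ F).comp (isoMap fun _ => T) := by
  have := cE_comp_isoMap (M.H k) Λ (fun _ => T) F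
  rwa [H_comp_isoMap] at this

/-! ### The expectation `Ex` -/

variable (U : Finset V) (σ₀ : Ω k V)

theorem Ex_apply (F : CF k V) : M.Ex U σ₀ F = cE (M.H k) U F σ₀ := rfl

theorem Ex_one : M.Ex U σ₀ 1 = 1 := by simp [Ex_apply, cE_one]

theorem Ex_nonneg {F : CF k V} (h : ∀ σ, 0 ≤ F σ) : 0 ≤ M.Ex U σ₀ F := cE_nonneg _ _ h _

theorem Ex_mono {F G : CF k V} (h : ∀ σ, F σ ≤ G σ) : M.Ex U σ₀ F ≤ M.Ex U σ₀ G :=
  cE_mono _ _ h _

theorem Ex_le {F : CF k V} {c : ℝ} (h : ∀ σ, F σ ≤ c) : M.Ex U σ₀ F ≤ c := cE_le _ _ h _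

theorem abs_Ex_le {F : CF k V} {c : ℝ} (h : ∀ σ, |F σ| ≤ c) : |M.Ex U σ₀ F| ≤ c :=
  abs_cE_le _ _ h _

theorem Ex_sq_nonneg (F : CF k V) : 0 ≤ M.Ex U σ₀ (F ^ 2) :=
  M.Ex_nonneg U σ₀ fun σ => by simpa using sq_nonneg (F σ)

theorem Ex_mul_sq_le (F G : CF k V) :
    M.Ex U σ₀ (F * G) ^ 2 ≤ M.Ex U σ₀ (F ^ 2) * M.Ex U σ₀ (G ^ 2) := cE_mul_sq_le _ _ _ _ _

theorem abs_Ex_mul_le (F G : CF k V) :
    |M.Ex U σ₀ (F * G)| ≤ √(M.Ex U σ₀ (F ^ 2)) * √(M.Ex U σ₀ (G ^ 2)) := by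
  rw [← Real.sqrt_mul (M.Ex_sq_nonneg U σ₀ F)]
  exact Real.abs_le_sqrt (M.Ex_mul_sq_le U σ₀ F G)

theorem Ex_sq_sq_le (F : CF k V) : M.Ex U σ₀ (F ^ 2) ^ 2 ≤ M.Ex U σ₀ (F ^ 4) := by
  have := cE_sq_le (M.H k) U (F ^ 2) σ₀
  rwa [← pow_mul] at this

/-- `𝔼 (FG)² ≤ a b` when `𝔼 F⁴ ≤ a²` and `𝔼 G⁴ ≤ b²`. -/
theorem Ex_mul_sq_le_of_four {F G : CF k V} {a b : ℝ} (ha : 0 ≤ a) (hb : 0 ≤ b)
    (hF : M.Ex U σ₀ (F ^ 4) ≤ a ^ 2) (hG : M.Ex U σ₀ (G ^ 4) ≤ b ^ 2) :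
    M.Ex U σ₀ ((F * G) ^ 2) ≤ a * b := by
  have h1 := M.Ex_mul_sq_le U σ₀ (F ^ 2) (G ^ 2)
  rw [← pow_mul, ← pow_mul, ← mul_pow] at h1
  have h2 : 0 ≤ M.Ex U σ₀ (G ^ 4) := by
    have := M.Ex_sq_nonneg U σ₀ (G ^ 2)
    rwa [← pow_mul] at this
  have h3 : M.Ex U σ₀ ((F * G) ^ 2) ^ 2 ≤ (a * b) ^ 2 := by
    rw [mul_pow a b]
    exact h1.trans (mul_le_mul hF hG h2 (sq_nonneg _))
  exact (abs_le_of_sq_le_sq' h3 (mul_nonneg ha hb)).2

variable {U}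

theorem Ex_ce {Λ : Finset V} (h : Λ ⊆ U) (F : CF k V) :
    M.Ex U σ₀ (M.ce Λ F) = M.Ex U σ₀ F := by
  rw [Ex_apply, Ex_apply, ce, cE_cE _ h]

theorem Ex_mul_ce {Λ : Finset V} (h : Λ ⊆ U) {G : CF k V} (hG : Indep Λ G) (F : CF k V) :
    M.Ex U σ₀ (G * M.ce Λ F) = M.Ex U σ₀ (G * F) := by
  rw [ce, ← cE_mul_indep _ hG]
  exact M.Ex_ce σ₀ h _

theorem Ex_ce_sq_le {Λ : Finset V} (h : Λ ⊆ U) (F : CF k V) :
    M.Ex U σ₀ (M.ce Λ F ^ 2) ≤ M.Ex U σ₀ (F ^ 2) := by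
  rw [← M.Ex_ce σ₀ h (F ^ 2)]
  exact M.Ex_mono U σ₀ fun σ => by simpa [ce] using cE_sq_le (M.H k) Λ F σ

theorem Ex_ce_four_le {Λ : Finset V} (h : Λ ⊆ U) (F : CF k V) :
    M.Ex U σ₀ (M.ce Λ F ^ 4) ≤ M.Ex U σ₀ (F ^ 4) := by
  rw [← M.Ex_ce σ₀ h (F ^ 4)]
  exact M.Ex_mono U σ₀ fun σ => by simpa [ce] using cE_four_le (M.H k) Λ F σ

theorem Ex_sub_ce_four_le {Λ : Finset V} (h : Λ ⊆ U) (F : CF k V) :
    M.Ex U σ₀ ((F - M.ce Λ F) ^ 4) ≤ 16 * M.Ex U σ₀ (F ^ 4) := by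
  have h1 := M.Ex_ce_four_le σ₀ h F
  have h2 : M.Ex U σ₀ ((F - M.ce Λ F) ^ 4) ≤
      M.Ex U σ₀ ((8 : ℝ) • F ^ 4 + (8 : ℝ) • M.ce Λ F ^ 4) := by
    refine M.Ex_mono U σ₀ fun σ => ?_
    simp only [ContinuousMap.pow_apply, ContinuousMap.sub_apply, ContinuousMap.add_apply,
      ContinuousMap.smul_apply, smul_eq_mul]
    generalize F σ = x
    generalize M.ce Λ F σ = y
    nlinarith [sq_nonneg (x + y), sq_nonneg (x ^ 2 - y ^ 2), sq_nonneg ((x - y) ^ 2),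
      mul_nonneg (sq_nonneg (x + y)) (sq_nonneg (x - y)), sq_nonneg ((x + y) ^ 2)]
  rw [map_add, map_smul, map_smul, smul_eq_mul, smul_eq_mul] at h2
  linarith

theorem Ex_ce_mul_ce {Λ : Finset V} (h : Λ ⊆ U) (F G : CF k V) :
    M.Ex U σ₀ (M.ce Λ F * M.ce Λ G) = M.Ex U σ₀ (F * G) - M.Ex U σ₀ (M.cv Λ F G) := by
  have h1 : M.Ex U σ₀ (M.cv Λ F G) =
      M.Ex U σ₀ (M.ce Λ (F * G)) - M.Ex U σ₀ (M.ce Λ F * M.ce Λ G) := by
    rw [← map_sub]; rfl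
  rw [h1, M.Ex_ce σ₀ h]
  ring

theorem Ex_cv_self {Λ : Finset V} (h : Λ ⊆ U) (F : CF k V) :
    M.Ex U σ₀ (M.cv Λ F F) = M.Ex U σ₀ ((F - M.ce Λ F) ^ 2) := by
  rw [cv, cov_eq, sq]
  exact M.Ex_ce σ₀ h _

/-- `𝔼 cov(F,G)² ≤ a b` when the centred fourth moments are at most `a²`, `b²`. -/
theorem Ex_cv_sq_le {Λ : Finset V} (h : Λ ⊆ U) {F G : CF k V} {a b : ℝ} (ha : 0 ≤ a) (hb : 0 ≤ b)
    (hF : M.Ex U σ₀ ((F - M.ce Λ F) ^ 4) ≤ a ^ 2) (hG : M.Ex U σ₀ ((G - M.ce Λ G) ^ 4) ≤ b ^ 2) :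
    M.Ex U σ₀ (M.cv Λ F G ^ 2) ≤ a * b := by
  refine le_trans ?_ (M.Ex_mul_sq_le_of_four U σ₀ ha hb hF hG)
  rw [cv, cov_eq]
  exact M.Ex_ce_sq_le σ₀ h _

/-- `|𝔼 cov(F,G)| ≤ (𝔼 (F - E F)² + 𝔼 G²) / 2`. -/
theorem abs_Ex_cv_le {Λ : Finset V} (h : Λ ⊆ U) (F G : CF k V) :
    |M.Ex U σ₀ (M.cv Λ F G)| ≤ (M.Ex U σ₀ ((F - M.ce Λ F) ^ 2) + M.Ex U σ₀ (G ^ 2)) / 2 := by
  have h1 : M.Ex U σ₀ (M.cv Λ F G) = M.Ex U σ₀ ((F - M.ce Λ F) * G) := by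
    rw [cv, cov_eq']
    exact M.Ex_ce σ₀ h _
  rw [h1]
  generalize F - M.ce Λ F = K
  have h2 := M.Ex_sq_nonneg U σ₀ (K - G)
  have h3 := M.Ex_sq_nonneg U σ₀ (K + G)
  have e2 : (K - G) ^ 2 = K ^ 2 + G ^ 2 - (2 : ℝ) • (K * G) := by
    ext σ; simp; ring
  have e3 : (K + G) ^ 2 = K ^ 2 + G ^ 2 + (2 : ℝ) • (K * G) := by
    ext σ; simp; ring
  rw [e2, map_sub, map_add, map_smul, smul_eq_mul] at h2
  rw [e3, map_add, map_add, map_smul, smul_eq_mul] at h3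
  rw [abs_le]
  constructor <;> linarith

/-- Integration by parts. -/
theorem Ex_ibp {G : Gen k} {f : V → ℝ} (hf : ∀ v, v ∉ U → f v = 0) {F F' : CF k V}
    (h : HasD G f F F') : M.Ex U σ₀ F' = -M.Ex U σ₀ (F * M.J G (M.d f)) := by
  rw [Ex_apply, Ex_apply, cE_ibp (M.hasD_H G f) h hf, ContinuousMap.neg_apply]

theorem Ex_J_mul_J (G : Gen k) {f : V → ℝ} (hf : ∀ v, v ∉ U → f v = 0) (a : Ed → ℝ) :
    M.Ex U σ₀ (M.J G a * M.J G (M.d f)) = M.Ex U σ₀ (M.Mm G (a * M.d f)) := by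
  have := M.Ex_ibp σ₀ hf (M.hasD_J_self G f a)
  rw [map_neg] at this
  linarith

theorem Ex_J_sq_le (hβ : 0 ≤ β) (G : Gen k) {f : V → ℝ} (hf : ∀ v, v ∉ U → f v = 0) :
    M.Ex U σ₀ (M.J G (M.d f) ^ 2) ≤ β * ∑ e, M.d f e ^ 2 := by
  rw [sq, M.Ex_J_mul_J σ₀ G hf]
  refine M.Ex_le U σ₀ fun σ => (le_abs_self _).trans ((M.abs_Mm_le G _ hβ σ).trans ?_)
  refine le_of_eq ?_
  congr 1
  exact Finset.sum_congr rfl fun e _ => by rw [Pi.mul_apply, abs_mul_self, sq]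

theorem Ex_J_four_le (hβ : 0 ≤ β) (G : Gen k) {f : V → ℝ} (hf : ∀ v, v ∉ U → f v = 0) :
    M.Ex U σ₀ (M.J G (M.d f) ^ 4) ≤ 3 * (β * ∑ e, M.d f e ^ 2) ^ 2 := by
  have hJ := M.hasD_J_self G f (M.d f)
  have h1 := M.Ex_ibp σ₀ hf ((hJ.mul hJ).mul hJ)
  have h2 := M.Ex_J_sq_le σ₀ hβ G hf
  set J := M.J G (M.d f)
  set N := M.Mm G (M.d f * M.d f) with hN
  set c := β * ∑ e, M.d f e ^ 2 with hc
  have hc0 : 0 ≤ c := mul_nonneg hβ (Finset.sum_nonneg fun e _ => sq_nonneg _)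
  have e1 : (-N * J + J * -N) * J + J * J * -N = -((3 : ℝ) • (J ^ 2 * N)) := by
    ext σ; simp; ring
  have e2 : J * J * J * J = J ^ 4 := by ring
  rw [e1, e2, map_neg, map_smul, smul_eq_mul] at h1
  have h3 : M.Ex U σ₀ (J ^ 2 * N) ≤ M.Ex U σ₀ (c • J ^ 2) := by
    refine M.Ex_mono U σ₀ fun σ => ?_
    have h4 : N σ ≤ c := by
      refine (le_abs_self _).trans ((M.abs_Mm_le G _ hβ σ).trans (le_of_eq ?_))
      rw [hc]
      congr 1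
      exact Finset.sum_congr rfl fun e _ => by rw [Pi.mul_apply, abs_mul_self, sq]
    simp only [ContinuousMap.mul_apply, ContinuousMap.pow_apply, ContinuousMap.smul_apply,
      smul_eq_mul]
    nlinarith [sq_nonneg (J σ)]
  rw [map_smul, smul_eq_mul] at h3
  nlinarith

/-- The defining property of the score. -/
theorem Ex_mul_score (Λ : Finset V) (B C : Gen k) {φ : V → ℝ} (χ : V → ℝ)
    (hφ : ∀ v, v ∉ U → φ v = 0) {F F' : CF k V} (h : HasD B φ F F') :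
    M.Ex U σ₀ (F * M.score Λ B C φ χ) = M.Ex U σ₀ (M.psi Λ C χ * F') := by
  have h1 := M.Ex_ibp σ₀ hφ (h.mul (M.hasD_psi Λ B C φ χ))
  have e1 : F * M.score Λ B C φ χ =
      -(F * M.psi Λ C χ * M.J B (M.d φ)) - F * M.dpsi Λ B C φ χ := by
    rw [score]; ring
  rw [map_add] at h1
  rw [e1, map_sub, map_neg, mul_comm (M.psi Λ C χ) F']
  linarith

end Model

end Crest.Agent.R167
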