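import Crest.Agent.R167.Basic

/-!
# Row 167: small Fisher information implies decay of odd observables
-/

set_option autoImplicit false
set_option linter.unusedSectionVars false

namespace Crest.Agent.R167

open Finset

namespace Dec

variable {β : ℝ} {V Ed : Type} (M : Model β V Ed) [Fintype V] [DecidableEq V] [Fintype Ed]
  {k : ℕ}

theorem obs_flip (g : C(ℝ, ℝ)) (hg : ∀ x, g (-x) = -g x) (z : V) :
    (obs g z : CF k V).comp (isoMap fun _ => (L k 0).rotL Real.pi) = -obs g z := by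
  ext σ
  simp only [obs, crd, ContinuousMap.comp_apply, ContinuousMap.coe_mk, ContinuousMap.neg_apply,
    isoMap_coe, Gen.rotL_apply, L_zero_rot_pi, hg]

theorem step (z : V) {R : ℕ} (g : C(ℝ, ℝ)) (hg : ∀ x, g (-x) = -g x) {c : ℝ}
    (hc : ∀ σ : Ω k V, |M.ce (M.ball z R) (obs g z) σ| ≤ c) (σ₀ : Ω k V) {Λ : Finset V}
    {χ : V → ℝ} (h1 : Λ ⊆ M.ball z (3 * R)) (h2 : ∀ v, M.dist v z ≤ R → v ∉ Λ ∧ χ v = 1)
    (h3 : ∀ v, v ∉ M.ball z (3 * R) → χ v = 0)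
    (h4 : M.Ex (M.ball z (3 * R)) σ₀ (M.ce Λ (M.J (L k 0) (M.d χ)) ^ 2) ≤ (1 / 54) ^ 2) :
    |M.ce (M.ball z (3 * R)) (obs g z) σ₀| ≤ c / 27 := by
  have hc0 : 0 ≤ c := (abs_nonneg _).trans (hc σ₀)
  set G : CF k V := M.ce (M.ball z R) (obs g z) with hG
  set U := M.ball z (3 * R) with hU
  set Δ : Finset V := univ.filter fun v => R < M.dist v z with hΔ
  have mΔ : ∀ v, v ∈ Δ ↔ R < M.dist v z := fun v => by simp [hΔ]
  have hI : Indep Δ G := by
    refine M.indep_ce (indep_obs g ?_) fun e he => ?_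
    · rw [mem_sdiff, mΔ]
      simp [Model.dist]
    · simp only [Model.mem_ball, mΔ, Model.dist] at he ⊢
      rcases M.step e with h | h <;> omega
  have hIt : ∀ t, Indep Λ (G.comp (flow (L k 0) χ t)) := fun t σ τ hv =>
    hI _ _ fun v hn => Subtype.ext (by
      rw [flow_coe, flow_coe, hv v (h2 v (by rw [mΔ] at hn; omega)).1])
  have hflip : G.comp (flow (L k 0) χ Real.pi) = -G := by
    have e1 : G.comp (flow (L k 0) χ Real.pi) =
        G.comp (isoMap fun _ => (L k 0).rotL Real.pi) := by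
      ext σ
      refine hI _ _ fun v hn => Subtype.ext ?_
      rw [flow_coe, (h2 v (by rw [mΔ] at hn; omega)).2, mul_one, isoMap_coe, Gen.rotL_apply]
    rw [e1, hG, ← M.ce_comp_isoMap, obs_flip g hg, map_neg]
  have h0 : G.comp (flow (L k 0) χ 0) = G := by
    ext σ
    rw [ContinuousMap.comp_apply, flow_zero]
  set φ : ℝ → ℝ := fun t => M.Ex U σ₀ (G.comp (flow (L k 0) χ t)) with hφ
  set φ' : ℝ → ℝ := fun t => -M.Ex U σ₀ (G.comp (flow (L k 0) χ t) * M.J (L k 0) (M.d χ))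
    with hφ'
  have hd : ∀ t, HasDerivAt φ (φ' t) t := fun t =>
    hasDerivAt_cE_flow (M.hasD_H (L k 0) χ) G h3 σ₀ t
  have hb : ∀ t, ‖φ' t‖ ≤ c / 54 := by
    intro t
    rw [hφ', norm_neg, Real.norm_eq_abs, ← M.Ex_mul_ce σ₀ h1 (hIt t)]
    refine (M.abs_Ex_mul_le U σ₀ _ _).trans ?_
    have a1 : √(M.Ex U σ₀ (G.comp (flow (L k 0) χ t) ^ 2)) ≤ c := by
      refine Real.sqrt_le_iff.2 ⟨hc0, M.Ex_le U σ₀ fun σ => ?_⟩
      rw [ContinuousMap.pow_apply, ContinuousMap.comp_apply, ← sq_abs]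
      exact pow_le_pow_left₀ (abs_nonneg _) (hc _) 2
    have a2 : √(M.Ex U σ₀ (M.ce Λ (M.J (L k 0) (M.d χ)) ^ 2)) ≤ 1 / 54 :=
      Real.sqrt_le_iff.2 ⟨by norm_num, h4⟩
    calc _ ≤ c * (1 / 54) := mul_le_mul a1 a2 (Real.sqrt_nonneg _) hc0
      _ = c / 54 := by ring
  have hm := Convex.norm_image_sub_le_of_norm_hasDerivWithin_le (s := Set.univ) (f := φ)
    (f' := φ') (C := c / 54) (fun t _ => (hd t).hasDerivWithinAt) (fun t _ => hb t)
    convex_univ (Set.mem_univ 0) (Set.mem_univ Real.pi)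
  have e0 : φ 0 = M.ce U (obs g z) σ₀ := by
    simp only [hφ, h0]
    rw [hG, M.Ex_ce σ₀ (fun v hv => by rw [hU, Model.mem_ball] at *; omega)]
    rfl
  have eπ : φ Real.pi = -φ 0 := by
    simp only [hφ, h0, hflip, map_neg]
  rw [eπ, e0, sub_zero, Real.norm_eq_abs, Real.norm_eq_abs, abs_of_pos Real.pi_pos,
    ← neg_add', abs_neg, ← two_mul, abs_mul, abs_two] at hm
  nlinarith [Real.pi_le_four]

end Dec

theorem decayStmt_of (h : FisherStmt) : DecayStmt := by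
  intro k β γ hβ hγ
  obtain ⟨R₀, hR₀, H⟩ := h k β ((1 / 54) ^ 2) hβ (by norm_num)
  obtain ⟨i, hi⟩ := exists_pow_lt_of_lt_one (x := γ / (R₀ : ℝ) ^ 2) (y := (1 / 3 : ℝ))
    (by positivity) (by norm_num)
  refine ⟨3 ^ i * R₀, Nat.mul_pos (by positivity) hR₀, ?_⟩
  intro V Ed _ _ _ M z σ₀ g hg hg1
  have key : ∀ i : ℕ, ∀ σ : Ω k V,
      |M.ce (M.ball z (3 ^ i * R₀)) (obs g z) σ| ≤ (1 / 27) ^ i := by
    intro i
    induction i with
    | zero => exact fun σ => abs_cE_le _ _ (fun τ => by simpa [obs] using hg1 _) σ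
    | succ i ih =>
      intro σ
      obtain ⟨Λ, χ, h1, h2, h3, h4⟩ := H (3 ^ i) (Nat.one_le_pow _ _ (by norm_num)) V Ed M z σ
      have := Dec.step M z g hg ih σ h1 h2 h3 h4
      rw [pow_succ', mul_assoc, pow_succ]
      linarith
  have hR : (0 : ℝ) < (R₀ : ℝ) ^ 2 := by positivity
  rw [lt_div_iff₀ hR] at hi
  have e : ((3 ^ i * R₀ : ℕ) : ℝ) ^ 2 * (1 / 27) ^ i = (1 / 3) ^ i * (R₀ : ℝ) ^ 2 := by
    push_cast
    rw [mul_pow, ← pow_mul, mul_comm i 2, pow_mul, mul_right_comm, ← mul_pow]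
    norm_num
  calc _ ≤ (1 / 27) ^ i * ((3 ^ i * R₀ : ℕ) : ℝ) ^ 2 :=
        mul_le_mul_of_nonneg_right (key i σ₀) (by positivity)
    _ ≤ γ := by rw [mul_comm, e]; exact hi.le

end Crest.Agent.R167
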