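import Mathlib

/-!
# Row 167 (S0253): definitions and interface statements

Spins take values in the unit sphere of `ℝ^(k+3)`.  Everything is phrased on the algebra
`CF k V = C(Ω k V, ℝ)` of continuous functions of the configuration.
-/

set_option autoImplicit false
set_option linter.unusedSectionVars false

namespace Crest.Agent.R167

open MeasureTheory Finset
open scoped InnerProductSpace

/-! ## Spins, reference measure, conditional expectations -/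

abbrev E (k : ℕ) : Type := EuclideanSpace ℝ (Fin (k + 3))
abbrev Sph (k : ℕ) : Type := Metric.sphere (0 : E k) 1
abbrev Ω (k : ℕ) (V : Type) : Type := V → Sph k
abbrev CF (k : ℕ) (V : Type) : Type := C(Ω k V, ℝ)

/-- Uniform probability measure on the sphere. -/
noncomputable def ν₁ (k : ℕ) : Measure (Sph k) :=
  ((volume : Measure (E k)).toSphere Set.univ)⁻¹ • (volume : Measure (E k)).toSphere

instance (k : ℕ) : IsProbabilityMeasure (ν₁ k) := by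
  constructor
  have h0 : (volume : Measure (E k)).toSphere Set.univ ≠ 0 := by
    rw [Ne, Measure.measure_univ_eq_zero]
    exact Measure.toSphere_ne_zero (volume : Measure (E k))
  simp only [ν₁, Measure.smul_apply, smul_eq_mul]
  exact ENNReal.inv_mul_cancel h0 (measure_ne_top _ _)

/-- Product reference measure. -/
noncomputable def ν (k : ℕ) (V : Type) [Fintype V] : Measure (Ω k V) := Measure.pi fun _ => ν₁ k

instance (k : ℕ) (V : Type) [Fintype V] : IsProbabilityMeasure (ν k V) := by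
  unfold ν; infer_instance

section Cond
variable {k : ℕ} {V : Type} [Fintype V] [DecidableEq V]

/-- `F` does not depend on the spins in `Λ`. -/
def Indep (Λ : Finset V) (F : CF k V) : Prop :=
  ∀ σ τ : Ω k V, (∀ v, v ∉ Λ → σ v = τ v) → F σ = F τ

theorem integrable_CF (F : CF k V) : Integrable F (ν k V) :=
  F.continuous.integrable_of_hasCompactSupport (HasCompactSupport.of_compactSpace _)

theorem continuous_piecewise (Λ : Finset V) :
    Continuous fun p : Ω k V × Ω k V => (Λ.piecewise p.2 p.1 : Ω k V) := by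
  refine continuous_pi fun v => ?_
  by_cases h : v ∈ Λ
  · simp only [Finset.piecewise, h, if_true]; fun_prop
  · simp only [Finset.piecewise, h, if_false]; fun_prop

theorem integrable_piecewise (Λ : Finset V) (F : CF k V) (σ : Ω k V) :
    Integrable (fun τ => F (Λ.piecewise τ σ)) (ν k V) := by
  have : Continuous fun τ : Ω k V => F (Λ.piecewise τ σ) :=
    F.continuous.comp ((continuous_piecewise Λ).comp (Continuous.prodMk_right σ))
  exact this.integrable_of_hasCompactSupport (HasCompactSupport.of_compactSpace _)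

/-- Integrate out the spins in `Λ` against the reference measure. -/
noncomputable def pint (Λ : Finset V) : CF k V →ₗ[ℝ] CF k V where
  toFun F := ⟨fun σ => ∫ τ, F (Λ.piecewise τ σ) ∂ν k V, by
    have := continuous_parametric_integral_of_continuous (μ := ν k V)
      (f := fun σ τ : Ω k V => F (Λ.piecewise τ σ))
      (F.continuous.comp (continuous_piecewise Λ)) isCompact_univ
    simpa using this⟩
  map_add' F G := by
    ext σ
    simp only [ContinuousMap.add_apply, ContinuousMap.coe_mk]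
    exact integral_add (integrable_piecewise Λ F σ) (integrable_piecewise Λ G σ)
  map_smul' c F := by
    ext σ
    simp only [ContinuousMap.smul_apply, ContinuousMap.coe_mk, RingHom.id_apply, smul_eq_mul]
    exact integral_const_mul _ _

theorem pint_apply (Λ : Finset V) (F : CF k V) (σ : Ω k V) :
    pint Λ F σ = ∫ τ, F (Λ.piecewise τ σ) ∂ν k V := rfl

/-- Pointwise exponential. -/
noncomputable def cexp (H : CF k V) : CF k V := ⟨fun σ => Real.exp (H σ), by fun_prop⟩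

omit [Fintype V] [DecidableEq V] in
@[simp] theorem cexp_apply (H : CF k V) (σ : Ω k V) : cexp H σ = Real.exp (H σ) := rfl

theorem pint_cexp_pos (Λ : Finset V) (H : CF k V) (σ : Ω k V) : 0 < pint Λ (cexp H) σ := by
  rw [pint_apply]
  exact integral_exp_pos (integrable_piecewise Λ (cexp H) σ)

/-- Gibbs conditional expectation with energy `H`: resample the spins in `Λ`. -/
noncomputable def cE (H : CF k V) (Λ : Finset V) : CF k V →ₗ[ℝ] CF k V where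
  toFun F := ⟨fun σ => pint Λ (F * cexp H) σ / pint Λ (cexp H) σ,
    (pint Λ (F * cexp H)).continuous.div (pint Λ (cexp H)).continuous
      fun σ => (pint_cexp_pos Λ H σ).ne'⟩
  map_add' F G := by ext σ; simp [add_mul, add_div]
  map_smul' c F := by ext σ; simp [mul_div_assoc]

theorem cE_apply (H : CF k V) (Λ : Finset V) (F : CF k V) (σ : Ω k V) :
    cE H Λ F σ = pint Λ (F * cexp H) σ / pint Λ (cexp H) σ := rfl

/-- Conditional covariance. -/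
noncomputable def cov (H : CF k V) (Λ : Finset V) (F G : CF k V) : CF k V :=
  cE H Λ (F * G) - cE H Λ F * cE H Λ G

end Cond

/-! ## Rotation generators and flows -/

/-- A skew operator with `A³ = -A` (a plane rotation generator). -/
structure Gen (k : ℕ) where
  A : E k →L[ℝ] E k
  skew : ∀ x y, ⟪A x, y⟫_ℝ = -⟪x, A y⟫_ℝ
  cube : ∀ x, A (A (A x)) = -A x

namespace Gen
variable {k : ℕ} (G : Gen k)

/-- Rodrigues formula for `exp (t A)`. -/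
noncomputable def rot (t : ℝ) (x : E k) : E k :=
  x + Real.sin t • G.A x + (1 - Real.cos t) • G.A (G.A x)

theorem inner_rot (t : ℝ) (x y : E k) : ⟪G.rot t x, G.rot t y⟫_ℝ = ⟪x, y⟫_ℝ := by
  have h1 : ⟪G.A x, y⟫_ℝ = -⟪x, G.A y⟫_ℝ := G.skew _ _
  have h2 : ⟪G.A x, G.A y⟫_ℝ = -⟪x, G.A (G.A y)⟫_ℝ := G.skew _ _
  have h3 : ⟪G.A x, G.A (G.A y)⟫_ℝ = ⟪x, G.A y⟫_ℝ := by rw [G.skew, G.cube]; simp
  have h4 : ⟪G.A (G.A x), y⟫_ℝ = ⟪x, G.A (G.A y)⟫_ℝ := by rw [G.skew, G.skew]; simp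
  have h5 : ⟪G.A (G.A x), G.A y⟫_ℝ = -⟪x, G.A y⟫_ℝ := by rw [G.skew, h3]
  have h6 : ⟪G.A (G.A x), G.A (G.A y)⟫_ℝ = -⟪x, G.A (G.A y)⟫_ℝ := by
    rw [G.skew, G.cube, inner_neg_right, h2]; simp
  simp only [rot, inner_add_left, inner_add_right, real_inner_smul_left, real_inner_smul_right,
    h1, h2, h3, h4, h5, h6]
  linear_combination (-⟪x, G.A (G.A y)⟫_ℝ) * Real.sin_sq_add_cos_sq t

theorem norm_rot (t : ℝ) (x : E k) : ‖G.rot t x‖ = ‖x‖ := by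
  rw [@norm_eq_sqrt_real_inner _ _ _ (G.rot t x), inner_rot, ← norm_eq_sqrt_real_inner]

/-- The rotation on the sphere. -/
noncomputable def rs (t : ℝ) (x : Sph k) : Sph k :=
  ⟨G.rot t x, by rw [mem_sphere_zero_iff_norm, norm_rot]; exact norm_eq_of_mem_sphere x⟩

theorem continuous_rs : Continuous fun p : ℝ × Sph k => G.rs p.1 p.2 := by
  refine Continuous.subtype_mk ?_ _
  unfold rot
  fun_prop

end Gen

section Flow
variable {k : ℕ} {V : Type}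

/-- The flow `σ_v ↦ exp (t f(v) A) σ_v`. -/
noncomputable def flow (G : Gen k) (f : V → ℝ) (t : ℝ) : C(Ω k V, Ω k V) :=
  ⟨fun σ v => G.rs (t * f v) (σ v), continuous_pi fun v =>
    G.continuous_rs.comp (Continuous.prodMk continuous_const (continuous_apply v))⟩

/-- `F'` is the derivative of `F` along the flow of `(G, f)`. -/
def HasD (G : Gen k) (f : V → ℝ) (F F' : CF k V) : Prop :=
  ∀ σ, HasDerivAt (fun t => F (flow G f t σ)) (F' σ) 0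

/-- `σ ↦ ⟪σ u, A (σ v)⟫`. -/
noncomputable def ip (A : E k →L[ℝ] E k) (u v : V) : CF k V :=
  ⟨fun σ => ⟪(σ u : E k), A (σ v)⟫_ℝ, by fun_prop⟩

/-- The coordinate `i` of the spin at `v`. -/
noncomputable def crd (i : Fin (k + 3)) (v : V) : CF k V := ⟨fun σ => (σ v : E k) i, by fun_prop⟩

/-- `σ ↦ g (σ_v^0)`. -/
noncomputable def obs (g : C(ℝ, ℝ)) (v : V) : CF k V := g.comp (crd 0 v)

end Flow

/-- `E_ij - E_ji : x ↦ x_j e_i - x_i e_j`. -/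
noncomputable def genA {k : ℕ} (i j : Fin (k + 3)) : E k →L[ℝ] E k :=
  (EuclideanSpace.proj j : E k →L[ℝ] ℝ).smulRight (EuclideanSpace.single i (1 : ℝ)) -
    (EuclideanSpace.proj i : E k →L[ℝ] ℝ).smulRight (EuclideanSpace.single j (1 : ℝ))

theorem genA_apply {k : ℕ} (i j : Fin (k + 3)) (x : E k) :
    genA i j x = x j • EuclideanSpace.single i (1 : ℝ) - x i • EuclideanSpace.single j (1 : ℝ) := by
  simp [genA]

/-- The generator of rotations in the plane `(i, j)`. -/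
noncomputable def gen {k : ℕ} (i j : Fin (k + 3)) (h : i ≠ j) : Gen k where
  A := genA i j
  skew x y := by
    simp only [genA_apply, inner_sub_left, inner_sub_right, real_inner_smul_left,
      real_inner_smul_right, EuclideanSpace.inner_single_left, EuclideanSpace.inner_single_right]
    simp; ring
  cube x := by
    ext l
    simp [genA_apply, h, h.symm]
    ring

/-- The `so(3)` triple: `[L c, L (c+1)] = L (c+2)`; `L 0` rotates the plane of coordinates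
`0, 1`. -/
noncomputable def L (k : ℕ) : Fin 3 → Gen k :=
  ![gen ⟨1, by omega⟩ ⟨0, by omega⟩ (by simp), gen ⟨2, by omega⟩ ⟨1, by omega⟩ (by simp),
    gen ⟨0, by omega⟩ ⟨2, by omega⟩ (by simp)]

/-! ## Lattice models -/

/-- A finite piece of the square lattice with ferromagnetic couplings in `[0, β]`. -/
structure Model (β : ℝ) (V Ed : Type) where
  X : V → ℤ
  Y : V → ℤ
  s : Ed → V
  t : Ed → V
  b : Ed → ℝ
  inj : ∀ u v, X u = X v → Y u = Y v → u = v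
  step : ∀ e, (X (t e) = X (s e) + 1 ∧ Y (t e) = Y (s e)) ∨
    (X (t e) = X (s e) ∧ Y (t e) = Y (s e) + 1)
  einj : ∀ e e', s e = s e' → t e = t e' → e = e'
  b0 : ∀ e, 0 ≤ b e
  bβ : ∀ e, b e ≤ β

/-- Cell index of a lattice point for the `p × q` grid. -/
def cell (p q : ℕ) (z : ℤ × ℤ) : ℤ × ℤ := (z.1 / p, z.2 / q)

/-- The half-open cell with index `r` of the `p × q` grid. -/
noncomputable def rect (p q : ℕ) (r : ℤ × ℤ) : Finset (ℤ × ℤ) :=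
  Ico (r.1 * p) ((r.1 + 1) * p) ×ˢ Ico (r.2 * q) ((r.2 + 1) * q)

/-- `W` is a union of cells of the `p × q` grid. -/
def Sat (p q : ℕ) (W : Finset (ℤ × ℤ)) : Prop :=
  ∀ z z', cell p q z = cell p q z' → z ∈ W → z' ∈ W

namespace Model
variable {β : ℝ} {V Ed : Type} (M : Model β V Ed)

/-- Exchange the two coordinates. -/
def swap : Model β V Ed where
  X := M.Y
  Y := M.X
  s := M.s
  t := M.t
  b := M.b
  inj u v h1 h2 := M.inj u v h2 h1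
  step e := by rcases M.step e with h | h <;> simp [h.1, h.2]
  einj := M.einj
  b0 := M.b0
  bβ := M.bβ

/-- Translate so that `z` becomes the origin. -/
def shift (z : ℤ × ℤ) : Model β V Ed where
  X v := M.X v - z.1
  Y v := M.Y v - z.2
  s := M.s
  t := M.t
  b := M.b
  inj u v h1 h2 := M.inj u v (by omega) (by omega)
  step e := by rcases M.step e with h | h <;> omega
  einj := M.einj
  b0 := M.b0
  bβ := M.bβ

/-- Delete the edges outside `P`. -/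
noncomputable def keep (P : Ed → Prop) [DecidablePred P] : Model β V Ed where
  X := M.X
  Y := M.Y
  s := M.s
  t := M.t
  b e := if P e then M.b e else 0
  inj := M.inj
  step := M.step
  einj := M.einj
  b0 e := by split_ifs; exacts [M.b0 e, le_rfl]
  bβ e := by split_ifs; exacts [M.bβ e, (M.b0 e).trans (M.bβ e)]

def pos (v : V) : ℤ × ℤ := (M.X v, M.Y v)

/-- `ℓ^∞` distance. -/
def dist (u v : V) : ℕ := max (M.X u - M.X v).natAbs (M.Y u - M.Y v).natAbs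

/-- Discrete gradient. -/
def d (f : V → ℝ) (e : Ed) : ℝ := f (M.t e) - f (M.s e)

/-- Edge average. -/
noncomputable def av (f : V → ℝ) (e : Ed) : ℝ := (f (M.s e) + f (M.t e)) / 2

/-- The form `dX`. -/
def ω : Ed → ℝ := M.d fun v => (M.X v : ℝ)

/-- Restrict a form to the edges whose source lies in `W`. -/
def rst (W : Finset (ℤ × ℤ)) (a : Ed → ℝ) (e : Ed) : ℝ := if M.pos (M.s e) ∈ W then a e else 0

/-- Every vertex within `ℓ^∞` distance `ρ` of `W` lies in `U`. -/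
def Mar (U : Finset V) (W : Finset (ℤ × ℤ)) (ρ : ℕ) : Prop :=
  ∀ v, ∀ z ∈ W, |M.X v - z.1| ≤ ρ → |M.Y v - z.2| ≤ ρ → v ∈ U

variable [Fintype V] [DecidableEq V] [Fintype Ed]

/-- Vertices in `W` off the lines of the `p × q` grid. -/
def Lam (p q : ℕ) (W : Finset (ℤ × ℤ)) : Finset V :=
  univ.filter fun v => M.pos v ∈ W ∧ ¬(p : ℤ) ∣ M.X v ∧ ¬(q : ℤ) ∣ M.Y v

/-- The open `ℓ^∞` ball. -/
def ball (z : V) (R : ℕ) : Finset V := univ.filter fun v => M.dist v z < R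

/-- Number of edges with exactly one end in `U`. -/
def bd (U : Finset V) : ℕ := #{e | ¬(M.s e ∈ U ↔ M.t e ∈ U)}

variable (k : ℕ)

/-- `∑ b_e a_e ⟪σ (s e), A σ (t e)⟫`. -/
noncomputable def bil (A : E k →L[ℝ] E k) (a : Ed → ℝ) : CF k V :=
  ∑ e, (M.b e * a e) • ip A (M.s e) (M.t e)

/-- The energy. -/
noncomputable def H : CF k V := M.bil k 1 1

variable {k}

/-- The current. -/
noncomputable def J (G : Gen k) (a : Ed → ℝ) : CF k V := M.bil k G.A a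

/-- The diamagnetic term. -/
noncomputable def Mm (G : Gen k) (c : Ed → ℝ) : CF k V := -M.bil k (G.A * G.A) c

/-- Gibbs conditional expectation of the model. -/
noncomputable def ce (Λ : Finset V) : CF k V →ₗ[ℝ] CF k V := cE (M.H k) Λ

/-- Conditional covariance of the model. -/
noncomputable def cv (Λ : Finset V) (F G : CF k V) : CF k V := cov (M.H k) Λ F G

/-- Gibbs expectation in `U` with boundary condition `σ₀`. -/
noncomputable def Ex (U : Finset V) (σ₀ : Ω k V) : CF k V →ₗ[ℝ] ℝ where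
  toFun F := M.ce U F σ₀
  map_add' F G := by simp
  map_smul' c F := by simp

/-- The stiffness bilinear form after resampling `Λ`. -/
noncomputable def Q (U : Finset V) (σ₀ : Ω k V) (Λ : Finset V) (G : Gen k) (a a' : Ed → ℝ) : ℝ :=
  M.Ex U σ₀ (M.Mm G (a * a')) - M.Ex U σ₀ (M.cv Λ (M.J G a) (M.J G a'))

/-- The stiffness of the region `W` at scale `ℓ`. -/
noncomputable def Dst (U : Finset V) (σ₀ : Ω k V) (ℓ : ℕ) (W : Finset (ℤ × ℤ)) : ℝ :=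
  ∑ c : Fin 3, M.Q U σ₀ (M.Lam ℓ ℓ W) (L k c) (M.rst W M.ω) (M.rst W M.ω)

/-- `ψ = E_Λ J^C(dχ)`. -/
noncomputable def psi (Λ : Finset V) (C : Gen k) (χ : V → ℝ) : CF k V := M.ce Λ (M.J C (M.d χ))

/-- The derivative of `psi` along the flow of `(B, φ)`. -/
noncomputable def dpsi (Λ : Finset V) (B C : Gen k) (φ χ : V → ℝ) : CF k V :=
  M.ce Λ (M.bil k (C.A * B.A) (fun e => M.d χ e * φ (M.t e)) -
      M.bil k (B.A * C.A) (fun e => M.d χ e * φ (M.s e))) +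
    M.cv Λ (M.J C (M.d χ)) (M.J B (M.d φ))

/-- The score: `𝔼[F * score] = 𝔼[ψ * D_{B,φ} F]`. -/
noncomputable def score (Λ : Finset V) (B C : Gen k) (φ χ : V → ℝ) : CF k V :=
  -(M.psi Λ C χ * M.J B (M.d φ)) - M.dpsi Λ B C φ χ

/-- Adjacency in the edge set `η`. -/
def Adj (η : Finset Ed) (u v : V) : Prop :=
  ∃ e ∈ η, (M.s e = u ∧ M.t e = v) ∨ (M.s e = v ∧ M.t e = u)

/-- Connection in the edge set `η`. -/
def Conn (η : Finset Ed) (u v : V) : Prop := Relation.ReflTransGen (M.Adj η) u v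

end Model

/-- Bump functions attached to the cell `r` of the `mℓ × Kmℓ` grid. -/
structure Bump (ℓ m K : ℕ) (r : ℤ × ℤ) (φ χ : ℤ × ℤ → ℝ) (lay : Finset (ℤ × ℤ)) : Prop where
  φ0 : ∀ z, 0 ≤ φ z
  φ1 : ∀ z, φ z ≤ 1
  φsupp : ∀ z, φ z ≠ 0 → z ∈ rect (m * ℓ) (K * m * ℓ) r ∧ ¬((m * ℓ : ℕ) : ℤ) ∣ z.1 ∧
    ¬((K * m * ℓ : ℕ) : ℤ) ∣ z.2
  φx : ∀ x y, |φ (x + 1, y) - φ (x, y)| ≤ 1 / ℓ
  φy : ∀ x y, |φ (x, y + 1) - φ (x, y)| ≤ 1 / (K * ℓ)
  φκ : ∀ B : ℤ × ℤ, ∃ κ : ℝ, ∀ x y, B.1 * ℓ ≤ x → x < (B.1 + 1) * ℓ → B.2 * ℓ ≤ y →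
    y ≤ (B.2 + 1) * ℓ → |φ (x + 1, y) - φ (x, y) - κ| ≤ 1 / (K * ℓ)
  lay_card : lay.card ≤ 4 * K * m
  lay_sub : ∀ B ∈ lay, rect ℓ ℓ B ⊆ rect (m * ℓ) (K * m * ℓ) r
  φlay : ∀ B : ℤ × ℤ, rect ℓ ℓ B ⊆ rect (m * ℓ) (K * m * ℓ) r → B ∉ lay →
    ∀ x y, B.1 * ℓ ≤ x → x ≤ (B.1 + 1) * ℓ → B.2 * ℓ ≤ y → y ≤ (B.2 + 1) * ℓ → φ (x, y) = 1
  χx : ∀ x y, |χ (x + 1, y) - χ (x, y)| ≤ 1
  χy : ∀ x y, |χ (x, y + 1) - χ (x, y)| ≤ 1
  χcell : ∀ x y, r.1 * (m * ℓ : ℕ) ≤ x → x ≤ (r.1 + 1) * (m * ℓ : ℕ) →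
    r.2 * (K * m * ℓ : ℕ) ≤ y → y ≤ (r.2 + 1) * (K * m * ℓ : ℕ) →
    χ (x, y) = ((x - r.1 * (m * ℓ : ℕ) : ℤ) : ℝ)
  χsupp : ∀ x y, χ (x, y) ≠ 0 → r.1 * (m * ℓ : ℕ) < x ∧ x < (r.1 + 2) * (m * ℓ : ℕ) ∧
    (r.2 - 1) * (K * m * ℓ : ℕ) < y ∧ y < (r.2 + 2) * (K * m * ℓ : ℕ)

/-! ## Interface statements -/

/-- Exponential moments of the current under the free measure (diamagnetic inequality). -/
def ExpStmt : Prop :=
  ∀ (k : ℕ) (β : ℝ), 0 < β → ∀ (V Ed : Type) [Fintype V] [DecidableEq V] [Fintype Ed]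
    (M : Model β V Ed) (c : Fin 3) (u : Ed → ℝ),
    ∫ σ, Real.exp (M.H k σ + M.J (L k c) u σ) ∂ν k V ≤
      Real.exp (β * ∑ e, u e ^ 2) * ∫ σ, Real.exp (M.H k σ) ∂ν k V

/-- First Griffiths inequality. -/
def GrifStmt : Prop :=
  ∀ (k : ℕ) (β : ℝ) (V Ed : Type) [Fintype V] [DecidableEq V] [Fintype Ed]
    (M : Model β V Ed) (x y : V),
    0 ≤ ∫ σ, ⟪(σ x : E k), (σ y : E k)⟫_ℝ * Real.exp (M.H k σ) ∂ν k V

/-- Transverse budget: second moments of currents with disjoint supports. -/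
def TBStmt : Prop :=
  ∀ (k : ℕ) (β : ℝ), 0 < β → ∀ (V Ed : Type) [Fintype V] [DecidableEq V] [Fintype Ed]
    (M : Model β V Ed) (U : Finset V) (σ₀ : Ω k V) (c : Fin 3) (ι : Type) (I : Finset ι)
    (a : ι → Ed → ℝ) (w : ℝ), 0 < w →
    (∀ i ∈ I, ∀ j ∈ I, i ≠ j → ∀ e, a i e * a j e = 0) →
    (∀ i ∈ I, ∀ e, a i e ≠ 0 → M.s e ∈ U ∧ M.t e ∈ U) →
    (∀ i ∈ I, ∑ e, a i e ^ 2 ≤ w) →
    ∑ i ∈ I, M.Ex U σ₀ (M.J (L k c) (a i) ^ 2) ≤ 8 * β * w * (I.card + 2 * β * M.bd U)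

/-- Fourth conditional moment of an exact form restricted to one box. -/
def BoxStmt : Prop :=
  ∀ k : ℕ, ∃ C : ℝ, 0 < C ∧ ∀ (β : ℝ), 0 < β →
    ∀ (V Ed : Type) [Fintype V] [DecidableEq V] [Fintype Ed]
    (M : Model β V Ed) (U : Finset V) (σ₀ : Ω k V) (G : Gen k) (ℓ : ℕ) (B : ℤ × ℤ)
    (F : ℤ × ℤ → ℝ) (μ : ℝ), 1 ≤ ℓ → 0 ≤ μ → M.Mar U (rect ℓ ℓ B) ℓ →
    (∀ x y, B.1 * ℓ ≤ x → x < (B.1 + 1) * ℓ → B.2 * ℓ ≤ y → y ≤ (B.2 + 1) * ℓ →
      |F (x + 1, y) - F (x, y)| ≤ μ) →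
    (∀ x y, B.1 * ℓ ≤ x → x ≤ (B.1 + 1) * ℓ → B.2 * ℓ ≤ y → y < (B.2 + 1) * ℓ →
      |F (x, y + 1) - F (x, y)| ≤ μ) →
    M.Ex U σ₀ ((M.J G (M.rst (rect ℓ ℓ B) (M.d fun v => F (M.pos v))) -
        M.ce (M.Lam ℓ ℓ (rect ℓ ℓ B))
          (M.J G (M.rst (rect ℓ ℓ B) (M.d fun v => F (M.pos v))))) ^ 4) ≤
      C * (β * ℓ ^ 2 * μ ^ 2) ^ 2

/-- The bump functions exist. -/
def GeoStmt : Prop :=
  ∀ (ℓ m K : ℕ), 1 ≤ ℓ → 2 ≤ m → 1 ≤ K → ∀ r : ℤ × ℤ, ∃ φ χ lay, Bump ℓ m K r φ χ lay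

/-- Orthogonality, locality and size of the score of one cell. -/
def ScoreStmt : Prop :=
  ∀ k : ℕ, ∃ C : ℝ, 0 < C ∧ ∀ (β : ℝ), 0 < β →
    ∀ (V Ed : Type) [Fintype V] [DecidableEq V] [Fintype Ed]
    (M : Model β V Ed) (U : Finset V) (σ₀ : Ω k V) (ℓ m K : ℕ) (W : Finset (ℤ × ℤ)) (r : ℤ × ℤ)
    (φ χ : ℤ × ℤ → ℝ) (lay : Finset (ℤ × ℤ)), 1 ≤ ℓ → 2 ≤ m → 1 ≤ K →
    M.Mar U W (K * m * ℓ) → rect (m * ℓ) (K * m * ℓ) r ⊆ W → Bump ℓ m K r φ χ lay →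
    ∀ B C' : Fin 3, B ≠ C' →
      (∀ F, Indep (M.Lam (m * ℓ) (K * m * ℓ) (rect (m * ℓ) (K * m * ℓ) r)) F →
        M.Ex U σ₀ (F * M.score (M.Lam ℓ ℓ W) (L k B) (L k C')
          (fun v => φ (M.pos v)) (fun v => χ (M.pos v))) = 0) ∧
      (∀ r' : ℤ × ℤ, (1 < |r'.1 - r.1| ∨ 1 < |r'.2 - r.2|) →
        Indep (M.Lam (m * ℓ) (K * m * ℓ) (rect (m * ℓ) (K * m * ℓ) r'))
          (M.score (M.Lam ℓ ℓ W) (L k B) (L k C')
            (fun v => φ (M.pos v)) (fun v => χ (M.pos v)))) ∧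
      M.Ex U σ₀ (M.score (M.Lam ℓ ℓ W) (L k B) (L k C')
          (fun v => φ (M.pos v)) (fun v => χ (M.pos v)) ^ 2) ≤
        C * (β * K * m ^ 2 * ℓ) ^ 2 +
        C * ∑ c : Fin 3, M.Ex U σ₀ (M.J (L k c) (M.rst (rect (m * ℓ) (K * m * ℓ) r)
          fun e => M.av (fun v => φ (M.pos v)) e * M.ω e) ^ 2)

/-- The gain of one cell. -/
def GainStmt : Prop :=
  ∀ k : ℕ, ∃ C : ℝ, 0 < C ∧ ∀ (β : ℝ), 0 < β →
    ∀ (V Ed : Type) [Fintype V] [DecidableEq V] [Fintype Ed]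
    (M : Model β V Ed) (U : Finset V) (σ₀ : Ω k V) (ℓ m K : ℕ) (W : Finset (ℤ × ℤ)) (r : ℤ × ℤ)
    (φ χ : ℤ × ℤ → ℝ) (lay : Finset (ℤ × ℤ)), 1 ≤ ℓ → 2 ≤ m → 1 ≤ K →
    M.Mar U W (K * m * ℓ) → rect (m * ℓ) (K * m * ℓ) r ⊆ W → Bump ℓ m K r φ χ lay →
    2 * M.Dst U σ₀ ℓ (rect (m * ℓ) (K * m * ℓ) r) -
        C * (β * K * m + β * √β * √K * m ^ 3) * ℓ ^ 2 -
        2 * ∑ c : Fin 3, ∑ B ∈ lay, M.Ex U σ₀ (M.J (L k c) (M.rst (rect ℓ ℓ B)
          fun e => (1 - M.av (fun v => φ (M.pos v)) e) * M.ω e) ^ 2) ≤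
      ∑ c : Fin 3,
        (M.Ex U σ₀ (M.ce (M.Lam ℓ ℓ W) (M.J (L k c) (M.rst W M.ω)) *
            M.score (M.Lam ℓ ℓ W) (L k (c + 1)) (L k (c + 2))
              (fun v => φ (M.pos v)) (fun v => χ (M.pos v))) -
          M.Ex U σ₀ (M.ce (M.Lam ℓ ℓ W) (M.J (L k (c + 1)) (M.rst W M.ω)) *
            M.score (M.Lam ℓ ℓ W) (L k c) (L k (c + 2))
              (fun v => φ (M.pos v)) (fun v => χ (M.pos v))))

/-- One renormalisation step loses a fixed amount of stiffness. -/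
def StepStmt : Prop :=
  ∀ (k : ℕ) (β ε : ℝ), 0 < β → 0 < ε → ∃ (n : ℕ) (c κ : ℝ), 1 ≤ n ∧ 0 < c ∧ 0 < κ ∧
    ∀ (V Ed : Type) [Fintype V] [DecidableEq V] [Fintype Ed]
    (M : Model β V Ed) (U : Finset V) (σ₀ : Ω k V) (ℓ : ℕ) (W : Finset (ℤ × ℤ)) (A : ℝ),
    1 ≤ ℓ → Sat (n * ℓ) (n * ℓ) W → M.Mar U W (n * ℓ) → (W.card : ℝ) ≤ A →
    κ * ℓ ^ 2 * M.bd U ≤ A → ε * A ≤ M.Dst U σ₀ ℓ W →
    M.Dst U σ₀ (n * ℓ) W ≤ M.Dst U σ₀ ℓ W - c * A

/-- The stiffness is small at a large scale. -/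
def PropAStmt : Prop :=
  ∀ (k : ℕ) (β ε : ℝ), 0 < β → 0 < ε → ∃ (ℓ : ℕ) (κ : ℝ), 1 ≤ ℓ ∧ 0 < κ ∧
    ∀ (V Ed : Type) [Fintype V] [DecidableEq V] [Fintype Ed]
    (M : Model β V Ed) (U : Finset V) (σ₀ : Ω k V) (W : Finset (ℤ × ℤ)) (A : ℝ),
    Sat ℓ ℓ W → M.Mar U W ℓ → (W.card : ℝ) ≤ A → κ * M.bd U ≤ A → M.Dst U σ₀ ℓ W ≤ ε * A

/-- Small Fisher information for a rotation across an annulus. -/
def FisherStmt : Prop :=
  ∀ (k : ℕ) (β γ : ℝ), 0 < β → 0 < γ → ∃ R₀ : ℕ, 1 ≤ R₀ ∧ ∀ j : ℕ, 1 ≤ j →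
    ∀ (V Ed : Type) [Fintype V] [DecidableEq V] [Fintype Ed]
    (M : Model β V Ed) (z : V) (σ₀ : Ω k V), ∃ (Λ : Finset V) (χ : V → ℝ),
      Λ ⊆ M.ball z (3 * (j * R₀)) ∧ (∀ v, M.dist v z ≤ j * R₀ → v ∉ Λ ∧ χ v = 1) ∧
      (∀ v, v ∉ M.ball z (3 * (j * R₀)) → χ v = 0) ∧
      M.Ex (M.ball z (3 * (j * R₀))) σ₀ (M.ce Λ (M.J (L k 0) (M.d χ)) ^ 2) ≤ γ

/-- Odd observables are small under every boundary condition. -/
def DecayStmt : Prop :=
  ∀ (k : ℕ) (β γ : ℝ), 0 < β → 0 < γ → ∃ R : ℕ, 1 ≤ R ∧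
    ∀ (V Ed : Type) [Fintype V] [DecidableEq V] [Fintype Ed]
    (M : Model β V Ed) (z : V) (σ₀ : Ω k V) (g : C(ℝ, ℝ)),
    (∀ x, g (-x) = -g x) → (∀ x, |g x| ≤ 1) →
    |M.Ex (M.ball z R) σ₀ (obs g z)| * (R : ℝ) ^ 2 ≤ γ

open Classical in
/-- Edwards-Sokal coupling for the sign of the coordinate `0`. -/
def ESStmt : Prop :=
  ∀ (k : ℕ) (β : ℝ) (V Ed : Type) [Fintype V] [DecidableEq V] [Fintype Ed] [DecidableEq Ed]
    (M : Model β V Ed) (σ₀ : Ω k V), ∃ π : Finset Ed → ℝ, (∀ η, 0 ≤ π η) ∧ ∑ η, π η = 1 ∧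
    (∀ x y, M.Ex univ σ₀ (crd 0 x * crd 0 y) ≤ ∑ η with M.Conn η x y, π η) ∧
    ∀ (U : Finset V) (z w : V) (δ : ℝ), z ∈ U → w ∉ U →
      (∀ (σ : Ω k V) (g : C(ℝ, ℝ)), (∀ x, g (-x) = -g x) → (∀ x, |g x| ≤ 1) →
        |M.Ex U σ (obs g z)| ≤ δ) →
      ∀ Φ : Finset Ed → ℝ, (∀ η, 0 ≤ Φ η) →
        (∀ η η', (∀ e, M.s e ∉ U → M.t e ∉ U → (e ∈ η ↔ e ∈ η')) → Φ η = Φ η') →
        ∑ η with M.Conn η z w, π η * Φ η ≤ δ * ∑ η, π η * Φ η

open Classical in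
/-- Last-exit Peierls argument. -/
def PeierlsStmt : Prop :=
  ∀ (β : ℝ) (V Ed : Type) [Fintype V] [DecidableEq V] [Fintype Ed] [DecidableEq Ed]
    (M : Model β V Ed) (π : Finset Ed → ℝ) (R : ℕ) (δ : ℝ), 1 ≤ R → 0 ≤ δ →
    δ * (R : ℝ) ^ 2 ≤ 1 / 1000 → (∀ η, 0 ≤ π η) → ∑ η, π η = 1 →
    (∀ z w, w ∉ M.ball z R → ∀ Φ : Finset Ed → ℝ, (∀ η, 0 ≤ Φ η) →
      (∀ η η', (∀ e, M.s e ∉ M.ball z R → M.t e ∉ M.ball z R → (e ∈ η ↔ e ∈ η')) → Φ η = Φ η') →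
      ∑ η with M.Conn η z w, π η * Φ η ≤ δ * ∑ η, π η * Φ η) →
    ∀ x y, ∑ η with M.Conn η x y, π η ≤ (1 / 2 : ℝ) ^ (M.dist x y / (2 * R))

end Crest.Agent.R167
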