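import Crest.Agent.R167.Basic

/-!
# Row 167: diamagnetic and first Griffiths inequalities
-/

set_option autoImplicit false
set_option linter.unusedSectionVars false

namespace Crest.Agent.R167

open MeasureTheory Finset
open scoped InnerProductSpace ComplexOrder ComplexConjugate

namespace Dia

variable {k : ℕ} {V : Type} [Fintype V] [DecidableEq V]

abbrev CC (k : ℕ) (V : Type) : Type := C(Ω k V, ℂ)

theorem integrable_CC (F : CC k V) : Integrable F (ν k V) :=
  F.continuous.integrable_of_hasCompactSupport (HasCompactSupport.of_compactSpace _)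

/-- the integral as a continuous linear functional -/
noncomputable def I : CC k V →L[ℂ] ℂ :=
  LinearMap.mkContinuous
    { toFun := fun F => ∫ σ, F σ ∂ν k V
      map_add' := fun F G => integral_add (integrable_CC F) (integrable_CC G)
      map_smul' := fun c F => integral_const_mul c F } 1 fun F => by
    simpa using norm_integral_le_of_norm_le_const (μ := ν k V) (f := F)
      (Filter.Eventually.of_forall F.norm_coe_le_norm)

theorem I_apply (F : CC k V) : I F = ∫ σ, F σ ∂ν k V := rfl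

/-- complexification -/
noncomputable def cx (F : CF k V) : CC k V := ⟨fun σ => (F σ : ℂ), by fun_prop⟩

@[simp] theorem cx_apply (F : CF k V) (σ : Ω k V) : cx F σ = (F σ : ℂ) := rfl

theorem I_cx (F : CF k V) : I (cx F) = ((∫ σ, F σ ∂ν k V : ℝ) : ℂ) := integral_ofReal

theorem exp_cx (F : CF k V) : NormedSpace.exp (cx F) = cx (cexp F) := by
  ext σ
  have := NormedSpace.map_exp ((Pi.evalRingHom (fun _ : Ω k V => ℂ) σ).comp
    ContinuousMap.coeFnRingHom) (continuous_eval_const σ) (cx F)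
  simpa [← Complex.exp_eq_exp_ℂ] using this

variable (T : E k → E k →ₗᵢ[ℝ] E k)

/-- Eigenfunctions of the isometries `T`, nonnegative in the positive chamber. -/
def P (f : CC k V) : Prop := ∀ σ₀ : Ω k V,
  (∃ c : ℂ, ∀ σ, f (isoMap (fun v => T (σ₀ v)) σ) = c * f σ) ∧
    0 ≤ f (isoMap (fun v => T (σ₀ v)) σ₀)

variable {T}

theorem P.one : P T (1 : CC k V) := fun _ => ⟨⟨1, by simp⟩, by simp⟩

theorem P.mul {f g : CC k V} (hf : P T f) (hg : P T g) : P T (f * g) := fun σ₀ => by
  obtain ⟨⟨c, hc⟩, h⟩ := hf σ₀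
  obtain ⟨⟨c', hc'⟩, h'⟩ := hg σ₀
  exact ⟨⟨c * c', fun σ => by simp only [ContinuousMap.mul_apply, hc, hc']; ring⟩, mul_nonneg h h'⟩

theorem P.star {f : CC k V} (hf : P T f) : P T (star f) := fun σ₀ => by
  obtain ⟨⟨c, hc⟩, h⟩ := hf σ₀
  exact ⟨⟨conj c, fun σ => by simp [hc]⟩, star_nonneg_iff.2 h⟩

theorem P.nonneg {f : CC k V} (hf : P T f) : 0 ≤ I f := by
  by_cases h : I f = 0
  · exact h.ge
  refine integral_nonneg fun σ₀ => ?_
  obtain ⟨⟨c, hc⟩, h0⟩ := hf σ₀
  have hT := measurePreserving_isoMap fun v => T (σ₀ v)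
  have h1 : I f = c * I f := by
    rw [I_apply, ← integral_const_mul, ← funext hc, ← integral_map hT.measurable.aemeasurable
      f.continuous.aestronglyMeasurable, hT.map_eq]
  have h2 : c = 1 := mul_right_cancel₀ h (by rw [← h1, one_mul])
  rwa [hc, h2, one_mul] at h0

variable (T) in
def Dom (F G : CC k V) : Prop := ∀ f, P T f → ‖I (f * F)‖ ≤ (I (f * G)).re

variable (T) in
def MD (S S' : CC k V) : Prop := ∀ F G, Dom T F G → Dom T (S * F) (S' * G)

theorem dom_one : Dom T (1 : CC k V) 1 := fun f hf => by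
  rw [mul_one, ← Complex.norm_of_nonneg' hf.nonneg]
  simp

theorem MD.add {S S' R R' : CC k V} (h : MD T S S') (h' : MD T R R') : MD T (S + R) (S' + R') :=
  fun F G hD f hf => by
    simp only [add_mul, mul_add, map_add, Complex.add_re]
    exact norm_add_le_of_le (h F G hD f hf) (h' F G hD f hf)

theorem md_sum {ι : Type*} (s : Finset ι) {S S' : ι → CC k V} (h : ∀ i ∈ s, MD T (S i) (S' i)) :
    MD T (∑ i ∈ s, S i) (∑ i ∈ s, S' i) :=
  fun F G hD f hf => by
    simp only [Finset.sum_mul, Finset.mul_sum, map_sum, Complex.re_sum]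
    exact norm_sum_le_of_le _ fun i hi => h i hi F G hD f hf

theorem MD.smul {S S' : CC k V} (h : MD T S S') {c : ℂ} {c' : ℝ} (hc : ‖c‖ ≤ c') :
    MD T (c • S) ((c' : ℂ) • S') := fun F G hD f hf => by
  simp only [smul_mul_assoc, mul_smul_comm, map_smul, smul_eq_mul, norm_mul, Complex.re_ofReal_mul]
  exact mul_le_mul hc (h F G hD f hf) (norm_nonneg _) ((norm_nonneg _).trans hc)

theorem P.md {m : CC k V} (hm : P T m) : MD T m m := fun F G hD f hf => by
  simpa only [mul_assoc] using hD _ (hf.mul hm)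

theorem MD.pow {S S' : CC k V} (h : MD T S S') (n : ℕ) : Dom T (S ^ n) (S' ^ n) := by
  induction n with
  | zero => exact dom_one
  | succ n ih => rw [pow_succ', pow_succ']; exact h _ _ ih

theorem MD.exp {S S' : CC k V} (h : MD T S S') :
    Dom T (NormedSpace.exp S) (NormedSpace.exp S') := fun f hf => by
  have key : ∀ R : CC k V, HasSum (fun n : ℕ => (n.factorial⁻¹ : ℂ) * I (f * R ^ n))
      (I (f * NormedSpace.exp R)) := fun R => by
    simpa using ((NormedSpace.exp_series_hasSum_exp' (𝕂 := ℂ) R).mul_left f).mapL I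
  refine (key S).norm_le_of_bounded (Complex.hasSum_re (key S')) fun n => ?_
  rw [norm_mul, ← Complex.ofReal_natCast, ← Complex.ofReal_inv, Complex.re_ofReal_mul,
    Complex.norm_of_nonneg (by positivity)]
  exact mul_le_mul_of_nonneg_left (h.pow n f hf) (by positivity)

/-! ### The plane `(i, j)` -/

variable {i j : Fin (k + 3)}

/-- complex coordinate -/
noncomputable def z (i j : Fin (k + 3)) (x : E k) : ℂ := x i + x j * Complex.I

theorem exists_T (h : i ≠ j) (x : E k) : ∃ T : E k →ₗᵢ[ℝ] E k,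
    ((∃ c, ∀ y, z i j (T y) = c * z i j y) ∧ 0 ≤ z i j (T x)) ∧
    ∀ l, l ≠ i → l ≠ j → (∃ c : ℝ, ∀ y, T y l = c * y l) ∧ 0 ≤ T x l := by
  let ε : Fin (k + 3) → ℝ := fun l => if l = i ∨ l = j ∨ 0 ≤ x l then 1 else -1
  let D : E k →ₗᵢ[ℝ] E k :=
    { toFun := fun y => WithLp.toLp 2 fun l => ε l * y l
      map_add' := fun y y' => by ext l; simp [mul_add]
      map_smul' := fun c y => by ext l; simp [mul_left_comm]
      norm_map' := fun y => by
        simp only [EuclideanSpace.norm_eq]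
        congr 1
        refine Finset.sum_congr rfl fun l _ => ?_
        change ‖ε l * y l‖ ^ 2 = _
        simp only [ε]
        split_ifs <;> simp }
  have hD : ∀ y l, D y l = ε l * y l := fun _ _ => rfl
  have hz : ∀ θ y, z i j (D ((gen i j h).rot θ y)) = Complex.exp (-θ * Complex.I) * z i j y := by
    intro θ y
    rw [Complex.exp_mul_I]
    simp [z, hD, ε, Gen.rot, gen, genA_apply, h, h.symm]
    linear_combination (Complex.sin θ * y j) * Complex.I_mul_I
  refine ⟨D.comp ((gen i j h).rotL (z i j x).arg), ⟨⟨_, hz _⟩, ?_⟩, fun l hi hj => ?_⟩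
  · change 0 ≤ z i j (D ((gen i j h).rot _ x))
    rw [hz]
    nth_rw 2 [← Complex.norm_mul_exp_arg_mul_I (z i j x)]
    rw [mul_left_comm, ← Complex.exp_add]
    simp
  · have : ∀ y, D ((gen i j h).rot (z i j x).arg y) l = ε l * y l := fun y => by
      simp [hD, Gen.rot, gen, genA_apply, hi, hj]
    refine ⟨⟨_, this⟩, ?_⟩
    change 0 ≤ D ((gen i j h).rot _ x) l
    rw [this]
    simp only [ε, hi, hj, false_or]
    split_ifs with h0 <;> linarith

/-- complex coordinate of a spin -/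
noncomputable def zc (i j : Fin (k + 3)) (v : V) : CC k V :=
  ⟨fun σ => z i j (σ v), by unfold z; fun_prop⟩

theorem exists_md (h : i ≠ j) : ∃ T : E k → E k →ₗᵢ[ℝ] E k, ∀ (u v : V) (w d : ℝ),
    (1 - d) ^ 2 + w ^ 2 ≤ 1 → MD T (cx (ip 1 u v + w • ip (genA i j) u v +
      d • ip (genA i j * genA i j) u v)) (cx (ip 1 u v)) := by
  choose T h1 h2 using exists_T h
  refine ⟨T, fun u v => ?_⟩
  have hz : ∀ v : V, P T (zc i j v) := fun v σ₀ =>
    ⟨let ⟨c, hc⟩ := (h1 (σ₀ v)).1; ⟨c, fun σ => hc _⟩, (h1 (σ₀ v)).2⟩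
  have hc : ∀ (v : V) l, l ≠ i → l ≠ j → P T (cx (crd l v)) := fun v l hi hj σ₀ =>
    ⟨let ⟨c, hc⟩ := (h2 (σ₀ v) l hi hj).1; ⟨c, fun σ => by simp [crd, hc]⟩,
      Complex.zero_le_real.2 (h2 (σ₀ v) l hi hj).2⟩
  have key : ∀ w d : ℝ, cx (ip 1 u v + w • ip (genA i j) u v + d • ip (genA i j * genA i j) u v) =
      ((1 - d - w * Complex.I) / 2) • (star (zc i j u) * zc i j v) +
      ((1 - d + w * Complex.I) / 2) • (zc i j u * star (zc i j v)) +
      ∑ l ∈ (univ.erase i).erase j, cx (crd l u) * cx (crd l v) := fun w d => by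
    ext σ
    have h0 : ⟪(σ u : E k), (σ v : E k)⟫_ℝ = (σ u : E k) i * (σ v : E k) i +
        (σ u : E k) j * (σ v : E k) j +
        ∑ l ∈ (univ.erase i).erase j, (σ u : E k) l * (σ v : E k) l := by
      rw [add_assoc, Finset.add_sum_erase _ (fun l => (σ u : E k) l * (σ v : E k) l)
        (by simp [h.symm]), Finset.add_sum_erase _ (fun l => (σ u : E k) l * (σ v : E k) l)
        (by simp)]
      simp [PiLp.inner_apply, mul_comm]
    simp [ip, h0, genA_apply, inner_sub_right, real_inner_smul_right, h, h.symm, zc, z, crd,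
      EuclideanSpace.inner_single_right, -mul_eq_zero, -Finset.sum_erase_eq_sub]
    ring_nf
    simp only [Complex.I_sq]
    ring
  intro w d hw
  have e := key 0 0
  simp only [zero_smul, add_zero] at e
  rw [key, e]
  have hn : ∀ w : ℝ, (1 - d) ^ 2 + w ^ 2 ≤ 1 → ‖(1 - d + w * Complex.I : ℂ) / 2‖ ≤ (1 / 2 : ℝ) :=
    fun w hw => by
      rw [norm_div, ← Complex.ofReal_one, ← Complex.ofReal_sub, Complex.norm_add_mul_I]
      have := Real.sqrt_le_one.2 hw
      simp only [Complex.norm_ofNat]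
      linarith
  have e1 := ((hz u).star.mul (hz v)).md.smul (hn (-w) (by simpa using hw))
  have e2 := ((hz u).mul (hz v).star).md.smul (hn w hw)
  have e3 := md_sum ((univ.erase i).erase j) fun l hl => ((hc u l (by simp_all) (by simp_all)).mul
    (hc v l (by simp_all) (by simp_all))).md
  simpa [sub_eq_add_neg] using (e1.add e2).add e3

theorem cx_sum {ι : Type*} (s : Finset ι) (c : ι → ℝ) (F : ι → CF k V) :
    cx (∑ i ∈ s, c i • F i) = ∑ i ∈ s, (c i : ℂ) • cx (F i) := by
  ext σ; simp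

variable {β : ℝ} {Ed : Type} [Fintype Ed] (M : Model β V Ed)

theorem dia (h : i ≠ j) (w d : Ed → ℝ) (hw : ∀ e, (1 - d e) ^ 2 + w e ^ 2 ≤ 1) :
    ∫ σ, Real.exp ((M.H k + M.J (gen i j h) w - M.Mm (gen i j h) d) σ) ∂ν k V ≤
      ∫ σ, Real.exp (M.H k σ) ∂ν k V := by
  obtain ⟨T, hT⟩ := exists_md (V := V) h
  have h1 := (md_sum univ fun e _ => (hT (M.s e) (M.t e) _ _ (hw e)).smul
    (Complex.norm_of_nonneg (M.b0 e)).le).exp 1 P.one
  rw [← cx_sum, ← cx_sum, one_mul, one_mul, exp_cx, exp_cx, I_cx, I_cx] at h1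
  have h2 := (Complex.re_le_norm _).trans h1
  simp only [Complex.ofReal_re, cexp_apply] at h2
  have e1 : M.H k = ∑ e, M.b e • ip 1 (M.s e) (M.t e) := by simp [Model.H, Model.bil]
  have e2 : M.H k + M.J (gen i j h) w - M.Mm (gen i j h) d = ∑ e, M.b e • (ip 1 (M.s e) (M.t e) +
      w e • ip (genA i j) (M.s e) (M.t e) + d e • ip (genA i j * genA i j) (M.s e) (M.t e)) := by
    simp [e1, Model.J, Model.Mm, Model.bil, gen, Finset.sum_add_distrib, mul_smul]
  rwa [e2, e1]

end Dia

open Dia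

theorem expStmt : ExpStmt := by
  intro k β hβ V Ed _ _ _ M c u
  obtain ⟨i, j, h, hc⟩ : ∃ i j h, L k c = gen i j h := by
    fin_cases c <;> exact ⟨_, _, by simp, rfl⟩
  have : ∀ e, ∃ w d : ℝ, (1 - d) ^ 2 + w ^ 2 ≤ 1 ∧ |u e - w| + |d| ≤ u e ^ 2 := fun e => by
    by_cases h1 : |u e| ≤ 1
    · have h2 : u e ^ 2 ≤ 1 := (sq_le_one_iff_abs_le_one _).2 h1
      exact ⟨u e, u e ^ 2, by nlinarith [sq_nonneg (u e)], by simp⟩
    · exact ⟨0, 0, by simp, by rw [← sq_abs]; simp only [sub_zero, abs_zero]; nlinarith⟩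
  choose w d h1 h2 using this
  refine le_trans ?_ (mul_le_mul_of_nonneg_left (dia M h w d h1) (Real.exp_pos _).le)
  rw [← integral_const_mul, hc]
  refine integral_mono (integrable_CF (cexp (M.H k + M.J (gen i j h) u)))
    ((integrable_CF (cexp _)).const_mul _) fun σ => ?_
  simp only [← Real.exp_add, Real.exp_le_exp, ContinuousMap.add_apply, ContinuousMap.sub_apply]
  have h3 := (le_abs_self _).trans (M.abs_J_le (gen i j h) (u - w) hβ.le σ)
  have h4 := (le_abs_self _).trans (M.abs_Mm_le (gen i j h) d hβ.le σ)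
  have h5 := mul_le_mul_of_nonneg_left (Finset.sum_le_sum fun e (_ : e ∈ univ) => h2 e) hβ.le
  rw [Finset.sum_add_distrib, mul_add] at h5
  simp only [Model.J, Model.bil_sub, ContinuousMap.sub_apply, Pi.sub_apply] at h3 ⊢
  linarith

theorem grifStmt : GrifStmt := by
  intro k β V Ed _ _ _ M x y
  obtain ⟨T, hT⟩ := exists_md (V := V) (i := (0 : Fin (k + 3))) (j := 1) (by simp)
  have h0 : ∀ u v : V, MD T (cx (ip 1 u v)) (cx (ip 1 u v)) := fun u v => by
    simpa using hT u v 0 0 (by simp)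
  have h1 := h0 x y _ _ (md_sum univ fun e _ => (h0 (M.s e) (M.t e)).smul
    (Complex.norm_of_nonneg (M.b0 e)).le).exp 1 P.one
  have h2 := (norm_nonneg _).trans h1
  rw [← cx_sum, one_mul, exp_cx, show ∀ F G : CF k V, cx F * cx G = cx (F * G) from
    fun F G => by ext; simp, I_cx] at h2
  simpa [Model.H, Model.bil, ip] using h2

end Crest.Agent.R167
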