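import Crest.Agent.R167.Basic

/-!
# Row 167: the Edwards-Sokal coupling for the sign of the coordinate `0`
-/

set_option autoImplicit false
set_option linter.unusedSectionVars false

namespace Crest.Agent.R167

open MeasureTheory Finset Filter Topology
open scoped InnerProductSpace

namespace ES

/-- Reflect the coordinate `0` when `b` holds. -/
noncomputable def flp (k : ℕ) (b : Prop) [Decidable b] : E k →ₗᵢ[ℝ] E k :=
  (LinearIsometryEquiv.piLpCongrRight 2 (fun i : Fin (k + 3) =>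
    if i = 0 ∧ b then LinearIsometryEquiv.neg ℝ (E := ℝ) else LinearIsometryEquiv.refl ℝ ℝ)).toLinearIsometry

theorem flp_apply (k : ℕ) (b : Prop) [Decidable b] (x : E k) (i : Fin (k + 3)) :
    flp k b x i = if i = 0 ∧ b then -x i else x i := by
  simp only [flp, LinearIsometryEquiv.coe_toLinearIsometry,
    LinearIsometryEquiv.piLpCongrRight_apply]
  split_ifs <;> simp

theorem flp_zero (k : ℕ) (b : Prop) [Decidable b] (x : E k) :
    flp k b x 0 = if b then -x 0 else x 0 := by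
  rw [flp_apply]; simp

theorem inner_sub (k : ℕ) (x y : E k) :
    ⟪x, y⟫_ℝ - x 0 * y 0 = ∑ i : Fin (k + 2), x i.succ * y i.succ := by
  rw [PiLp.inner_apply, Fin.sum_univ_succ]
  simp [mul_comm]

theorem inner_flp (k : ℕ) (b b' : Prop) [Decidable b] [Decidable b'] (x y : E k) :
    ⟪flp k b x, flp k b' y⟫_ℝ - flp k b x 0 * flp k b' y 0 = ⟪x, y⟫_ℝ - x 0 * y 0 := by
  rw [inner_sub, inner_sub]
  refine Finset.sum_congr rfl fun i _ => ?_
  simp [flp_apply, Fin.succ_ne_zero]

theorem abs_flp (k : ℕ) (b b' : Prop) [Decidable b] [Decidable b'] (x y : E k) :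
    |flp k b x 0 * flp k b' y 0| = |x 0 * y 0| := by
  rw [flp_zero, flp_zero]
  split_ifs <;> simp

theorem abs_crd_le (k : ℕ) (x : Sph k) : |(x : E k) 0| ≤ 1 := by
  have h := PiLp.norm_apply_le (x : E k) 0
  rw [norm_eq_of_mem_sphere x] at h
  simpa using h

/-- Splitting a sum over subsets. -/
theorem sum_split {Ed : Type} [Fintype Ed] [DecidableEq Ed] (Eo : Finset Ed) (q : Ed → ℝ)
    (Φ : Finset Ed → ℝ) (hΦ : ∀ η η', (∀ e ∈ Eo, (e ∈ η ↔ e ∈ η')) → Φ η = Φ η') :
    ∑ η, Φ η * ∏ e ∈ η, q e =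
      (∑ η ∈ Eo.powerset, Φ η * ∏ e ∈ η, q e) * ∏ e ∈ Eoᶜ, (1 + q e) := by
  rw [Finset.prod_one_add, Finset.sum_mul_sum, ← Finset.sum_product']
  refine Finset.sum_nbij' (fun η => (η ∩ Eo, η \ Eo)) (fun x => x.1 ∪ x.2) ?_ ?_ ?_ ?_ ?_
  · intro η _
    simp only [Finset.mem_product, Finset.mem_powerset]
    refine ⟨Finset.inter_subset_right, fun e he => ?_⟩
    simpa using (Finset.mem_sdiff.1 he).2
  · intro x _; simp
  · intro η _
    ext e; by_cases h : e ∈ Eo <;> simp [h]
  · intro x hx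
    simp only [Finset.mem_product, Finset.mem_powerset] at hx
    have h1 : ∀ e ∈ x.1, e ∈ Eo := fun e he => hx.1 he
    have h2 : ∀ e ∈ x.2, e ∉ Eo := fun e he => by simpa using hx.2 he
    refine Prod.ext ?_ ?_
    · ext e
      simp only [Finset.mem_inter, Finset.mem_union]
      exact ⟨fun h => h.1.resolve_right fun h' => h2 e h' h.2, fun h => ⟨Or.inl h, h1 e h⟩⟩
    · ext e
      simp only [Finset.mem_sdiff, Finset.mem_union]
      exact ⟨fun h => h.1.resolve_left fun h' => h.2 (h1 e h'), fun h => ⟨Or.inr h, h2 e h⟩⟩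
  · intro η _
    rw [hΦ η (η ∩ Eo) (fun e he => by simp [he]), mul_assoc,
      Finset.prod_inter_mul_prod_sdiff]

variable {β : ℝ} {V Ed : Type} [Fintype V] [DecidableEq V] [Fintype Ed] [DecidableEq Ed]
  (M : Model β V Ed) (k : ℕ)

/-- `σ_s^0 σ_t^0`. -/
noncomputable def p (e : Ed) (σ : Ω k V) : ℝ := (σ (M.s e) : E k) 0 * (σ (M.t e) : E k) 0

theorem continuous_p (e : Ed) : Continuous (p M k e) := by unfold p; fun_prop

/-- The odds of the bond `e`. -/
noncomputable def q (e : Ed) (σ : Ω k V) : ℝ := Real.exp (M.b e * (p M k e σ + |p M k e σ|)) - 1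

theorem continuous_q (e : Ed) : Continuous (q M k e) := by
  have := continuous_p M k e
  unfold q; fun_prop

theorem q_nonneg (e : Ed) (σ : Ω k V) : 0 ≤ q M k e σ := by
  have h : 0 ≤ M.b e * (p M k e σ + |p M k e σ|) :=
    mul_nonneg (M.b0 e) (by linarith [neg_abs_le (p M k e σ)])
  have := Real.one_le_exp h
  unfold q; linarith

theorem p_pos {e : Ed} {σ : Ω k V} (h : q M k e σ ≠ 0) : 0 < p M k e σ := by
  by_contra hn
  push Not at hn
  apply h
  simp [q, abs_of_nonpos hn]

/-- The background weight. -/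
noncomputable def Bk (σ : Ω k V) : ℝ :=
  Real.exp (∑ e, M.b e * (⟪(σ (M.s e) : E k), (σ (M.t e) : E k)⟫_ℝ - p M k e σ - |p M k e σ|))

theorem continuous_Bk : Continuous (Bk M k) := by
  have := continuous_p M k
  unfold Bk; fun_prop

/-- The joint weight. -/
noncomputable def w (η : Finset Ed) : CF k V :=
  ⟨fun σ => Bk M k σ * ∏ e ∈ η, q M k e σ,
    (continuous_Bk M k).mul (continuous_finsetProd _ fun e _ => continuous_q M k e)⟩

theorem w_apply (η : Finset Ed) (σ : Ω k V) :
    w M k η σ = Bk M k σ * ∏ e ∈ η, q M k e σ := rfl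

theorem w_nonneg (η : Finset Ed) (σ : Ω k V) : 0 ≤ w M k η σ :=
  mul_nonneg (Real.exp_pos _).le (Finset.prod_nonneg fun e _ => q_nonneg M k e σ)

theorem exp_H (σ : Ω k V) : Real.exp (M.H k σ) = Bk M k σ * ∏ e, (1 + q M k e σ) := by
  simp only [q, add_sub_cancel, Bk, ← Real.exp_sum, ← Real.exp_add, ← Finset.sum_add_distrib,
    Model.H, Model.bil_apply]
  congr 1
  refine Finset.sum_congr rfl fun e _ => ?_
  simp only [Pi.one_apply, mul_one, one_apply_eq_self]
  ring

theorem sum_w (σ : Ω k V) : ∑ η, w M k η σ = Real.exp (M.H k σ) := by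
  rw [exp_H, Finset.prod_one_add, Finset.powerset_univ, Finset.mul_sum]
  rfl

theorem conn_iff {η : Finset Ed} {e : Ed} (he : e ∈ η) (x : V) :
    M.Conn η x (M.s e) ↔ M.Conn η x (M.t e) :=
  ⟨fun h => h.tail ⟨e, he, Or.inl ⟨rfl, rfl⟩⟩, fun h => h.tail ⟨e, he, Or.inr ⟨rfl, rfl⟩⟩⟩

open Classical in
/-- Flip the cluster of `x`. -/
noncomputable def T (η : Finset Ed) (x : V) : C(Ω k V, Ω k V) :=
  isoMap fun v => flp k (M.Conn η x v)

theorem w_T (η : Finset Ed) (x : V) (σ : Ω k V) : w M k η (T M k η x σ) = w M k η σ := by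
  classical
  rw [w_apply, w_apply]
  congr 1
  · simp only [Bk, p, T, isoMap_coe, inner_flp, abs_flp]
  · refine Finset.prod_congr rfl fun e he => ?_
    have : p M k e (T M k η x σ) = p M k e σ := by
      simp only [p, T, isoMap_coe, flp_zero, conn_iff M he x]
      split_ifs <;> simp
    simp only [q, this]

theorem integral_odd (η : Finset Ed) {x y : V} (h : ¬M.Conn η x y) (g g' : C(ℝ, ℝ))
    (hg : ∀ t, g (-t) = -g t) :
    ∫ σ, (obs g x * obs g' y * w M k η : CF k V) σ ∂ν k V = 0 := by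
  classical
  have h1 := integral_isoMap (fun v => flp k (M.Conn η x v)) (obs g x * obs g' y * w M k η : CF k V)
  have h2 : ∀ σ : Ω k V, (obs g x * obs g' y * w M k η : CF k V)
      (isoMap (fun v => flp k (M.Conn η x v)) σ) =
      -(obs g x * obs g' y * w M k η : CF k V) σ := by
    intro σ
    have h3 := w_T M k η x σ
    simp only [T] at h3
    have hx : M.Conn η x x := Relation.ReflTransGen.refl
    simp only [ContinuousMap.mul_apply, h3, obs, crd, ContinuousMap.comp_apply,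
      ContinuousMap.coe_mk, isoMap_coe, flp_zero, hx, h, if_true, if_false, hg]
    ring
  simp only [h2, integral_neg] at h1
  linarith

theorem sign {η : Finset Ed} {σ : Ω k V} (hw : w M k η σ ≠ 0) {z u : V} (h : M.Conn η z u) :
    u = z ∨ 0 < (σ z : E k) 0 * (σ u : E k) 0 := by
  have hq : ∀ e ∈ η, 0 < p M k e σ := fun e he => p_pos M k fun h0 =>
    hw (by rw [w_apply, Finset.prod_eq_zero he h0, mul_zero])
  induction h with
  | refl => exact Or.inl rfl
  | @tail a c _ hac ih =>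
    right
    have hac' : 0 < (σ a : E k) 0 * (σ c : E k) 0 := by
      obtain ⟨e, he, ⟨rfl, rfl⟩ | ⟨rfl, rfl⟩⟩ := hac
      · exact hq e he
      · rw [mul_comm]; exact hq e he
    rcases ih with rfl | ih
    · exact hac'
    · rcases (mul_pos_iff.1 ih) with ⟨h1, h2⟩ | ⟨h1, h2⟩
      · exact mul_pos h1 (pos_of_mul_pos_left' hac' h2)
      · have h3 : (σ c : E k) 0 < 0 := by nlinarith
        exact mul_pos_of_neg_of_neg h1 h3
where
  pos_of_mul_pos_left' {a c : ℝ} (h : 0 < a * c) (ha : 0 < a) : 0 < c := by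
    by_contra hn; push Not at hn; nlinarith

/-- Truncated sign functions. -/
noncomputable def gN (N : ℕ) : C(ℝ, ℝ) := ⟨fun x => max (-1) (min 1 (N * x)), by fun_prop⟩

theorem gN_neg (N : ℕ) (x : ℝ) : gN N (-x) = -gN N x := by
  simp only [gN, ContinuousMap.coe_mk, mul_neg]
  generalize (N : ℝ) * x = y
  rcases le_total y (-1) with h | h
  · rw [min_eq_left (by linarith), min_eq_right (by linarith), max_eq_right (by norm_num),
      max_eq_left h]; simp
  · rcases le_total y 1 with h' | h'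
    · rw [min_eq_right (by linarith), min_eq_right h', max_eq_right (by linarith), max_eq_right h]
    · rw [min_eq_right (by linarith), min_eq_left h', max_eq_left (by linarith),
        max_eq_right (by norm_num)]

theorem abs_gN_le (N : ℕ) (x : ℝ) : |gN N x| ≤ 1 := by
  simp only [gN, ContinuousMap.coe_mk]
  exact abs_le.2 ⟨le_max_left _ _, max_le (by norm_num) (min_le_left _ _)⟩

theorem gN_pos {x : ℝ} (hx : 0 < x) : ∀ᶠ N : ℕ in atTop, gN N x = 1 := by
  have : ∀ᶠ N : ℕ in atTop, 1 / x ≤ (N : ℝ) :=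
    tendsto_natCast_atTop_atTop.eventually_ge_atTop _
  filter_upwards [this] with N hN
  have h1 : 1 ≤ (N : ℝ) * x := by rwa [div_le_iff₀ hx] at hN
  simp only [gN, ContinuousMap.coe_mk]
  rw [min_eq_left h1, max_eq_right (by norm_num)]

theorem gN_mul {x y : ℝ} (h : 0 < x * y) : ∀ᶠ N : ℕ in atTop, gN N x * gN N y = 1 := by
  rcases mul_pos_iff.1 h with ⟨h1, h2⟩ | ⟨h1, h2⟩
  · filter_upwards [gN_pos h1, gN_pos h2] with N a b
    rw [a, b, one_mul]
  · filter_upwards [gN_pos (neg_pos.2 h1), gN_pos (neg_pos.2 h2)] with N a b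
    rw [gN_neg, neg_eq_iff_eq_neg] at a b
    rw [a, b]; norm_num

theorem tendsto_conn {η : Finset Ed} {z u : V} (hne : u ≠ z) (h : M.Conn η z u) :
    Tendsto (fun N : ℕ => ∫ σ, (obs (gN N) z * obs (gN N) u * w M k η : CF k V) σ ∂ν k V) atTop
      (𝓝 (∫ σ, w M k η σ ∂ν k V)) := by
  refine tendsto_integral_of_dominated_convergence (w M k η)
    (fun N => (integrable_CF _).aestronglyMeasurable) (integrable_CF _)
    (fun N => Eventually.of_forall fun σ => ?_) (Eventually.of_forall fun σ => ?_)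
  · simp only [ContinuousMap.mul_apply, Real.norm_eq_abs, abs_mul,
      abs_of_nonneg (w_nonneg M k η σ)]
    refine mul_le_of_le_one_left (w_nonneg M k η σ) ?_
    exact mul_le_one₀ (abs_gN_le _ _) (abs_nonneg _) (abs_gN_le _ _)
  · by_cases hw : w M k η σ = 0
    · simp [hw]
    · have h1 := (sign M k hw h).resolve_left hne
      refine tendsto_const_nhds.congr' ?_
      filter_upwards [gN_mul h1] with N hN
      simp only [ContinuousMap.mul_apply, obs, crd, ContinuousMap.comp_apply, ContinuousMap.coe_mk,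
        hN, one_mul]

/-- The conditional expectation of `Φ` given the spins. -/
noncomputable def ρ (Φ : Finset Ed → ℝ) : CF k V := (∑ η, Φ η • w M k η) * cexp (-M.H k)

theorem ρ_mul (Φ : Finset Ed → ℝ) (σ : Ω k V) :
    ρ M k Φ σ * Real.exp (M.H k σ) = ∑ η, Φ η * w M k η σ := by
  simp [ρ, mul_assoc, ← Real.exp_add]

theorem ρ_nonneg {Φ : Finset Ed → ℝ} (h : ∀ η, 0 ≤ Φ η) (σ : Ω k V) : 0 ≤ ρ M k Φ σ := by
  have h1 := ρ_mul M k Φ σ
  have h2 : 0 ≤ ∑ η, Φ η * w M k η σ :=
    Finset.sum_nonneg fun η _ => mul_nonneg (h η) (w_nonneg M k η σ)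
  rw [← h1] at h2
  exact nonneg_of_mul_nonneg_left h2 (Real.exp_pos _)

theorem indep_ρ (U : Finset V) {Φ : Finset Ed → ℝ}
    (hΦ : ∀ η η', (∀ e, M.s e ∉ U → M.t e ∉ U → (e ∈ η ↔ e ∈ η')) → Φ η = Φ η') :
    Indep U (ρ M k Φ) := by
  set Eo : Finset Ed := univ.filter fun e => M.s e ∉ U ∧ M.t e ∉ U with hEo
  have key : ∀ σ : Ω k V, ρ M k Φ σ =
      (∑ η ∈ Eo.powerset, Φ η * ∏ e ∈ η, q M k e σ) / ∏ e ∈ Eo, (1 + q M k e σ) := by
    intro σ
    have hpos : ∀ S : Finset Ed, 0 < ∏ e ∈ S, (1 + q M k e σ) := fun S =>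
      Finset.prod_pos fun e _ => by linarith [q_nonneg M k e σ]
    have h1 := ρ_mul M k Φ σ
    have h2 := sum_split Eo (fun e => q M k e σ) Φ fun η η' h => hΦ η η' fun e h1 h2 =>
      h e (by simp [hEo, h1, h2])
    have h3 : ∑ η, Φ η * w M k η σ = Bk M k σ * ∑ η, Φ η * ∏ e ∈ η, q M k e σ := by
      rw [Finset.mul_sum]
      exact Finset.sum_congr rfl fun η _ => by rw [w_apply]; ring
    rw [h3, h2, exp_H, ← Finset.prod_mul_prod_compl Eo] at h1
    rw [eq_div_iff (hpos Eo).ne']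
    have hB : 0 < Bk M k σ := Real.exp_pos _
    have hc := hpos Eoᶜ
    apply mul_right_cancel₀ (mul_pos hB hc).ne'
    linear_combination h1
  intro σ τ hv
  have hq : ∀ e ∈ Eo, q M k e σ = q M k e τ := by
    intro e he
    simp only [hEo, Finset.mem_filter, Finset.mem_univ, true_and] at he
    simp only [q, p, hv _ he.1, hv _ he.2]
  rw [key, key]
  congr 1
  · refine Finset.sum_congr rfl fun η hη => ?_
    rw [Finset.prod_congr rfl fun e he => hq e (Finset.mem_powerset.1 hη he)]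
  · exact Finset.prod_congr rfl fun e he => by rw [hq e he]

theorem Ex_ρ (σ₀ : Ω k V) (Φ : Finset Ed → ℝ) (F : CF k V) :
    M.Ex univ σ₀ (F * ρ M k Φ) =
      ∑ η, Φ η * ((∫ σ, (F * w M k η) σ ∂ν k V) / ∫ σ, Real.exp (M.H k σ) ∂ν k V) := by
  rw [Model.Ex_apply, cE_univ]
  simp only [← mul_div_assoc, ← Finset.sum_div, ← integral_const_mul]
  congr 1
  rw [← integral_finsetSum _ fun η _ => (integrable_CF _).const_mul _]
  refine integral_congr_ae (Eventually.of_forall fun σ => ?_)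
  simp only [ContinuousMap.mul_apply]
  rw [mul_assoc, ρ_mul, Finset.mul_sum]
  exact Finset.sum_congr rfl fun η _ => by ring

theorem ρ_one : ρ M k (fun _ => 1) = 1 := by
  ext σ
  have h := ρ_mul M k (fun _ => 1) σ
  simp only [one_mul, sum_w] at h
  have h2 := (Real.exp_pos (M.H k σ)).ne'
  simpa using mul_right_cancel₀ h2 (h.trans (one_mul _).symm)

end ES

open ES in
theorem esStmt : ESStmt := by
  classical
  intro k β V Ed _ _ _ _ M σ₀
  set Z : ℝ := ∫ σ, Real.exp (M.H k σ) ∂ν k V with hZ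
  have hZ0 : 0 < Z := integral_exp_pos (integrable_CF (cexp (M.H k)))
  refine ⟨fun η => (∫ σ, w M k η σ ∂ν k V) / Z,
    fun η => div_nonneg (integral_nonneg (w_nonneg M k η)) hZ0.le, ?_, ?_, ?_⟩
  · have h := Ex_ρ M k σ₀ (fun _ => 1) 1
    simp only [ρ_one, one_mul, Model.Ex_one] at h
    exact h.symm
  · intro x y
    have h := Ex_ρ M k σ₀ (fun _ => 1) (crd 0 x * crd 0 y)
    simp only [ρ_one, one_mul, mul_one] at h
    rw [h, Finset.sum_filter]
    refine Finset.sum_le_sum fun η _ => ?_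
    split_ifs with hc
    · refine div_le_div_of_nonneg_right (integral_mono (integrable_CF _) (integrable_CF _)
        fun σ => ?_) hZ0.le
      simp only [ContinuousMap.mul_apply]
      refine mul_le_of_le_one_left (w_nonneg M k η σ) ((le_abs_self _).trans ?_)
      rw [abs_mul]
      exact mul_le_one₀ (abs_crd_le _ _) (abs_nonneg _) (abs_crd_le _ _)
    · have h0 := integral_odd M k η hc (ContinuousMap.id ℝ) (ContinuousMap.id ℝ) (fun _ => rfl)
      have e1 : ∀ v : V, (obs (ContinuousMap.id ℝ) v : CF k V) = crd 0 v := fun v => rfl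
      rw [e1, e1] at h0
      rw [h0, zero_div]
  · intro U z u δ hz hu hδ Φ hΦ0 hΦ
    have hne : u ≠ z := fun h => hu (h ▸ hz)
    have hR : ∑ η, (∫ σ, w M k η σ ∂ν k V) / Z * Φ η = M.Ex univ σ₀ (ρ M k Φ) := by
      have h := Ex_ρ M k σ₀ Φ 1
      simp only [one_mul] at h
      rw [h]
      exact Finset.sum_congr rfl fun η _ => mul_comm _ _
    have hN : ∀ N : ℕ, ∑ η with M.Conn η z u,
        (∫ σ, (obs (gN N) z * obs (gN N) u * w M k η : CF k V) σ ∂ν k V) / Z * Φ η ≤
        δ * M.Ex univ σ₀ (ρ M k Φ) := by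
      intro N
      have h1 : ∑ η with M.Conn η z u,
          (∫ σ, (obs (gN N) z * obs (gN N) u * w M k η : CF k V) σ ∂ν k V) / Z * Φ η =
          M.Ex univ σ₀ (obs (gN N) z * obs (gN N) u * ρ M k Φ) := by
        rw [Ex_ρ, Finset.sum_filter]
        refine Finset.sum_congr rfl fun η _ => ?_
        split_ifs with hc
        · exact mul_comm _ _
        · rw [integral_odd M k η hc _ _ (gN_neg N), zero_div, mul_zero]
      have h2 : obs (gN N) z * obs (gN N) u * ρ M k Φ =
          (obs (gN N) u * ρ M k Φ) * obs (gN N) z := by ring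
      have h7 : δ * M.Ex univ σ₀ (ρ M k Φ) = M.Ex univ σ₀ (δ • ρ M k Φ) := by
        rw [map_smul, smul_eq_mul]
      rw [h1, h2, ← M.Ex_mul_ce σ₀ (Finset.subset_univ U)
        ((indep_obs _ hu).mul (indep_ρ M k U hΦ)), h7]
      refine M.Ex_mono _ _ fun σ => ?_
      have h3 : |M.ce U (obs (gN N) z) σ| ≤ δ := hδ σ (gN N) (gN_neg N) (abs_gN_le N)
      have h4 : |(obs (gN N) u : CF k V) σ| ≤ 1 := abs_gN_le _ _
      have h5 := ρ_nonneg M k hΦ0 σ
      simp only [ContinuousMap.mul_apply, ContinuousMap.smul_apply, smul_eq_mul]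
      have h6 : (obs (gN N) u : CF k V) σ * M.ce U (obs (gN N) z) σ ≤ δ := by
        refine (le_abs_self _).trans ?_
        rw [abs_mul]
        exact (mul_le_of_le_one_left (abs_nonneg _) h4).trans h3
      calc _ = ((obs (gN N) u : CF k V) σ * M.ce U (obs (gN N) z) σ) * ρ M k Φ σ := by ring
        _ ≤ _ := mul_le_mul_of_nonneg_right h6 h5
    rw [hR]
    refine le_of_tendsto' (f := fun N : ℕ => ∑ η with M.Conn η z u,
        (∫ σ, (obs (gN N) z * obs (gN N) u * w M k η : CF k V) σ ∂ν k V) / Z * Φ η)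
      (x := atTop) ?_ hN
    refine tendsto_finsetSum _ fun η hη => ?_
    exact ((tendsto_conn M k hne (Finset.mem_filter.1 hη).2).div_const _).mul_const _

end Crest.Agent.R167
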