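import Crest.Agent.R167.Basic
import Crest.Prelude.Def_SpinON

/-!
# Row 167: final assembly
-/

set_option autoImplicit false
set_option linter.unusedSectionVars false

namespace Crest.Agent.R167

open MeasureTheory Finset Crest.ProbabilityR.SpinModel
open scoped InnerProductSpace

namespace Fin0

theorem two_pt (hD : DecayStmt) (hE : ESStmt) (hP : PeierlsStmt) (k : ℕ) {β : ℝ} (hβ : 0 < β) :
    ∃ R : ℕ, 1 ≤ R ∧ ∀ (V Ed : Type) [Fintype V] [DecidableEq V] [Fintype Ed]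
      (M : Model β V Ed) (σ₀ : Ω k V) (x y : V),
      M.Ex univ σ₀ (crd 0 x * crd 0 y) ≤ (1 / 2 : ℝ) ^ (M.dist x y / (2 * R)) := by
  classical
  obtain ⟨R, hR, hdec⟩ := hD k β (1 / 1000) hβ (by norm_num)
  refine ⟨R, hR, fun V Ed _ _ _ M σ₀ x y => ?_⟩
  obtain ⟨π, h0, h1, h2, h3⟩ := hE k β V Ed M σ₀
  have hR' : (0 : ℝ) < (R : ℝ) ^ 2 := by positivity
  refine (h2 x y).trans ?_
  refine hP β V Ed M π R (1 / 1000 / (R : ℝ) ^ 2) hR (by positivity) (by field_simp; rfl) h0 h1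
    (fun z w hw => h3 _ z w _ ?_ hw fun σ g hg hg1 => ?_) x y
  · rw [Model.mem_ball]; simp [Model.dist]; omega
  · rw [le_div_iff₀ hR']
    exact hdec V Ed M z σ g hg hg1

variable {β : ℝ} {V Ed : Type} [Fintype V] [DecidableEq V] [Fintype Ed] {k : ℕ}

theorem crd_symm (M : Model β V Ed) (σ₀ : Ω k V) (x y : V) (i : Fin (k + 3)) :
    M.Ex univ σ₀ (crd i x * crd i y) = M.Ex univ σ₀ (crd 0 x * crd 0 y) := by
  set T : E k →ₗᵢ[ℝ] E k :=
    (LinearIsometryEquiv.piLpCongrLeft 2 ℝ ℝ (Equiv.swap (0 : Fin (k + 3)) i)).toLinearIsometry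
  have e : (crd i x * crd i y : CF k V) = (crd 0 x * crd 0 y : CF k V).comp (isoMap fun _ => T) := by
    ext σ
    simp [crd, T, LinearIsometryEquiv.piLpCongrLeft_apply]
  have h := M.ce_comp_isoMap univ T (crd 0 x * crd 0 y)
  change M.ce univ _ σ₀ = M.ce univ _ σ₀
  rw [e, h, ContinuousMap.comp_apply]
  exact M.indep_ce_self univ _ _ _ fun v hv => absurd (mem_univ v) hv

/-- The edges inside `V`. -/
abbrev Ed0 (V : Finset (ℤ × ℤ)) : Type := {p : V × Fin 2 // (p.1 : ℤ × ℤ) + latticeDir p.2 ∈ V}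

/-- The model attached to the data of the statement. -/
def model (V : Finset (ℤ × ℤ)) (b : ℤ × ℤ → Fin 2 → ℝ) (hb : ∀ u i, 0 ≤ b u i ∧ b u i ≤ β) :
    Model β V (Ed0 V) where
  X v := (v : ℤ × ℤ).1
  Y v := (v : ℤ × ℤ).2
  s p := p.1.1
  t p := ⟨_, p.2⟩
  b p := b p.1.1 p.1.2
  inj u v h1 h2 := Subtype.ext (Prod.ext h1 h2)
  step := by
    rintro ⟨⟨u, i⟩, h⟩
    fin_cases i <;> simp [latticeDir]
  einj := by
    rintro ⟨⟨u, i⟩, h⟩ ⟨⟨u', i'⟩, h'⟩ h1 h2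
    simp only at h1
    subst h1
    have h3 : latticeDir i = latticeDir i' := by simpa using h2
    have : i = i' := by
      fin_cases i <;> fin_cases i' <;> simp_all [latticeDir]
    subst this
    rfl
  b0 p := (hb _ _).1
  bβ p := (hb _ _).2

theorem H_model (V : Finset (ℤ × ℤ)) (b : ℤ × ℤ → Fin 2 → ℝ) (hb : ∀ u i, 0 ≤ b u i ∧ b u i ≤ β)
    (σ : Ω k V) : (model V b hb).H k σ = interaction (k + 3) V b σ := by
  rw [Model.H, Model.bil_apply, interaction, ← Fintype.sum_prod_type']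
  rw [← Fintype.sum_subtype_add_sum_subtype
    (fun p : V × Fin 2 => (p.1 : ℤ × ℤ) + latticeDir p.2 ∈ V)]
  have e2 : ∑ p : {p : V × Fin 2 // ¬((p.1 : ℤ × ℤ) + latticeDir p.2 ∈ V)},
      (if h : (p.1.1 : ℤ × ℤ) + latticeDir p.1.2 ∈ V then
        b p.1.1 p.1.2 * inner ℝ (σ p.1.1 : E k) (σ ⟨(p.1.1 : ℤ × ℤ) + latticeDir p.1.2, h⟩)
      else 0) = 0 := Finset.sum_eq_zero fun p _ => dif_neg p.2
  rw [e2, add_zero]
  refine Finset.sum_congr rfl fun p _ => ?_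
  rw [dif_pos p.2]
  simp [model]

theorem ref_eq (k : ℕ) (V : Finset (ℤ × ℤ)) : ∃ c : ENNReal, c ≠ 0 ∧ c ≠ ⊤ ∧
    referenceLaw (k + 3) V = c • ν k V := by
  set c := (volume : Measure (E k)).toSphere Set.univ with hc
  have h0 : c ≠ 0 := by
    rw [hc, Ne, Measure.measure_univ_eq_zero]
    exact Measure.toSphere_ne_zero (volume : Measure (E k))
  have h1 : c ≠ ⊤ := measure_ne_top _ _
  refine ⟨c ^ Fintype.card V, pow_ne_zero _ h0, ENNReal.pow_ne_top h1, ?_⟩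
  refine Measure.pi_eq fun s _ => ?_
  rw [Measure.smul_apply, ν, Measure.pi_pi, smul_eq_mul, ← card_univ, ← prod_const,
    ← prod_mul_distrib]
  refine prod_congr rfl fun v _ => ?_
  rw [ν₁, Measure.smul_apply, smul_eq_mul, ← mul_assoc, ENNReal.mul_inv_cancel h0 h1, one_mul]

theorem twoPoint_eq (V : Finset (ℤ × ℤ)) (b : ℤ × ℤ → Fin 2 → ℝ)
    (hb : ∀ u i, 0 ≤ b u i ∧ b u i ≤ β) (x y : V) :
    twoPoint (k + 3) V b x y =
      (∫ σ, ⟪(σ x : E k), (σ y : E k)⟫_ℝ * Real.exp ((model V b hb).H k σ) ∂ν k V) /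
        ∫ σ, Real.exp ((model V b hb).H k σ) ∂ν k V := by
  obtain ⟨c, h0, h1, hc⟩ := ref_eq k V
  have hc' : c.toReal ≠ 0 := ENNReal.toReal_ne_zero.2 ⟨h0, h1⟩
  simp only [twoPoint, partitionFn, hc, integral_smul_measure, H_model, smul_eq_mul]
  rw [mul_div_mul_left _ _ hc']

theorem half_pow_le {d R : ℕ} (hR : 1 ≤ R) {r : ℝ} (hr : r ≤ 2 * d) :
    (1 / 2 : ℝ) ^ (d / (2 * R)) ≤ 2 * Real.exp (-(Real.log 2 / (4 * R)) * r) := by
  have hR' : (0 : ℝ) < R := by exact_mod_cast hR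
  have h1 : d < 2 * R * (d / (2 * R) + 1) := Nat.lt_mul_div_succ _ (by omega)
  have h2 : (d : ℝ) ≤ 2 * R * ((d / (2 * R) : ℕ) + 1) := by exact_mod_cast h1.le
  have hl : 0 < Real.log 2 := Real.log_pos one_lt_two
  generalize d / (2 * R) = m at *
  have e1 : (1 / 2 : ℝ) ^ m = 2 * Real.exp (-(Real.log 2 * (m + 1))) := by
    rw [Real.exp_neg, mul_comm (Real.log 2), ← Nat.cast_succ, Real.exp_nat_mul,
      Real.exp_log two_pos]
    field_simp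
    rw [pow_succ, ← mul_assoc, ← mul_pow]; norm_num
  rw [e1]
  gcongr
  rw [neg_mul, neg_le_neg_iff, div_mul_eq_mul_div, div_le_iff₀ (by positivity)]
  nlinarith

end Fin0

open Fin0 in
theorem final_of (hG : GrifStmt) (hD : DecayStmt) (hE : ESStmt) (hP : PeierlsStmt)
    (n : ℕ) (hn : 3 ≤ n) (β : ℝ) (hβ : 0 < β) :
    ∃ A m : ℝ, 0 < m ∧
      ∀ (V : Finset (ℤ × ℤ)) (b : ℤ × ℤ → Fin 2 → ℝ),
        (∀ u i, 0 ≤ b u i ∧ b u i ≤ β) →
        ∀ x y : V,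
          0 ≤ twoPoint n V b x y ∧
          twoPoint n V b x y ≤
            A * Real.exp (-m * Real.sqrt ((((x : ℤ × ℤ).1 - (y : ℤ × ℤ).1 : ℤ) : ℝ) ^ 2 +
              (((x : ℤ × ℤ).2 - (y : ℤ × ℤ).2 : ℤ) : ℝ) ^ 2)) := by
  obtain ⟨k, rfl⟩ : ∃ k, n = k + 3 := ⟨n - 3, by omega⟩
  obtain ⟨R, hR, h2⟩ := two_pt hD hE hP k hβ
  have hR' : (0 : ℝ) < R := by exact_mod_cast hR
  refine ⟨(k + 3 : ℕ) * 2, Real.log 2 / (4 * R), by have := Real.log_pos one_lt_two; positivity,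
    fun V b hb x y => ?_⟩
  rw [twoPoint_eq V b hb]
  set M := model V b hb
  refine ⟨div_nonneg (hG k β V _ M x y) (integral_nonneg fun σ => (Real.exp_pos _).le), ?_⟩
  set σ₀ : Ω k V := fun _ => ⟨EuclideanSpace.single 0 1, by simp⟩
  have e1 : (∫ σ, ⟪(σ x : E k), (σ y : E k)⟫_ℝ * Real.exp (M.H k σ) ∂ν k V) /
      ∫ σ, Real.exp (M.H k σ) ∂ν k V = M.Ex univ σ₀ (∑ i, crd i x * crd i y) := by
    rw [Model.Ex_apply, cE_univ]
    congr 2
    funext σ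
    simp [crd, PiLp.inner_apply, mul_comm]
  rw [e1, map_sum]
  simp only [crd_symm M σ₀ x y, sum_const, card_univ, Fintype.card_fin, nsmul_eq_mul]
  rw [mul_assoc]
  gcongr
  refine (h2 V _ M σ₀ x y).trans (half_pow_le hR ?_)
  have hx : |(((x : ℤ × ℤ).1 - (y : ℤ × ℤ).1 : ℤ) : ℝ)| ≤ (M.dist x y : ℝ) := by
    have : |(x : ℤ × ℤ).1 - (y : ℤ × ℤ).1| ≤ (M.dist x y : ℤ) := by
      simp only [Model.dist, M, model, abs_le]; omega
    exact_mod_cast this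
  have hy : |(((x : ℤ × ℤ).2 - (y : ℤ × ℤ).2 : ℤ) : ℝ)| ≤ (M.dist x y : ℝ) := by
    have : |(x : ℤ × ℤ).2 - (y : ℤ × ℤ).2| ≤ (M.dist x y : ℤ) := by
      simp only [Model.dist, M, model, abs_le]; omega
    exact_mod_cast this
  have hd : (0 : ℝ) ≤ M.dist x y := Nat.cast_nonneg _
  rw [Real.sqrt_le_left (by positivity)]
  nlinarith [sq_abs (((x : ℤ × ℤ).1 - (y : ℤ × ℤ).1 : ℤ) : ℝ),
    sq_abs (((x : ℤ × ℤ).2 - (y : ℤ × ℤ).2 : ℤ) : ℝ),
    abs_nonneg (((x : ℤ × ℤ).1 - (y : ℤ × ℤ).1 : ℤ) : ℝ),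
    abs_nonneg (((x : ℤ × ℤ).2 - (y : ℤ × ℤ).2 : ℤ) : ℝ)]

end Crest.Agent.R167
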