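import Crest.Agent.R167.Basic

/-!
# Row 167: small Fisher information across an annulus
-/

set_option autoImplicit false
set_option linter.unusedSectionVars false

namespace Crest.Agent.R167

open Finset

namespace Fish

/-- Distance (in boxes) of the box index `t` from the origin. -/
def u (t : ℤ) : ℤ := if 0 ≤ t then t else -(t + 1)

theorem abs_bounds {ℓ : ℕ} {t x : ℤ} (h1 : t * ℓ ≤ x) (h2 : x ≤ (t + 1) * ℓ) :
    u t * ℓ ≤ |x| ∧ |x| ≤ (u t + 1) * ℓ ∧ (0 ≤ t → |x| = x) ∧ (t < 0 → |x| = -x) := by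
  have hl : (0 : ℤ) ≤ ℓ := Int.natCast_nonneg _
  unfold u
  split_ifs with h
  · have : 0 ≤ x := le_trans (mul_nonneg h hl) h1
    rw [abs_of_nonneg this]
    exact ⟨h1, h2, fun _ => rfl, fun h' => absurd h (not_le.2 h')⟩
  · have : x ≤ 0 := le_trans h2 (mul_nonpos_of_nonpos_of_nonneg (by omega) hl)
    rw [abs_of_nonpos this]
    exact ⟨by linarith, by linarith, fun h' => absurd h' h, fun _ => rfl⟩

/-- The cut-off profile. -/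
noncomputable def chi (R : ℕ) (x y : ℤ) : ℝ :=
  max 0 (min 1 ((2 * R - ((max |x| |y| : ℤ) : ℝ)) / R))

theorem chi_comm (R : ℕ) (x y : ℤ) : chi R x y = chi R y x := by simp only [chi, max_comm |x|]

theorem chi_eq_one {R : ℕ} (hR : 1 ≤ R) {x y : ℤ} (hx : |x| ≤ R) (hy : |y| ≤ R) :
    chi R x y = 1 := by
  have h0 : (0 : ℝ) < R := by exact_mod_cast hR
  have h1 : ((max |x| |y| : ℤ) : ℝ) ≤ R := by exact_mod_cast max_le hx hy
  have : 1 ≤ (2 * R - ((max |x| |y| : ℤ) : ℝ)) / R := by rw [le_div_iff₀ h0]; linarith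
  rw [chi, min_eq_left this, max_eq_right zero_le_one]

theorem chi_eq_zero {R : ℕ} (hR : 1 ≤ R) {x y : ℤ} (h : 2 * (R : ℤ) ≤ |x| ∨ 2 * (R : ℤ) ≤ |y|) :
    chi R x y = 0 := by
  have h0 : (0 : ℝ) < R := by exact_mod_cast hR
  have h1 : 2 * (R : ℝ) ≤ ((max |x| |y| : ℤ) : ℝ) := by exact_mod_cast le_max_iff.2 h
  have : (2 * R - ((max |x| |y| : ℤ) : ℝ)) / R ≤ 0 := div_nonpos_of_nonpos_of_nonneg (by linarith) h0.le
  rw [chi, max_eq_left ((min_le_right _ _).trans this)]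

theorem chi_eq_x {R : ℕ} (hR : 1 ≤ R) {x y : ℤ} (h : |y| ≤ |x|) (h1 : (R : ℤ) ≤ |x|)
    (h2 : |x| ≤ 2 * (R : ℤ)) : chi R x y = (2 * R - ((|x| : ℤ) : ℝ)) / R := by
  have h0 : (0 : ℝ) < R := by exact_mod_cast hR
  have h1' : (R : ℝ) ≤ ((|x| : ℤ) : ℝ) := by exact_mod_cast h1
  have h2' : ((|x| : ℤ) : ℝ) ≤ 2 * R := by exact_mod_cast h2
  rw [chi, max_eq_left h, min_eq_right (by rw [div_le_one h0]; linarith),
    max_eq_right (div_nonneg (by linarith) h0.le)]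

theorem chi_lip {R : ℕ} (hR : 1 ≤ R) {x y x' y' : ℤ} (h : abs (max |x'| |y'| - max |x| |y|) ≤ 1) :
    |chi R x' y' - chi R x y| ≤ 1 / R := by
  have h0 : (0 : ℝ) < R := by exact_mod_cast hR
  have h1 : |((max |x'| |y'| : ℤ) : ℝ) - ((max |x| |y| : ℤ) : ℝ)| ≤ 1 := by exact_mod_cast h
  unfold chi
  generalize ((max |x'| |y'| : ℤ) : ℝ) = a at *
  generalize ((max |x| |y| : ℤ) : ℝ) = b at *
  refine (abs_max_sub_max_le_max _ _ _ _).trans (max_le (by simp) ?_)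
  refine (abs_min_sub_min_le_max _ _ _ _).trans (max_le (by simp) ?_)
  rw [← sub_div, abs_div, abs_of_pos h0]
  gcongr
  rw [show 2 * (R : ℝ) - a - (2 * R - b) = -(a - b) by ring, abs_neg]
  exact h1

noncomputable def sq (n : ℕ) : Finset (ℤ × ℤ) :=
  Ico (-(2 * n : ℤ)) (2 * n) ×ˢ Ico (-(2 * n : ℤ)) (2 * n)

noncomputable def Bx (n : ℕ) : Finset (ℤ × ℤ) := (sq n).filter fun B => n ≤ u B.1 ∧ u B.2 < u B.1
noncomputable def By (n : ℕ) : Finset (ℤ × ℤ) := (sq n).filter fun B => n ≤ u B.2 ∧ u B.1 < u B.2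
noncomputable def Bd (n : ℕ) : Finset (ℤ × ℤ) := (sq n).filter fun B => n ≤ u B.1 ∧ u B.1 = u B.2

theorem mem_sq {n : ℕ} {B : ℤ × ℤ} : B ∈ sq n ↔ u B.1 < 2 * n ∧ u B.2 < 2 * n := by
  simp only [sq, mem_product, mem_Ico, u]
  split_ifs <;> omega

theorem card_sq (n : ℕ) : (sq n).card = 16 * n ^ 2 := by
  have : (2 * (n : ℤ) - -(2 * n)).toNat = 4 * n := by omega
  rw [sq, card_product, Int.card_Ico, this]; ring

theorem card_Bd (n : ℕ) : (Bd n).card ≤ 8 * n := by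
  have h : Bd n ⊆ (Ico (-(2 * n : ℤ)) (2 * n)).image (fun t => (t, t)) ∪
      (Ico (-(2 * n : ℤ)) (2 * n)).image (fun t => (t, -t - 1)) := by
    rintro ⟨a, b⟩ hB
    simp only [Bd, sq, mem_filter, mem_product, mem_Ico, u] at hB
    simp only [mem_union, mem_image, mem_Ico, Prod.mk.injEq]
    by_cases hab : a = b
    · left; exact ⟨a, hB.1.1, rfl, hab⟩
    · right; refine ⟨a, hB.1.1, rfl, ?_⟩
      have := hB.2.2
      split_ifs at this <;> omega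
  have h4 : (2 * (n : ℤ) - -(2 * n)).toNat = 4 * n := by omega
  refine (card_le_card h).trans ((card_union_le _ _).trans ?_)
  have h1 := card_image_le (s := Ico (-(2 * n : ℤ)) (2 * n)) (f := fun t : ℤ => (t, t))
  have h2 := card_image_le (s := Ico (-(2 * n : ℤ)) (2 * n)) (f := fun t : ℤ => (t, -t - 1))
  rw [Int.card_Ico, h4] at h1 h2
  omega

/-- Union of boxes. -/
noncomputable def un (ℓ : ℕ) (S : Finset (ℤ × ℤ)) : Finset (ℤ × ℤ) := S.biUnion (rect ℓ ℓ)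

theorem mem_un {ℓ : ℕ} (hℓ : 1 ≤ ℓ) {S : Finset (ℤ × ℤ)} {z : ℤ × ℤ} :
    z ∈ un ℓ S ↔ cell ℓ ℓ z ∈ S := by
  simp [un, mem_rect_iff_cell hℓ hℓ]

theorem sat_un {ℓ : ℕ} (hℓ : 1 ≤ ℓ) (S : Finset (ℤ × ℤ)) : Sat ℓ ℓ (un ℓ S) := by
  intro z z' h hz
  rw [mem_un hℓ] at *
  rwa [← h]

theorem rect_subset_un (ℓ : ℕ) {S : Finset (ℤ × ℤ)} {B : ℤ × ℤ} (h : B ∈ S) :
    rect ℓ ℓ B ⊆ un ℓ S := subset_biUnion_of_mem _ h

theorem card_un (ℓ : ℕ) {n : ℕ} {S : Finset (ℤ × ℤ)} (h : S ⊆ sq n) :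
    (un ℓ S).card ≤ 16 * (n * ℓ) ^ 2 := by
  refine card_biUnion_le.trans ?_
  simp only [card_rect, sum_const, smul_eq_mul]
  have := card_le_card h
  rw [card_sq] at this
  calc S.card * (ℓ * ℓ) ≤ 16 * n ^ 2 * (ℓ * ℓ) := Nat.mul_le_mul_right _ this
    _ = 16 * (n * ℓ) ^ 2 := by ring

variable {β : ℝ} {V Ed : Type} [Fintype V] [DecidableEq V] [Fintype Ed] (M : Model β V Ed)
  {k : ℕ}

/-- `U` is the open square of radius `ρ` about the origin. -/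
def IsBall (U : Finset V) (ρ : ℕ) : Prop := ∀ v, v ∈ U ↔ |M.X v| < ρ ∧ |M.Y v| < ρ

theorem IsBall.swap {U : Finset V} {ρ : ℕ} (h : IsBall M U ρ) : IsBall M.swap U ρ :=
  fun v => (h v).trans and_comm

theorem bd_le {U : Finset V} {ρ : ℕ} (h : IsBall M U ρ) : M.bd U ≤ 16 * (2 * ρ + 1) := by
  set S : Finset ℤ := {-(ρ : ℤ), -(ρ : ℤ) + 1, (ρ : ℤ) - 1, (ρ : ℤ)}
  set I : Finset ℤ := Icc (-(ρ : ℤ)) ρ
  have hS : S.card ≤ 4 := card_le_four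
  have hI : I.card = 2 * ρ + 1 := by rw [Int.card_Icc]; omega
  have h1 : M.bd U ≤ #{e | M.pos (M.s e) ∈ S ×ˢ I ∪ I ×ˢ S} := by
    refine card_le_card fun e he => ?_
    simp only [mem_filter, mem_univ, true_and, h _, abs_lt] at he
    simp only [mem_filter, mem_univ, true_and, mem_union, mem_product, Model.pos, S, I,
      mem_insert, mem_singleton, mem_Icc]
    rcases M.step e with hs | hs <;> omega
  have h2 := M.card_edge_le (S ×ˢ I ∪ I ×ˢ S)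
  have h3 := card_union_le (S ×ˢ I) (I ×ˢ S)
  rw [card_product, card_product, hI] at h3
  nlinarith

theorem mar {U : Finset V} {ℓ n : ℕ} (hℓ : 1 ≤ ℓ) (hn : 2 ≤ n) (h : IsBall M U (3 * (n * ℓ)))
    {S : Finset (ℤ × ℤ)} (hS : S ⊆ sq n) : M.Mar U (un ℓ S) ℓ := by
  intro v z hz hx hy
  obtain ⟨B, hB, hz⟩ := mem_biUnion.1 hz
  have hB' := mem_sq.1 (hS hB)
  rw [mem_rect] at hz
  have b1 := (abs_bounds hz.1.1 hz.1.2.le).2.1
  have b2 := (abs_bounds hz.2.1 hz.2.2.le).2.1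
  have hl : (0 : ℤ) ≤ ℓ := Int.natCast_nonneg _
  have c1 : (u B.1 + 1) * ℓ ≤ 2 * n * ℓ := mul_le_mul_of_nonneg_right (by omega) hl
  have c2 : (u B.2 + 1) * ℓ ≤ 2 * n * ℓ := mul_le_mul_of_nonneg_right (by omega) hl
  have c3 : (2 : ℤ) * ℓ ≤ n * ℓ := mul_le_mul_of_nonneg_right (by omega) hl
  have t1 := abs_sub_abs_le_abs_sub (M.X v) z.1
  have t2 := abs_sub_abs_le_abs_sub (M.Y v) z.2
  have hl1 : (1 : ℤ) ≤ ℓ := by exact_mod_cast hℓ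
  rw [h v]
  push_cast
  constructor <;> linarith

/-- Both ends of an edge with source in a half-open box lie in the closed box. -/
theorem ends {ℓ : ℕ} {B : ℤ × ℤ} {e : Ed} (he : M.pos (M.s e) ∈ rect ℓ ℓ B) :
    (B.1 * ℓ ≤ M.X (M.s e) ∧ M.X (M.s e) ≤ (B.1 + 1) * ℓ) ∧
    (B.2 * ℓ ≤ M.Y (M.s e) ∧ M.Y (M.s e) ≤ (B.2 + 1) * ℓ) ∧
    (B.1 * ℓ ≤ M.X (M.t e) ∧ M.X (M.t e) ≤ (B.1 + 1) * ℓ) ∧
    (B.2 * ℓ ≤ M.Y (M.t e) ∧ M.Y (M.t e) ≤ (B.2 + 1) * ℓ) := by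
  simp only [mem_rect, Model.pos] at he
  rcases M.step e with hs | hs <;> omega

/-- The profile as a function of the vertex. -/
noncomputable def cv (R : ℕ) (v : V) : ℝ := chi R (M.X v) (M.Y v)

theorem cv_swap (R : ℕ) : cv M.swap R = cv M R := funext fun _ => chi_comm _ _ _

theorem rst_Bx {ℓ n : ℕ} (hℓ : 1 ≤ ℓ) (hn : 1 ≤ n) {B : ℤ × ℤ} (hB : B ∈ Bx n) :
    ∃ c : ℝ, c ^ 2 = 1 / ((n * ℓ : ℕ) : ℝ) ^ 2 ∧
      M.rst (rect ℓ ℓ B) (M.d (cv M (n * ℓ))) = c • M.rst (rect ℓ ℓ B) M.ω := by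
  have hR : 1 ≤ n * ℓ := Nat.mul_pos hn hℓ
  simp only [Bx, mem_filter, mem_sq] at hB
  have hl : (0 : ℤ) ≤ ℓ := Int.natCast_nonneg _
  have c1 : (u B.1 + 1) * ℓ ≤ 2 * n * ℓ := mul_le_mul_of_nonneg_right (by omega) hl
  have c2 : (u B.2 + 1) * ℓ ≤ u B.1 * ℓ := mul_le_mul_of_nonneg_right (by omega) hl
  have c3 : (n : ℤ) * ℓ ≤ u B.1 * ℓ := mul_le_mul_of_nonneg_right (by omega) hl
  have key : ∀ x y : ℤ, B.1 * ℓ ≤ x → x ≤ (B.1 + 1) * ℓ → B.2 * ℓ ≤ y → y ≤ (B.2 + 1) * ℓ →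
      chi (n * ℓ) x y = (2 * ((n * ℓ : ℕ) : ℝ) - ((|x| : ℤ) : ℝ)) / ((n * ℓ : ℕ) : ℝ) := by
    intro x y h1 h2 h3 h4
    have b1 := abs_bounds h1 h2
    have b2 := abs_bounds h3 h4
    refine chi_eq_x hR (by linarith [b1.1, b2.2.1]) ?_ ?_ <;> push_cast <;>
      linarith [b1.1, b1.2.1]
  refine ⟨(if 0 ≤ B.1 then -1 else 1) / ((n * ℓ : ℕ) : ℝ), by split_ifs <;> rw [div_pow] <;> norm_num, ?_⟩
  funext e
  by_cases he : M.pos (M.s e) ∈ rect ℓ ℓ B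
  · obtain ⟨h1, h2, h3, h4⟩ := ends M he
    simp only [Model.rst, he, if_true, Pi.smul_apply, smul_eq_mul, Model.d, Model.ω, cv]
    rw [key _ _ h1.1 h1.2 h2.1 h2.2, key _ _ h3.1 h3.2 h4.1 h4.2]
    have b1 := abs_bounds h1.1 h1.2
    have b3 := abs_bounds h3.1 h3.2
    split_ifs with hb
    · rw [b1.2.2.1 hb, b3.2.2.1 hb]; ring
    · rw [b1.2.2.2 (not_le.1 hb), b3.2.2.2 (not_le.1 hb)]; push_cast; ring
  · simp [Model.rst, he]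

theorem supp {ℓ n : ℕ} (hℓ : 1 ≤ ℓ) (hn : 1 ≤ n) {e : Ed} (he : M.d (cv M (n * ℓ)) e ≠ 0) :
    cell ℓ ℓ (M.pos (M.s e)) ∈ Bx n ∪ By n ∪ Bd n := by
  have hR : 1 ≤ n * ℓ := Nat.mul_pos hn hℓ
  set B := cell ℓ ℓ (M.pos (M.s e))
  have hB : M.pos (M.s e) ∈ rect ℓ ℓ B := (mem_rect_iff_cell hℓ hℓ).2 rfl
  obtain ⟨h1, h2, h3, h4⟩ := ends M hB
  have b1 := abs_bounds h1.1 h1.2
  have b2 := abs_bounds h2.1 h2.2
  have b3 := abs_bounds h3.1 h3.2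
  have b4 := abs_bounds h4.1 h4.2
  have hl : (0 : ℤ) ≤ ℓ := Int.natCast_nonneg _
  have n1 : ¬(u B.1 < n ∧ u B.2 < n) := by
    rintro ⟨g1, g2⟩
    have c1 : (u B.1 + 1) * ℓ ≤ n * ℓ := mul_le_mul_of_nonneg_right (by omega) hl
    have c2 : (u B.2 + 1) * ℓ ≤ n * ℓ := mul_le_mul_of_nonneg_right (by omega) hl
    apply he
    simp only [Model.d, cv]
    rw [chi_eq_one hR, chi_eq_one hR, sub_self] <;> push_cast <;>
      linarith [b1.2.1, b2.2.1, b3.2.1, b4.2.1]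
  have n2 : u B.1 < 2 * n := by
    by_contra g
    have c1 : 2 * n * (ℓ : ℤ) ≤ u B.1 * ℓ := mul_le_mul_of_nonneg_right (by omega) hl
    apply he
    simp only [Model.d, cv]
    rw [chi_eq_zero hR, chi_eq_zero hR, sub_self] <;> left <;> push_cast <;>
      linarith [b1.1, b3.1]
  have n3 : u B.2 < 2 * n := by
    by_contra g
    have c1 : 2 * n * (ℓ : ℤ) ≤ u B.2 * ℓ := mul_le_mul_of_nonneg_right (by omega) hl
    apply he
    simp only [Model.d, cv]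
    rw [chi_eq_zero hR, chi_eq_zero hR, sub_self] <;> right <;> push_cast <;>
      linarith [b2.1, b4.1]
  simp only [mem_union, Bx, By, Bd, mem_filter, mem_sq]
  omega

theorem abs_d_le {R : ℕ} (hR : 1 ≤ R) (e : Ed) : |M.d (cv M R) e| ≤ 1 / R := by
  refine chi_lip hR ?_
  rcases M.step e with hs | hs <;> rw [hs.1, hs.2] <;> simp only [abs_eq_max_neg] <;> omega

/-- The summand attached to one box. -/
noncomputable def QB (U : Finset V) (σ₀ : Ω k V) (ℓ : ℕ) (a : Ed → ℝ) (c : Fin 3) (B : ℤ × ℤ) : ℝ :=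
  M.Q U σ₀ (M.Lam ℓ ℓ (rect ℓ ℓ B)) (L k c) (M.rst (rect ℓ ℓ B) a) (M.rst (rect ℓ ℓ B) a)

theorem QB_swap (U : Finset V) (σ₀ : Ω k V) (ℓ : ℕ) (a : Ed → ℝ) (c : Fin 3) (B : ℤ × ℤ) :
    QB M.swap U σ₀ ℓ a c B = QB M U σ₀ ℓ a c B.swap := by
  have h : ∀ v, M.swap.pos v ∈ rect ℓ ℓ B ↔ M.pos v ∈ rect ℓ ℓ B.swap := fun v => by
    simp only [mem_rect, Model.pos, Model.swap, Prod.fst_swap, Prod.snd_swap]; exact and_comm
  have e1 : M.swap.Lam ℓ ℓ (rect ℓ ℓ B) = M.Lam ℓ ℓ (rect ℓ ℓ B.swap) := by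
    ext v
    rw [Model.mem_Lam, Model.mem_Lam, h]
    exact and_congr_right fun _ => and_comm
  have e2 : M.swap.rst (rect ℓ ℓ B) a = M.rst (rect ℓ ℓ B.swap) a := by
    funext e
    exact if_congr (h _) rfl rfl
  rw [QB, QB, e1, e2]
  rfl

theorem xpart {U : Finset V} (σ₀ : Ω k V) {ℓ n : ℕ} (hℓ : 1 ≤ ℓ) (hn : 1 ≤ n) {ε : ℝ}
    (hD : M.Dst U σ₀ ℓ (un ℓ (Bx n)) ≤ ε * (16 * ((n * ℓ : ℕ) : ℝ) ^ 2)) :
    ∑ c : Fin 3, ∑ B ∈ Bx n, QB M U σ₀ ℓ (M.d (cv M (n * ℓ))) c B ≤ 16 * ε := by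
  have hR : (0 : ℝ) < ((n * ℓ : ℕ) : ℝ) := by exact_mod_cast Nat.mul_pos hn hℓ
  have e1 : M.Dst U σ₀ ℓ (un ℓ (Bx n)) = ∑ c : Fin 3, ∑ B ∈ Bx n, QB M U σ₀ ℓ M.ω c B := by
    refine Finset.sum_congr rfl fun c _ => ?_
    rw [M.Q_sum σ₀ hℓ hℓ dvd_rfl dvd_rfl (R := Bx n) (fun B hB => rect_subset_un ℓ hB)]
    · exact Finset.sum_congr rfl fun B hB => by rw [QB, M.rst_rst (rect_subset_un ℓ hB)]
    · intro e he
      rw [← mem_un hℓ]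
      by_contra hs; simp [Model.rst, hs] at he
  have e2 : ∑ c : Fin 3, ∑ B ∈ Bx n, QB M U σ₀ ℓ (M.d (cv M (n * ℓ))) c B =
      1 / ((n * ℓ : ℕ) : ℝ) ^ 2 * M.Dst U σ₀ ℓ (un ℓ (Bx n)) := by
    rw [e1, Finset.mul_sum]
    refine Finset.sum_congr rfl fun c _ => ?_
    rw [Finset.mul_sum]
    refine Finset.sum_congr rfl fun B hB => ?_
    obtain ⟨a, ha, h⟩ := rst_Bx M hℓ hn hB
    rw [QB, h, M.Q_smul_smul, ha, QB]
  rw [e2, one_div, inv_mul_le_iff₀ (by positivity)]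
  linarith

theorem dpart (hβ : 0 ≤ β) (U : Finset V) (σ₀ : Ω k V) {ℓ n : ℕ} (hℓ : 1 ≤ ℓ) (hn : 1 ≤ n) :
    ∑ c : Fin 3, ∑ B ∈ Bd n, QB M U σ₀ ℓ (M.d (cv M (n * ℓ))) c B ≤ 48 * β / n := by
  have hR : 1 ≤ n * ℓ := Nat.mul_pos hn hℓ
  have hn' : (0 : ℝ) < n := by exact_mod_cast hn
  have hl' : (0 : ℝ) < ℓ := by exact_mod_cast hℓ
  have h1 : ∀ c B, QB M U σ₀ ℓ (M.d (cv M (n * ℓ))) c B ≤ 2 * β / (n : ℝ) ^ 2 := by
    intro c B
    refine (M.Q_self_le σ₀ hβ _ _ _).trans ?_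
    have := M.sum_sq_le (W := rect ℓ ℓ B) (a := M.rst (rect ℓ ℓ B) (M.d (cv M (n * ℓ))))
      (μ := 1 / ((n * ℓ : ℕ) : ℝ)) (fun e he => by by_contra hs; simp [Model.rst, hs] at he)
      (fun e => by
        unfold Model.rst; split_ifs
        exacts [abs_d_le M hR e, by simp; positivity])
    refine (mul_le_mul_of_nonneg_left this hβ).trans (le_of_eq ?_)
    rw [card_rect]; push_cast; field_simp
  have h2 : ∀ c, ∑ B ∈ Bd n, QB M U σ₀ ℓ (M.d (cv M (n * ℓ))) c B ≤ 16 * β / n := by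
    intro c
    refine (Finset.sum_le_card_nsmul _ _ _ fun B _ => h1 c B).trans ?_
    have h3 : ((Bd n).card : ℝ) ≤ 8 * n := by exact_mod_cast card_Bd n
    rw [nsmul_eq_mul]
    calc ((Bd n).card : ℝ) * (2 * β / (n : ℝ) ^ 2) ≤ 8 * n * (2 * β / (n : ℝ) ^ 2) := by gcongr
      _ = 16 * β / n := by field_simp; ring
  rw [Fin.sum_univ_three]
  have : 48 * β / n = 16 * β / n + 16 * β / n + 16 * β / n := by ring
  linarith [h2 0, h2 1, h2 2]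

theorem core (hβ : 0 ≤ β) {U : Finset V} (σ₀ : Ω k V) {ℓ n : ℕ} (hℓ : 1 ≤ ℓ) (hn : 2 ≤ n)
    (hU : IsBall M U (3 * (n * ℓ))) {ε : ℝ}
    (hD : M.Dst U σ₀ ℓ (un ℓ (Bx n)) ≤ ε * (16 * ((n * ℓ : ℕ) : ℝ) ^ 2))
    (hD' : M.swap.Dst U σ₀ ℓ (un ℓ (Bx n)) ≤ ε * (16 * ((n * ℓ : ℕ) : ℝ) ^ 2)) :
    M.Ex U σ₀ (M.ce (M.Lam ℓ ℓ (un ℓ (Bx n ∪ By n ∪ Bd n)))
      (M.J (L k 0) (M.d (cv M (n * ℓ)))) ^ 2) ≤ 32 * ε + 48 * β / n := by
  have hn1 : 1 ≤ n := by omega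
  have hR : 1 ≤ n * ℓ := Nat.mul_pos hn1 hℓ
  have hsub : Bx n ∪ By n ∪ Bd n ⊆ sq n :=
    union_subset (union_subset (filter_subset _ _) (filter_subset _ _)) (filter_subset _ _)
  have hΛ := Model.Mar.Lam_subset M (mar M hℓ hn hU hsub) ℓ ℓ
  have hχ : ∀ v, v ∉ U → cv M (n * ℓ) v = 0 := by
    intro v hv
    rw [hU v] at hv
    refine chi_eq_zero hR ?_
    push_cast at hv ⊢
    have : (0 : ℤ) ≤ n * ℓ := by positivity
    omega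
  have e : ∀ c : Fin 3, M.Ex U σ₀ (M.ce (M.Lam ℓ ℓ (un ℓ (Bx n ∪ By n ∪ Bd n)))
      (M.J (L k c) (M.d (cv M (n * ℓ)))) ^ 2) =
      ∑ B ∈ Bx n, QB M U σ₀ ℓ (M.d (cv M (n * ℓ))) c B +
      ∑ B ∈ By n, QB M U σ₀ ℓ (M.d (cv M (n * ℓ))) c B +
      ∑ B ∈ Bd n, QB M U σ₀ ℓ (M.d (cv M (n * ℓ))) c B := by
    intro c
    rw [M.Ex_ce_J_sq σ₀ hΛ _ hχ, M.Q_sum σ₀ hℓ hℓ dvd_rfl dvd_rfl (R := Bx n ∪ By n ∪ Bd n)
      (fun B hB => rect_subset_un ℓ hB) _ _ fun e he => supp M hℓ hn1 he,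
      sum_union, sum_union]
    · rfl
    · rw [disjoint_left]
      intro B h1 h2
      simp only [Bx, By, mem_filter] at h1 h2
      omega
    · rw [disjoint_left]
      intro B h1 h2
      simp only [Bx, By, Bd, mem_filter, mem_union] at h1 h2
      omega
  have hx := xpart M σ₀ hℓ hn1 hD
  have hy := xpart M.swap σ₀ hℓ hn1 hD'
  have hd := dpart M hβ U σ₀ hℓ hn1
  have ey : ∀ c : Fin 3, ∑ B ∈ Bx n, QB M.swap U σ₀ ℓ (M.swap.d (cv M.swap (n * ℓ))) c B =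
      ∑ B ∈ By n, QB M U σ₀ ℓ (M.d (cv M (n * ℓ))) c B := by
    intro c
    refine Finset.sum_equiv (Equiv.prodComm ℤ ℤ) (fun B => ?_) fun B _ => ?_
    · simp only [Bx, By, mem_filter, mem_sq, Equiv.prodComm_apply, Prod.fst_swap, Prod.snd_swap]
      omega
    · rw [QB_swap, cv_swap]; rfl
  simp only [ey] at hy
  have p1 := M.Ex_sq_nonneg U σ₀ (M.ce (M.Lam ℓ ℓ (un ℓ (Bx n ∪ By n ∪ Bd n)))
      (M.J (L k 1) (M.d (cv M (n * ℓ)))))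
  have p2 := M.Ex_sq_nonneg U σ₀ (M.ce (M.Lam ℓ ℓ (un ℓ (Bx n ∪ By n ∪ Bd n)))
      (M.J (L k 2) (M.d (cv M (n * ℓ)))))
  rw [e] at p1 p2 ⊢
  rw [Fin.sum_univ_three] at hx hy hd
  linarith

theorem not_mem_Lam {ℓ n : ℕ} {v : V} (hx : |M.X v| ≤ (n * ℓ : ℕ)) (hy : |M.Y v| ≤ (n * ℓ : ℕ)) :
    v ∉ M.Lam ℓ ℓ (un ℓ (Bx n ∪ By n ∪ Bd n)) := by
  intro hv
  rw [Model.mem_Lam] at hv
  obtain ⟨B, hB, hz⟩ := mem_biUnion.1 hv.1
  simp only [mem_rect, Model.pos] at hz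
  have b1 := (abs_bounds hz.1.1 hz.1.2.le).1
  have b2 := (abs_bounds hz.2.1 hz.2.2.le).1
  have hl : (0 : ℤ) ≤ ℓ := Int.natCast_nonneg _
  have g : (n : ℤ) ≤ u B.1 ∨ (n : ℤ) ≤ u B.2 := by
    simp only [Bx, By, Bd, mem_filter, mem_union] at hB
    omega
  push_cast at hx hy
  rcases g with g | g
  · have c : (n : ℤ) * ℓ ≤ u B.1 * ℓ := mul_le_mul_of_nonneg_right g hl
    exact hv.2.1 ((dvd_abs _ _).1 ⟨n, by linarith⟩)
  · have c : (n : ℤ) * ℓ ≤ u B.2 * ℓ := mul_le_mul_of_nonneg_right g hl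
    exact hv.2.2 ((dvd_abs _ _).1 ⟨n, by linarith⟩)

end Fish

open Fish in
theorem fisherStmt_of (h : PropAStmt) : FisherStmt := by
  intro k β γ hβ hγ
  obtain ⟨ℓ, κ, hℓ, hκ, hA⟩ := h k β (γ / 64) hβ (by positivity)
  obtain ⟨N, hN⟩ := exists_nat_ge (max 2 (max (96 * β / γ) (7 * κ)))
  have hN2 : 2 ≤ N := by exact_mod_cast (le_max_left _ _).trans hN
  have hNβ : 96 * β / γ ≤ N := ((le_max_left _ _).trans (le_max_right _ _)).trans hN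
  have hNκ : 7 * κ ≤ N := ((le_max_right _ _).trans (le_max_right _ _)).trans hN
  refine ⟨N * ℓ, Nat.mul_pos (by omega) hℓ, fun j hj V Ed _ _ _ M z σ₀ => ?_⟩
  rw [← mul_assoc j N ℓ]
  have hNn : N ≤ j * N := Nat.le_mul_of_pos_left _ hj
  generalize j * N = n at *
  have hn : 2 ≤ n := by omega
  have hR : 1 ≤ n * ℓ := Nat.mul_pos (by omega) hℓ
  set M' := M.shift (M.pos z) with hM'
  have hU : IsBall M' (M.ball z (3 * (n * ℓ))) (3 * (n * ℓ)) := by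
    intro v
    rw [Model.mem_ball, Model.dist]
    simp only [hM', Model.shift, Model.pos, abs_lt]
    omega
  have hsub : Bx n ∪ By n ∪ Bd n ⊆ sq n :=
    union_subset (union_subset (filter_subset _ _) (filter_subset _ _)) (filter_subset _ _)
  have hNn' : (N : ℝ) ≤ n := by exact_mod_cast hNn
  have hn0 : (0 : ℝ) < n := by exact_mod_cast (by omega : 0 < n)
  have hD : ∀ M₁ : Model β V Ed, IsBall M₁ (M.ball z (3 * (n * ℓ))) (3 * (n * ℓ)) →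
      M₁.Dst (M.ball z (3 * (n * ℓ))) σ₀ ℓ (un ℓ (Bx n)) ≤
        γ / 64 * (16 * ((n * ℓ : ℕ) : ℝ) ^ 2) := by
    intro M₁ h₁
    refine hA V Ed M₁ _ σ₀ _ _ (sat_un hℓ _) (mar M₁ hℓ hn h₁ (filter_subset _ _)) ?_ ?_
    · exact_mod_cast card_un ℓ (filter_subset _ _)
    · have h2 : M₁.bd (M.ball z (3 * (n * ℓ))) ≤ 112 * (n * ℓ) := by
        have := bd_le M₁ h₁; omega
      have h3 : (M₁.bd (M.ball z (3 * (n * ℓ))) : ℝ) ≤ 112 * ((n * ℓ : ℕ) : ℝ) := by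
        exact_mod_cast h2
      have h4 : (n : ℝ) ≤ ((n * ℓ : ℕ) : ℝ) := by exact_mod_cast Nat.le_mul_of_pos_right n hℓ
      have h5 : 7 * κ ≤ ((n * ℓ : ℕ) : ℝ) := by linarith
      have h6 : (0 : ℝ) ≤ ((n * ℓ : ℕ) : ℝ) := Nat.cast_nonneg _
      nlinarith
  refine ⟨M'.Lam ℓ ℓ (un ℓ (Bx n ∪ By n ∪ Bd n)), cv M' (n * ℓ),
    Model.Mar.Lam_subset M' (mar M' hℓ hn hU hsub) ℓ ℓ, fun v hv => ?_, fun v hv => ?_, ?_⟩
  · have hx : |M'.X v| ≤ (n * ℓ : ℕ) := by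
      simp only [Model.dist] at hv
      simp only [hM', Model.shift, Model.pos, abs_le]
      omega
    have hy : |M'.Y v| ≤ (n * ℓ : ℕ) := by
      simp only [Model.dist] at hv
      simp only [hM', Model.shift, Model.pos, abs_le]
      omega
    exact ⟨not_mem_Lam M' hx hy, chi_eq_one hR hx hy⟩
  · rw [hU v] at hv
    refine chi_eq_zero hR ?_
    omega
  · have := core M' hβ.le σ₀ hℓ hn hU (hD M' hU) (hD M'.swap hU.swap)
    have h2 : 48 * β / n ≤ γ / 2 := by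
      rw [div_le_iff₀ hγ] at hNβ
      rw [div_le_iff₀ hn0]
      nlinarith
    refine le_trans (le_of_eq ?_) (this.trans (by linarith))
    rfl

end Crest.Agent.R167
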