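import Crest.Agent.R167.Cond

/-!
# Row 167: generators, flows, integration by parts
-/

set_option autoImplicit false
set_option linter.unusedSectionVars false

namespace Crest.Agent.R167

open MeasureTheory Finset
open scoped InnerProductSpace

/-! ### Generators and flows -/

namespace Gen
variable {k : ℕ} (G : Gen k)

/-- The rotation as a linear isometry. -/
noncomputable def rotL (t : ℝ) : E k →ₗᵢ[ℝ] E k where
  toFun := G.rot t
  map_add' x y := by simp only [rot, map_add, smul_add]; abel
  map_smul' c x := by simp only [rot, map_smul, smul_add, RingHom.id_apply, smul_comm c]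
  norm_map' := G.norm_rot t

@[simp] theorem rotL_apply (t : ℝ) (x : E k) : G.rotL t x = G.rot t x := rfl

theorem rot_zero (x : E k) : G.rot 0 x = x := by simp [rot]

theorem rot_add (s t : ℝ) (x : E k) : G.rot (s + t) x = G.rot s (G.rot t x) := by
  have h4 : G.A (G.A (G.A (G.A x))) = -G.A (G.A x) := G.cube _
  simp only [rot, map_add, map_smul, G.cube, map_neg, Real.sin_add, Real.cos_add]
  module

theorem norm_A_le (x : E k) : ‖G.A x‖ ≤ ‖x‖ := by
  have h1 : ‖G.A x‖ ^ 2 = -⟪x, G.A (G.A x)⟫_ℝ := by rw [← real_inner_self_eq_norm_sq, G.skew]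
  have h2 : ‖G.A (G.A x)‖ ^ 2 = ‖G.A x‖ ^ 2 := by
    rw [← real_inner_self_eq_norm_sq, G.skew, G.cube, inner_neg_right, neg_neg,
      real_inner_self_eq_norm_sq]
  have h3 : ‖G.A (G.A x)‖ = ‖G.A x‖ := (sq_eq_sq₀ (norm_nonneg _) (norm_nonneg _)).1 h2
  have h4 := abs_real_inner_le_norm x (G.A (G.A x))
  rw [h3] at h4
  have h5 := neg_abs_le ⟪x, G.A (G.A x)⟫_ℝ
  by_contra hc
  nlinarith [norm_nonneg x, norm_nonneg (G.A x)]

theorem norm_le_one : ‖G.A‖ ≤ 1 :=
  ContinuousLinearMap.opNorm_le_bound _ zero_le_one fun x => by simpa using G.norm_A_le x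

end Gen

theorem L_comm (k : ℕ) (c : Fin 3) :
    (L k c).A * (L k (c + 1)).A - (L k (c + 1)).A * (L k c).A = (L k (c + 2)).A := by
  have h01 : (0 : Fin (k + 3)) ≠ 1 := by simp
  ext x l
  fin_cases c <;> simp [L, gen, genA_apply, h01, h01.symm]

/-- The commutator of two distinct generators of the triple is `±` the third one. -/
theorem L_comm' (k : ℕ) {B C : Fin 3} (h : B ≠ C) : ∃ (c : Fin 3) (ε : ℝ), ε ^ 2 = 1 ∧
    (L k C).A * (L k B).A - (L k B).A * (L k C).A = ε • (L k c).A := by
  have key : ∀ B C : Fin 3, B ≠ C → B = C + 1 ∨ C = B + 1 := by decide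
  rcases key B C h with rfl | rfl
  · exact ⟨C + 2, 1, by norm_num, by rw [L_comm, one_smul]⟩
  · exact ⟨B + 2, -1, by norm_num, by rw [← L_comm]; ext x l; simp⟩

/-- The rotation by `π` of `L 0` flips the coordinate `0`. -/
theorem L_zero_rot_pi (k : ℕ) (x : E k) : (L k 0).rot Real.pi x 0 = -x 0 := by
  have h01 : (0 : Fin (k + 3)) ≠ 1 := by simp
  simp [Gen.rot, L, gen, genA_apply, h01, h01.symm]
  ring

section Flow
variable {k : ℕ} {V : Type} [Fintype V] [DecidableEq V]

theorem flow_eq_isoMap (G : Gen k) (f : V → ℝ) (t : ℝ) :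
    flow G f t = isoMap fun v => G.rotL (t * f v) := rfl

@[simp] theorem flow_coe (G : Gen k) (f : V → ℝ) (t : ℝ) (σ : Ω k V) (v : V) :
    (flow G f t σ v : E k) = G.rot (t * f v) (σ v) := rfl

theorem flow_zero (G : Gen k) (f : V → ℝ) (σ : Ω k V) : flow G f 0 σ = σ := by
  funext v
  exact Subtype.ext (by rw [flow_coe, zero_mul, Gen.rot_zero])

theorem flow_add (G : Gen k) (f : V → ℝ) (s t : ℝ) (σ : Ω k V) :
    flow G f (s + t) σ = flow G f s (flow G f t σ) := by
  funext v
  exact Subtype.ext (by rw [flow_coe, flow_coe, flow_coe, add_mul, Gen.rot_add])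

theorem flow_of_eq_zero (G : Gen k) {f : V → ℝ} (t : ℝ) (σ : Ω k V) {v : V} (h : f v = 0) :
    flow G f t σ v = σ v := by
  exact Subtype.ext (by rw [flow_coe, h, mul_zero, Gen.rot_zero])

variable {G : Gen k} {f : V → ℝ}

theorem HasD.at {F F' : CF k V} (h : HasD G f F F') (σ : Ω k V) (t : ℝ) :
    HasDerivAt (fun t => F (flow G f t σ)) (F' (flow G f t σ)) t := by
  have h1 : HasDerivAt (fun s => F (flow G f s (flow G f t σ))) (F' (flow G f t σ)) (t - t) := by
    rw [sub_self]; exact h _
  have h2 := h1.comp_sub_const t t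
  simpa only [← flow_add, sub_add_cancel] using h2

theorem HasD.unique {F F' F'' : CF k V} (h : HasD G f F F') (h' : HasD G f F F'') : F' = F'' :=
  ContinuousMap.ext fun σ => (h σ).unique (h' σ)

theorem HasD.add {F F' K K' : CF k V} (h : HasD G f F F') (h' : HasD G f K K') :
    HasD G f (F + K) (F' + K') := fun σ => (h σ).add (h' σ)

theorem HasD.sub {F F' K K' : CF k V} (h : HasD G f F F') (h' : HasD G f K K') :
    HasD G f (F - K) (F' - K') := fun σ => (h σ).sub (h' σ)

theorem HasD.neg {F F' : CF k V} (h : HasD G f F F') : HasD G f (-F) (-F') := fun σ => (h σ).neg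

theorem HasD.smul {F F' : CF k V} (c : ℝ) (h : HasD G f F F') : HasD G f (c • F) (c • F') :=
  fun σ => (h σ).const_mul c

theorem HasD.mul {F F' K K' : CF k V} (h : HasD G f F F') (h' : HasD G f K K') :
    HasD G f (F * K) (F' * K + F * K') := by
  intro σ
  have := (h σ).mul (h' σ)
  simp only [flow_zero] at this
  exact this

theorem HasD.cexp {F F' : CF k V} (h : HasD G f F F') : HasD G f (cexp F) (F' * cexp F) := by
  intro σ
  have := (h σ).exp
  simp only [flow_zero] at this
  simpa [mul_comm] using this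

theorem hasD_sum {ι : Type*} (I : Finset ι) {F F' : ι → CF k V}
    (h : ∀ i ∈ I, HasD G f (F i) (F' i)) : HasD G f (∑ i ∈ I, F i) (∑ i ∈ I, F' i) := by
  intro σ
  simpa only [ContinuousMap.coe_sum, Finset.sum_apply] using HasDerivAt.fun_sum fun i hi => h i hi σ

/-- A function not depending on the support of `f` has derivative `0`. -/
theorem Indep.hasD {Λ : Finset V} {F : CF k V} (h : Indep Λ F) (hf : ∀ v, v ∉ Λ → f v = 0) :
    HasD G f F 0 := by
  intro σ
  have : (fun t => F (flow G f t σ)) = fun _ => F σ :=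
    funext fun t => h _ _ fun v hv => flow_of_eq_zero G t σ (hf v hv)
  rw [this]
  exact hasDerivAt_const _ _

theorem HasD.indep {Δ : Finset V} {F F' : CF k V} (h : HasD G f F F') (hF : Indep Δ F) :
    Indep Δ F' := by
  intro σ τ hv
  have : (fun t => F (flow G f t σ)) = fun t => F (flow G f t τ) :=
    funext fun t => hF _ _ fun v hn => Subtype.ext (by rw [flow_coe, flow_coe, hv v hn])
  exact (h σ).unique (this ▸ h τ)

theorem hasDerivAt_pint {F F' : CF k V} (h : HasD G f F F') (g : CF k V) (Λ : Finset V)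
    (σ : Ω k V) (t : ℝ) :
    HasDerivAt (fun s => pint Λ (g * F.comp (flow G f s)) σ)
      (pint Λ (g * F'.comp (flow G f t)) σ) t := by
  refine (hasDerivAt_integral_of_dominated_loc_of_deriv_le (μ := ν k V)
    (F := fun s τ => (g * F.comp (flow G f s)) (Λ.piecewise τ σ))
    (F' := fun s τ => (g * F'.comp (flow G f s)) (Λ.piecewise τ σ))
    (bound := fun _ => ‖g‖ * ‖F'‖) Filter.univ_mem
    (Filter.Eventually.of_forall fun s => (integrable_piecewise Λ _ σ).aestronglyMeasurable)
    (integrable_piecewise Λ _ σ) (integrable_piecewise Λ _ σ).aestronglyMeasurable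
    (Filter.Eventually.of_forall fun τ s _ => ?_) (integrable_const _)
    (Filter.Eventually.of_forall fun τ s _ => (h.at _ s).const_mul _)).2
  rw [ContinuousMap.mul_apply, norm_mul]
  exact mul_le_mul (g.norm_coe_le_norm _) (F'.norm_coe_le_norm _) (norm_nonneg _) (norm_nonneg _)

theorem HasD.pint {F F' : CF k V} (h : HasD G f F F') (Λ : Finset V) :
    HasD G f (pint Λ F) (pint Λ F') := by
  intro σ
  have := hasDerivAt_pint h 1 Λ σ 0
  simp only [one_mul] at this
  have e : ∀ (t : ℝ) (K : CF k V), R167.pint Λ (K.comp (flow G f t)) σ =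
      R167.pint Λ K (flow G f t σ) := fun t K => by
    rw [flow_eq_isoMap, pint_comp_isoMap]; rfl
  simpa only [e, flow_zero] using this

theorem HasD.cE {H H' F F' : CF k V} (hH : HasD G f H H') (h : HasD G f F F') (Λ : Finset V) :
    HasD G f (cE H Λ F) (cE H Λ F' + cov H Λ F H') := by
  intro σ
  have h1 := ((h.mul hH.cexp).pint Λ) σ
  have h2 := (hH.cexp.pint Λ) σ
  have h3 := h1.div h2 (pint_cexp_pos Λ H _).ne'
  simp only [flow_zero] at h3
  refine HasDerivAt.congr_deriv h3 ?_
  have hz := (pint_cexp_pos Λ H σ).ne'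
  simp only [cov, ContinuousMap.add_apply, ContinuousMap.sub_apply, ContinuousMap.mul_apply,
    cE_apply, map_add, mul_assoc]
  field_simp
  ring

/-- Integration by parts. -/
theorem cE_ibp {H H' F F' : CF k V} (hH : HasD G f H H') (h : HasD G f F F') {U : Finset V}
    (hf : ∀ v, v ∉ U → f v = 0) : cE H U F' = -cE H U (F * H') := by
  have h1 := ((h.mul hH.cexp).pint U).unique ((indep_pint U _).hasD hf)
  ext σ
  have h2 := DFunLike.congr_fun h1 σ
  simp only [map_add, ContinuousMap.add_apply, ContinuousMap.zero_apply] at h2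
  rw [ContinuousMap.neg_apply, cE_apply, cE_apply, ← neg_div, mul_assoc]
  congr 1
  linarith

/-- Derivative of the expectation of a transported (merely continuous) observable. -/
theorem hasDerivAt_cE_flow {H H' : CF k V} (hH : HasD G f H H') (g : CF k V) {U : Finset V}
    (hf : ∀ v, v ∉ U → f v = 0) (σ : Ω k V) (t : ℝ) :
    HasDerivAt (fun t => cE H U (g.comp (flow G f t)) σ)
      (-cE H U (g.comp (flow G f t) * H') σ) t := by
  have e : ∀ (t : ℝ) (K : CF k V), pint U (K.comp (flow G f t)) σ = pint U K σ := fun t K => by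
    rw [flow_eq_isoMap, pint_comp_isoMap]
    exact indep_pint U K _ _ fun v hv => flow_of_eq_zero G t σ (hf v hv)
  have e2 : ∀ (t : ℝ) (K : CF k V), pint U (g.comp (flow G f t) * K) σ =
      pint U (g * K.comp (flow G f (-t))) σ := fun t K => by
    rw [← e t (g * K.comp (flow G f (-t)))]
    congr 2
    ext τ
    simp only [ContinuousMap.mul_apply, ContinuousMap.comp_apply, ← flow_add, neg_add_cancel,
      flow_zero]
  have h1 := (hasDerivAt_pint hH.cexp g U σ (-t)).scomp t (hasDerivAt_neg t)
  have h2 := h1.div_const (pint U (cexp H) σ)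
  simp only [cE_apply, mul_assoc, e2]
  refine HasDerivAt.congr_deriv h2 ?_
  simp [neg_div]

theorem hasD_ip (A : E k →L[ℝ] E k) (u v : V) :
    HasD G f (ip A u v) (f v • ip (A * G.A) u v - f u • ip (G.A * A) u v) := by
  intro σ
  have hr : ∀ w : V, HasDerivAt (fun t : ℝ => (flow G f t σ w : E k)) (f w • G.A (σ w)) 0 := by
    intro w
    have a1 : HasDerivAt (fun t : ℝ => t * f w) (f w) 0 := hasDerivAt_mul_const _
    have a2 := ((a1.sin.smul_const (G.A (σ w))).const_add (σ w : E k)).add
      ((a1.cos.const_sub 1).smul_const (G.A (G.A (σ w))))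
    exact HasDerivAt.congr_deriv a2 (by simp)
  have := (hr u).inner ℝ (A.hasFDerivAt.comp_hasDerivAt 0 (hr v))
  refine HasDerivAt.congr_deriv this ?_
  simp only [Function.comp, flow_zero, ip, ContinuousMap.sub_apply, ContinuousMap.smul_apply,
    ContinuousMap.coe_mk, mul_apply_eq_comp, map_smul, real_inner_smul_left,
    real_inner_smul_right, G.skew, smul_eq_mul]
  ring

theorem abs_ip_le (A : E k →L[ℝ] E k) (u v : V) (σ : Ω k V) : |ip A u v σ| ≤ ‖A‖ := by
  refine (abs_real_inner_le_norm (σ u : E k) (A (σ v))).trans ?_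
  have := A.le_opNorm (σ v : E k)
  rw [norm_eq_of_mem_sphere, mul_one] at this
  rwa [norm_eq_of_mem_sphere, one_mul]

end Flow

end Crest.Agent.R167
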