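import Crest.Agent.R167.Basic

/-!
# Row 167: the gain of one cell
-/

set_option autoImplicit false
set_option linter.unusedSectionVars false

namespace Crest.Agent.R167

open MeasureTheory Finset
open scoped InnerProductSpace

namespace GainA

variable {β : ℝ} {V Ed : Type} [Fintype V] [DecidableEq V] [Fintype Ed] {k : ℕ}
  (M : Model β V Ed) {U : Finset V} (σ₀ : Ω k V)

lemma rst_rst {W W' : Finset (ℤ × ℤ)} (h : W ⊆ W') (a : Ed → ℝ) :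
    M.rst W (M.rst W' a) = M.rst W a := by
  funext e
  simp only [Model.rst]
  split_ifs with h1 h2
  · rfl
  · exact absurd (h h1) h2
  · rfl

lemma rst_congr {W : Finset (ℤ × ℤ)} {a a' : Ed → ℝ}
    (h : ∀ e, M.pos (M.s e) ∈ W → a e = a' e) : M.rst W a = M.rst W a' := by
  funext e
  simp only [Model.rst]
  split_ifs with h1
  · exact h e h1
  · rfl

lemma Q_add_right (Λ : Finset V) (G : Gen k) (a a' a'' : Ed → ℝ) :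
    M.Q U σ₀ Λ G a (a' + a'') = M.Q U σ₀ Λ G a a' + M.Q U σ₀ Λ G a a'' := by
  simp only [Model.Q, Model.Mm, Model.J, Model.cv, mul_add, Model.bil_add, cov_add_right, map_add,
    neg_add]
  ring

/-- Step (1): the commutator identity. -/
lemma step1 (Λ : Finset V) (A B C : Gen k) (hC : A.A * B.A - B.A * A.A = C.A) {φ : V → ℝ}
    (χ : V → ℝ) (hφ : ∀ v, v ∉ U → φ v = 0) (a : Ed → ℝ) :
    M.Ex U σ₀ (M.ce Λ (M.J A a) * M.score Λ B C φ χ) -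
        M.Ex U σ₀ (M.ce Λ (M.J B a) * M.score Λ A C φ χ) =
      2 * M.Ex U σ₀ (M.psi Λ C χ * M.ce Λ (M.J C fun e => M.av φ e * a e)) +
        M.Ex U σ₀ (M.psi Λ C χ * (M.cv Λ (M.J A a) (M.J B (M.d φ)) -
          M.cv Λ (M.J B a) (M.J A (M.d φ)))) := by
  have h1 := M.Ex_mul_score σ₀ Λ B C χ hφ (M.hasD_ce (M.hasD_bil B φ A.A a) Λ)
  have h2 := M.Ex_mul_score σ₀ Λ A C χ hφ (M.hasD_ce (M.hasD_bil A φ B.A a) Λ)
  rw [M.bil_deriv_eq, hC] at h1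
  have hC' : B.A * A.A - A.A * B.A = (-1 : ℝ) • C.A := by
    rw [← hC]; ext x; simp
  rw [M.bil_deriv_eq, hC', M.bil_smul_op, add_comm (B.A * A.A)] at h2
  simp only [Model.J] at h1 h2 ⊢
  rw [h1, h2]
  simp only [map_add, map_smul, mul_add, mul_sub, map_sub, mul_smul_comm, smul_eq_mul]
  ring

/-- Step (2), first half. -/
lemma step2 {Λ : Finset V} (hΛ : Λ ⊆ U) (C : Gen k) {χ : V → ℝ} (hχ : ∀ v, v ∉ U → χ v = 0)
    (a : Ed → ℝ) : M.Ex U σ₀ (M.psi Λ C χ * M.ce Λ (M.J C a)) = M.Q U σ₀ Λ C (M.d χ) a := by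
  rw [Model.psi, M.Ex_ce_mul_ce σ₀ hΛ, mul_comm, M.Ex_J_mul_J σ₀ C hχ, Model.Q, mul_comm]

lemma sq_le_of_four {F : CF k V} {a : ℝ} (ha : 0 ≤ a) (h : M.Ex U σ₀ (F ^ 4) ≤ a ^ 2) :
    M.Ex U σ₀ (F ^ 2) ≤ a :=
  le_of_sq_le_sq_of_nonneg ((M.Ex_sq_sq_le U σ₀ F).trans h) ha
where le_of_sq_le_sq_of_nonneg {x y : ℝ} (h : x ^ 2 ≤ y ^ 2) (hy : 0 ≤ y) : x ≤ y :=
  le_trans (le_abs_self x) (abs_le_of_sq_le_sq' h hy |> fun h => abs_le.mpr h)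

/-- closed box containing both ends of an edge with source in a half-open cell -/
lemma ends_closed {p q : ℕ} {r : ℤ × ℤ} {e : Ed} (h : M.pos (M.s e) ∈ rect p q r) :
    (r.1 * p ≤ M.X (M.s e) ∧ M.X (M.s e) ≤ (r.1 + 1) * p ∧ r.2 * q ≤ M.Y (M.s e) ∧
      M.Y (M.s e) ≤ (r.2 + 1) * q) ∧
    (r.1 * p ≤ M.X (M.t e) ∧ M.X (M.t e) ≤ (r.1 + 1) * p ∧ r.2 * q ≤ M.Y (M.t e) ∧
      M.Y (M.t e) ≤ (r.2 + 1) * q) := by
  rw [mem_rect] at h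
  simp only [Model.pos] at h
  rcases M.step e with h' | h' <;> omega

section Geo

variable {ℓ m K : ℕ} {W : Finset (ℤ × ℤ)} {r : ℤ × ℤ} {φ χ : ℤ × ℤ → ℝ} {lay : Finset (ℤ × ℤ)}

lemma φ_off (hM : M.Mar U W (K * m * ℓ)) (hr : rect (m * ℓ) (K * m * ℓ) r ⊆ W)
    (hb : Bump ℓ m K r φ χ lay) (v : V) (hv : v ∉ U) : φ (M.pos v) = 0 := by
  by_contra h
  exact hv (hM v _ (hr (hb.φsupp _ h).1) (by simp [Model.pos]; positivity)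
    (by simp [Model.pos]; positivity))

lemma χ_off (hℓ : 1 ≤ ℓ) (hm : 2 ≤ m) (hK : 1 ≤ K) (hM : M.Mar U W (K * m * ℓ))
    (hr : rect (m * ℓ) (K * m * ℓ) r ⊆ W) (hb : Bump ℓ m K r φ χ lay) (v : V) (hv : v ∉ U) :
    χ (M.pos v) = 0 := by
  by_contra h
  obtain ⟨h1, h2, h3, h4⟩ := hb.χsupp _ _ h
  have hp : 1 ≤ m * ℓ := Nat.mul_pos (by omega) hℓ
  have hpq : m * ℓ ≤ K * m * ℓ := by rw [mul_assoc]; exact Nat.le_mul_of_pos_left _ hK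
  generalize m * ℓ = p at *
  generalize K * m * ℓ = q at *
  have e1 : (r.1 + 2) * (p : ℤ) = r.1 * p + 2 * p := by ring
  have e2 : (r.1 + 1) * (p : ℤ) = r.1 * p + p := by ring
  have e3 : (r.2 - 1) * (q : ℤ) = r.2 * q - q := by ring
  have e4 : (r.2 + 2) * (q : ℤ) = r.2 * q + 2 * q := by ring
  have e5 : (r.2 + 1) * (q : ℤ) = r.2 * q + q := by ring
  refine hv (hM v (min (M.X v) (r.1 * p + p - 1), max (r.2 * q) (min (M.Y v) (r.2 * q + q - 1)))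
    (hr ?_) ?_ ?_)
  · rw [mem_rect]; simp only; omega
  · simp only; rw [abs_le]; omega
  · simp only; rw [abs_le]; omega

lemma src_of_φ (hb : Bump ℓ m K r φ χ lay) {e : Ed}
    (h : φ (M.pos (M.s e)) ≠ 0 ∨ φ (M.pos (M.t e)) ≠ 0) :
    M.pos (M.s e) ∈ rect (m * ℓ) (K * m * ℓ) r := by
  apply M.src_mem_rect
  rcases h with h | h
  · exact Or.inl (M.mem_Lam.mpr (hb.φsupp _ h))
  · exact Or.inr (M.mem_Lam.mpr (hb.φsupp _ h))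

lemma box_subset (hℓ : 1 ≤ ℓ) (hm : 2 ≤ m) (hK : 1 ≤ K) {B : ℤ × ℤ}
    (hB : B ∈ (rect (m * ℓ) (K * m * ℓ) r).image (cell ℓ ℓ)) :
    rect ℓ ℓ B ⊆ rect (m * ℓ) (K * m * ℓ) r := by
  have hp : 1 ≤ m * ℓ := Nat.mul_pos (by omega) hℓ
  have hq : 1 ≤ K * m * ℓ := Nat.mul_pos (Nat.mul_pos hK (by omega)) hℓ
  exact ((sat_rect hp hq r).of_dvd (dvd_mul_left _ _) (dvd_mul_left _ _)).rect_subset hℓ hℓ hB

lemma card_boxes (hℓ : 1 ≤ ℓ) (hm : 2 ≤ m) (hK : 1 ≤ K) :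
    ((rect (m * ℓ) (K * m * ℓ) r).image (cell ℓ ℓ)).card = K * m ^ 2 := by
  have hp : 1 ≤ m * ℓ := Nat.mul_pos (by omega) hℓ
  have hq : 1 ≤ K * m * ℓ := Nat.mul_pos (Nat.mul_pos hK (by omega)) hℓ
  have h := ((sat_rect hp hq r).of_dvd (dvd_mul_left ℓ m) (dvd_mul_left ℓ (K * m))).card_image
    hℓ hℓ
  rw [card_rect] at h
  refine Nat.eq_of_mul_eq_mul_right (Nat.mul_pos hℓ hℓ) (h.trans ?_)
  ring

lemma mar_box (hm : 2 ≤ m) (hK : 1 ≤ K) (hM : M.Mar U W (K * m * ℓ))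
    (hr : rect (m * ℓ) (K * m * ℓ) r ⊆ W) {B : ℤ × ℤ}
    (hB : rect ℓ ℓ B ⊆ rect (m * ℓ) (K * m * ℓ) r) : M.Mar U (rect ℓ ℓ B) ℓ :=
  Model.Mar.mono M hM (hB.trans hr) (Nat.le_mul_of_pos_left _ (Nat.mul_pos hK (by omega)))

/-- Step (2), second half. -/
lemma step2' (hℓ : 1 ≤ ℓ) (hm : 2 ≤ m) (hK : 1 ≤ K)
    (hr : rect (m * ℓ) (K * m * ℓ) r ⊆ W) (hb : Bump ℓ m K r φ χ lay) (C : Gen k) :
    M.Q U σ₀ (M.Lam ℓ ℓ W) C (M.d fun v => χ (M.pos v))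
        (fun e => M.av (fun v => φ (M.pos v)) e * M.rst W M.ω e) =
      M.Q U σ₀ (M.Lam ℓ ℓ (rect (m * ℓ) (K * m * ℓ) r)) C (M.rst (rect (m * ℓ) (K * m * ℓ) r) M.ω)
        (M.rst (rect (m * ℓ) (K * m * ℓ) r) fun e => M.av (fun v => φ (M.pos v)) e * M.ω e) := by
  have hp : 1 ≤ m * ℓ := Nat.mul_pos (by omega) hℓ
  have hq : 1 ≤ K * m * ℓ := Nat.mul_pos (Nat.mul_pos hK (by omega)) hℓ
  rw [M.Q_sum σ₀ hp hq (dvd_mul_left _ _) (dvd_mul_left _ _) (R := {r}) (by simpa using hr),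
    Finset.sum_singleton]
  · congr 1
    · refine rst_congr M fun e he => ?_
      obtain ⟨⟨h1, h2, h3, h4⟩, h5, h6, h7, h8⟩ := ends_closed M he
      simp only [Model.d, Model.ω, Model.pos]
      rw [hb.χcell _ _ h1 h2 h3 h4, hb.χcell _ _ h5 h6 h7 h8]
      push_cast; ring
    · refine rst_congr M fun e he => ?_
      simp only [Model.rst, if_pos (hr he)]
  · intro e he
    rw [Finset.mem_singleton, ← mem_rect_iff_cell hp hq]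
    apply src_of_φ M hb
    by_contra h
    push Not at h
    apply he
    simp [Model.av, h.1, h.2]

/-- Step (3): the part of the stiffness lost in the boundary layer. -/
lemma step3 (hℓ : 1 ≤ ℓ) (hm : 2 ≤ m) (hK : 1 ≤ K) (hb : Bump ℓ m K r φ χ lay) (G : Gen k) :
    M.Q U σ₀ (M.Lam ℓ ℓ (rect (m * ℓ) (K * m * ℓ) r)) G (M.rst (rect (m * ℓ) (K * m * ℓ) r) M.ω)
        (M.rst (rect (m * ℓ) (K * m * ℓ) r) M.ω) =
      M.Q U σ₀ (M.Lam ℓ ℓ (rect (m * ℓ) (K * m * ℓ) r)) G (M.rst (rect (m * ℓ) (K * m * ℓ) r) M.ω)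
        (M.rst (rect (m * ℓ) (K * m * ℓ) r) fun e => M.av (fun v => φ (M.pos v)) e * M.ω e) +
      ∑ B ∈ lay, M.Q U σ₀ (M.Lam ℓ ℓ (rect ℓ ℓ B)) G (M.rst (rect ℓ ℓ B) M.ω)
        (M.rst (rect ℓ ℓ B) fun e => (1 - M.av (fun v => φ (M.pos v)) e) * M.ω e) := by
  have hsplit : M.rst (rect (m * ℓ) (K * m * ℓ) r) M.ω =
      (M.rst (rect (m * ℓ) (K * m * ℓ) r) fun e => M.av (fun v => φ (M.pos v)) e * M.ω e) +
      (M.rst (rect (m * ℓ) (K * m * ℓ) r) fun e => (1 - M.av (fun v => φ (M.pos v)) e) * M.ω e) := by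
    funext e
    simp only [Model.rst, Pi.add_apply]
    split_ifs <;> ring
  conv_lhs => arg 7; rw [hsplit]
  rw [Q_add_right]
  congr 1
  rw [M.Q_sum σ₀ hℓ hℓ dvd_rfl dvd_rfl hb.lay_sub]
  · refine Finset.sum_congr rfl fun B hB => ?_
    rw [rst_rst M (hb.lay_sub B hB), rst_rst M (hb.lay_sub B hB)]
  · intro e he
    by_contra hlay
    apply he
    simp only [Model.rst]
    split_ifs with hs
    · have hsub := box_subset hℓ hm hK (Finset.mem_image_of_mem (cell ℓ ℓ) hs)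
      have hs' : M.pos (M.s e) ∈ rect ℓ ℓ (cell ℓ ℓ (M.pos (M.s e))) :=
        (mem_rect_iff_cell hℓ hℓ).mpr rfl
      obtain ⟨⟨h1, h2, h3, h4⟩, h5, h6, h7, h8⟩ := ends_closed M hs'
      have e1 : φ (M.pos (M.s e)) = 1 := hb.φlay _ hsub hlay _ _ h1 h2 h3 h4
      have e2 : φ (M.pos (M.t e)) = 1 := hb.φlay _ hsub hlay _ _ h5 h6 h7 h8
      simp [Model.av, e1, e2]
    · rfl

lemma psi_sq_le (hβ : 0 ≤ β) (hℓ : 1 ≤ ℓ) (hm : 2 ≤ m) (hK : 1 ≤ K) (hM : M.Mar U W (K * m * ℓ))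
    (hr : rect (m * ℓ) (K * m * ℓ) r ⊆ W) (hb : Bump ℓ m K r φ χ lay) (C : Gen k) :
    M.Ex U σ₀ (M.psi (M.Lam ℓ ℓ W) C (fun v => χ (M.pos v)) ^ 2) ≤
      12 * β * K * m ^ 2 * ℓ ^ 2 := by
  refine (M.Ex_ce_sq_le σ₀ (Model.Mar.Lam_subset M hM ℓ ℓ) _).trans ?_
  refine (M.Ex_J_sq_le σ₀ hβ C (χ_off M hℓ hm hK hM hr hb)).trans ?_
  have h := M.sum_sq_le (W := Ico (r.1 * (m * ℓ : ℕ)) ((r.1 + 2) * (m * ℓ : ℕ)) ×ˢ
      Ico ((r.2 - 1) * (K * m * ℓ : ℕ)) ((r.2 + 2) * (K * m * ℓ : ℕ)))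
    (a := M.d fun v => χ (M.pos v)) (μ := 1) (by
      intro e he
      have : χ (M.pos (M.s e)) ≠ 0 ∨ χ (M.pos (M.t e)) ≠ 0 := by
        by_contra h
        push Not at h
        apply he
        simp [Model.d, h.1, h.2]
      simp only [Finset.mem_product, Finset.mem_Ico, Model.pos]
      rcases this with h | h
      · obtain ⟨h1, h2, h3, h4⟩ := hb.χsupp _ _ h
        omega
      · obtain ⟨h1, h2, h3, h4⟩ := hb.χsupp _ _ h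
        rcases M.step e with h' | h' <;> omega) (by
      intro e
      simp only [Model.d, Model.pos]
      rcases M.step e with h' | h'
      · rw [h'.1, h'.2]; exact hb.χx _ _
      · rw [h'.1, h'.2]; exact hb.χy _ _)
  have hc : (Ico (r.1 * (m * ℓ : ℕ)) ((r.1 + 2) * (m * ℓ : ℕ)) ×ˢ
      Ico ((r.2 - 1) * (K * m * ℓ : ℕ)) ((r.2 + 2) * (K * m * ℓ : ℕ))).card =
      (2 * (m * ℓ)) * (3 * (K * m * ℓ)) := by
    rw [Finset.card_product, Int.card_Ico, Int.card_Ico]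
    congr 1
    · rw [show (r.1 + 2) * ((m * ℓ : ℕ) : ℤ) - r.1 * (m * ℓ : ℕ) = ((2 * (m * ℓ) : ℕ) : ℤ) by
        push_cast; ring, Int.toNat_natCast]
    · rw [show (r.2 + 2) * ((K * m * ℓ : ℕ) : ℤ) - (r.2 - 1) * (K * m * ℓ : ℕ) =
        ((3 * (K * m * ℓ) : ℕ) : ℤ) by push_cast; ring, Int.toNat_natCast]
  rw [hc] at h
  calc β * ∑ e, M.d (fun v => χ (M.pos v)) e ^ 2 ≤ β * _ := mul_le_mul_of_nonneg_left h hβ
    _ = _ := by push_cast; ring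

end Geo

/-- The conclusion of `BoxStmt` with constant `s ^ 2`. -/
def BoxB (M : Model β V Ed) (U : Finset V) (σ₀ : Ω k V) (s : ℝ) : Prop :=
  ∀ (G : Gen k) (ℓ : ℕ) (B : ℤ × ℤ) (F : ℤ × ℤ → ℝ) (μ : ℝ), 1 ≤ ℓ → 0 ≤ μ →
    M.Mar U (rect ℓ ℓ B) ℓ →
    (∀ x y, B.1 * ℓ ≤ x → x < (B.1 + 1) * ℓ → B.2 * ℓ ≤ y → y ≤ (B.2 + 1) * ℓ →
      |F (x + 1, y) - F (x, y)| ≤ μ) →
    (∀ x y, B.1 * ℓ ≤ x → x ≤ (B.1 + 1) * ℓ → B.2 * ℓ ≤ y → y < (B.2 + 1) * ℓ →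
      |F (x, y + 1) - F (x, y)| ≤ μ) →
    M.Ex U σ₀ ((M.J G (M.rst (rect ℓ ℓ B) (M.d fun v => F (M.pos v))) -
        M.ce (M.Lam ℓ ℓ (rect ℓ ℓ B))
          (M.J G (M.rst (rect ℓ ℓ B) (M.d fun v => F (M.pos v))))) ^ 4) ≤
      (s * (β * ℓ ^ 2 * μ ^ 2)) ^ 2

variable {s : ℝ}

lemma box_ω (hB : BoxB M U σ₀ s) (G : Gen k) {ℓ : ℕ} (hℓ : 1 ≤ ℓ) {B : ℤ × ℤ}
    (hM : M.Mar U (rect ℓ ℓ B) ℓ) :
    M.Ex U σ₀ ((M.J G (M.rst (rect ℓ ℓ B) M.ω) -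
        M.ce (M.Lam ℓ ℓ (rect ℓ ℓ B)) (M.J G (M.rst (rect ℓ ℓ B) M.ω))) ^ 4) ≤
      (s * (β * ℓ ^ 2)) ^ 2 := by
  have := hB G ℓ B (fun z => (z.1 : ℝ)) 1 hℓ zero_le_one hM (by intros; simp) (by intros; simp)
  rw [one_pow, mul_one] at this
  exact this

lemma Q_box_le (hβ : 0 ≤ β) (hs : 0 ≤ s) (hB : BoxB M U σ₀ s) (G : Gen k) {ℓ : ℕ} (hℓ : 1 ≤ ℓ)
    {B : ℤ × ℤ} (hM : M.Mar U (rect ℓ ℓ B) ℓ) {a : Ed → ℝ} (ha : ∀ e, |a e| ≤ 1) :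
    M.Q U σ₀ (M.Lam ℓ ℓ (rect ℓ ℓ B)) G (M.rst (rect ℓ ℓ B) M.ω) (M.rst (rect ℓ ℓ B) a) ≤
      (2 + s / 2) * (β * ℓ ^ 2) + M.Ex U σ₀ (M.J G (M.rst (rect ℓ ℓ B) a) ^ 2) / 2 := by
  have h1 : M.Ex U σ₀ (M.Mm G (M.rst (rect ℓ ℓ B) M.ω * M.rst (rect ℓ ℓ B) a)) ≤
      2 * (β * ℓ ^ 2) := by
    refine M.Ex_le U σ₀ fun σ => (le_abs_self _).trans ((M.abs_Mm_le G _ hβ σ).trans ?_)
    have h := M.sum_abs_le (W := rect ℓ ℓ B)
      (a := M.rst (rect ℓ ℓ B) M.ω * M.rst (rect ℓ ℓ B) a) zero_le_one (by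
        intro e he
        by_contra h
        apply he
        simp [Model.rst, h]) (by
        intro e
        simp only [Pi.mul_apply, Model.rst]
        split_ifs
        · rw [abs_mul]
          exact mul_le_one₀ (M.abs_ω_le e) (abs_nonneg _) (ha e)
        · simp)
    rw [card_rect] at h
    calc β * _ ≤ β * _ := mul_le_mul_of_nonneg_left h hβ
      _ = _ := by push_cast; ring
  have h2 := M.abs_Ex_cv_le σ₀ (Model.Mar.Lam_subset M hM ℓ ℓ) (M.J G (M.rst (rect ℓ ℓ B) M.ω))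
    (M.J G (M.rst (rect ℓ ℓ B) a))
  have h3 := sq_le_of_four M σ₀ (by positivity) (box_ω M σ₀ hB G hℓ hM)
  have h4 := (abs_le.mp h2).1
  rw [Model.Q]
  linarith

/-- One Hall term on one box. -/
lemma hall_term (hβ : 0 ≤ β) (hs : 0 ≤ s) (hB : BoxB M U σ₀ s) (G G' : Gen k) {ℓ : ℕ}
    (hℓ : 1 ≤ ℓ) {B : ℤ × ℤ} (hM : M.Mar U (rect ℓ ℓ B) ℓ) {F : ℤ × ℤ → ℝ} {μ : ℝ} (hμ : 0 ≤ μ)
    (hx : ∀ x y, B.1 * ℓ ≤ x → x < (B.1 + 1) * ℓ → B.2 * ℓ ≤ y → y ≤ (B.2 + 1) * ℓ →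
      |F (x + 1, y) - F (x, y)| ≤ μ)
    (hy : ∀ x y, B.1 * ℓ ≤ x → x ≤ (B.1 + 1) * ℓ → B.2 * ℓ ≤ y → y < (B.2 + 1) * ℓ →
      |F (x, y + 1) - F (x, y)| ≤ μ) {ψ : CF k V} {P : ℝ} (hP : 0 ≤ P)
    (hψ : M.Ex U σ₀ (ψ ^ 2) ≤ P ^ 2) :
    |M.Ex U σ₀ (ψ * M.cv (M.Lam ℓ ℓ (rect ℓ ℓ B)) (M.J G (M.rst (rect ℓ ℓ B) M.ω))
      (M.J G' (M.rst (rect ℓ ℓ B) (M.d fun v => F (M.pos v)))))| ≤ P * (s * (β * ℓ ^ 2) * μ) := by
  refine (M.abs_Ex_mul_le U σ₀ _ _).trans ?_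
  have h := M.Ex_cv_sq_le σ₀ (Model.Mar.Lam_subset M hM ℓ ℓ) (by positivity) (by positivity)
    (box_ω M σ₀ hB G hℓ hM) (hB G' ℓ B F μ hℓ hμ hM hx hy)
  refine mul_le_mul (Real.sqrt_le_iff.mpr ⟨hP, hψ⟩)
    (Real.sqrt_le_iff.mpr ⟨by positivity, h.trans (le_of_eq (by ring))⟩) (Real.sqrt_nonneg _) hP

/-- Step (4): the Hall term. -/
lemma step4 (hβ : 0 ≤ β) (hs : 0 ≤ s) (hB : BoxB M U σ₀ s) {ℓ m K : ℕ} {W : Finset (ℤ × ℤ)}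
    {r : ℤ × ℤ} {φ χ : ℤ × ℤ → ℝ} {lay : Finset (ℤ × ℤ)} (hℓ : 1 ≤ ℓ) (hm : 2 ≤ m) (hK : 1 ≤ K)
    (hM : M.Mar U W (K * m * ℓ)) (hr : rect (m * ℓ) (K * m * ℓ) r ⊆ W)
    (hb : Bump ℓ m K r φ χ lay) (A A' : Gen k) {ψ : CF k V} {P : ℝ} (hP : 0 ≤ P)
    (hψ : M.Ex U σ₀ (ψ ^ 2) ≤ P ^ 2) :
    -(2 * P * s * β * m ^ 2 * ℓ) ≤ M.Ex U σ₀ (ψ *
      (M.cv (M.Lam ℓ ℓ W) (M.J A (M.rst W M.ω)) (M.J A' (M.d fun v => φ (M.pos v))) -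
        M.cv (M.Lam ℓ ℓ W) (M.J A' (M.rst W M.ω)) (M.J A (M.d fun v => φ (M.pos v))))) := by
  set R := (rect (m * ℓ) (K * m * ℓ) r).image (cell ℓ ℓ) with hRdef
  have hR : ∀ B ∈ R, rect ℓ ℓ B ⊆ W := fun B hB => (box_subset hℓ hm hK hB).trans hr
  have hsupp : ∀ e, M.d (fun v => φ (M.pos v)) e ≠ 0 → cell ℓ ℓ (M.pos (M.s e)) ∈ R := by
    intro e he
    apply Finset.mem_image_of_mem
    apply src_of_φ M hb
    by_contra h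
    push Not at h
    apply he
    simp [Model.d, h.1, h.2]
  simp only [Model.J]
  rw [M.cv_bil_sum hℓ hℓ dvd_rfl dvd_rfl hR _ _ _ hsupp,
    M.cv_bil_sum hℓ hℓ dvd_rfl dvd_rfl hR _ _ _ hsupp, ← Finset.sum_sub_distrib, Finset.mul_sum,
    map_sum]
  have hK' : (0 : ℝ) < K := by exact_mod_cast hK
  have hℓ' : (0 : ℝ) < ℓ := by exact_mod_cast hℓ
  have hterm : ∀ B ∈ R, -(2 * (P * (s * (β * ℓ ^ 2) * (1 / (K * ℓ))))) ≤ M.Ex U σ₀ (ψ *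
      (M.cv (M.Lam ℓ ℓ (rect ℓ ℓ B)) (M.bil k A.A (M.rst (rect ℓ ℓ B) (M.rst W M.ω)))
        (M.bil k A'.A (M.rst (rect ℓ ℓ B) (M.d fun v => φ (M.pos v)))) -
      M.cv (M.Lam ℓ ℓ (rect ℓ ℓ B)) (M.bil k A'.A (M.rst (rect ℓ ℓ B) (M.rst W M.ω)))
        (M.bil k A.A (M.rst (rect ℓ ℓ B) (M.d fun v => φ (M.pos v)))))) := by
    intro B hBR
    obtain ⟨κ, hκ⟩ := hb.φκ B
    have hMB := mar_box M hm hK hM hr (box_subset hℓ hm hK hBR)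
    have hsplit : M.rst (rect ℓ ℓ B) (M.d fun v => φ (M.pos v)) = κ • M.rst (rect ℓ ℓ B) M.ω +
        M.rst (rect ℓ ℓ B) (M.d fun v => (fun z : ℤ × ℤ => φ z - κ * z.1) (M.pos v)) := by
      funext e
      simp only [Model.rst, Pi.add_apply, Pi.smul_apply, smul_eq_mul]
      split_ifs
      · simp only [Model.d, Model.ω, Model.pos]; ring
      · ring
    have hx : ∀ x y, B.1 * ℓ ≤ x → x < (B.1 + 1) * ℓ → B.2 * ℓ ≤ y → y ≤ (B.2 + 1) * ℓ →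
        |(fun z : ℤ × ℤ => φ z - κ * z.1) (x + 1, y) - (fun z : ℤ × ℤ => φ z - κ * z.1) (x, y)| ≤
          1 / (K * ℓ) := by
      intro x y h1 h2 h3 h4
      convert hκ x y h1 h2 h3 h4 using 2
      push_cast; ring
    have hy : ∀ x y, B.1 * ℓ ≤ x → x ≤ (B.1 + 1) * ℓ → B.2 * ℓ ≤ y → y < (B.2 + 1) * ℓ →
        |(fun z : ℤ × ℤ => φ z - κ * z.1) (x, y + 1) - (fun z : ℤ × ℤ => φ z - κ * z.1) (x, y)| ≤
          1 / (K * ℓ) := by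
      intro x y _ _ _ _
      convert hb.φy x y using 2
      ring
    have hμ : (0 : ℝ) ≤ 1 / (K * ℓ) := by positivity
    have h1 := hall_term M σ₀ hβ hs hB A A' hℓ hMB (F := fun z : ℤ × ℤ => φ z - κ * z.1) hμ hx hy
      hP hψ
    have h2 := hall_term M σ₀ hβ hs hB A' A hℓ hMB (F := fun z : ℤ × ℤ => φ z - κ * z.1) hμ hx hy
      hP hψ
    rw [rst_rst M (hR B hBR), hsplit]
    simp only [Model.J, Model.cv] at h1 h2 ⊢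
    rw [M.bil_add, M.bil_add, M.bil_smul, M.bil_smul, cov_add_right, cov_add_right,
      cov_smul_right, cov_smul_right, cov_comm _ _ (M.bil k A'.A (M.rst (rect ℓ ℓ B) M.ω))
        (M.bil k A.A (M.rst (rect ℓ ℓ B) M.ω)), add_sub_add_left_eq_sub, mul_sub, map_sub]
    linarith [(abs_le.mp h1).1, (abs_le.mp h2).2]
  refine le_trans (le_of_eq ?_) (Finset.sum_le_sum hterm)
  rw [Finset.sum_const, hRdef, card_boxes hℓ hm hK, nsmul_eq_mul]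
  push_cast
  field_simp

end GainA

open GainA in
theorem gainStmt_of (hB : BoxStmt) : GainStmt := by
  intro k
  obtain ⟨C, hC, hB⟩ := hB k
  refine ⟨48 + 36 * √C, by positivity, ?_⟩
  intro β hβ V Ed _ _ _ M U σ₀ ℓ m K W r φ χ lay hℓ hm hK hM hr hb
  set s := √C with hsdef
  have hs : 0 ≤ s := Real.sqrt_nonneg _
  have hBB : BoxB M U σ₀ s := by
    intro G ℓ B F μ h1 h2 h3 h4 h5
    rw [mul_pow, hsdef, Real.sq_sqrt hC.le]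
    exact hB β hβ V Ed M U σ₀ G ℓ B F μ h1 h2 h3 h4 h5
  have hΛ := Model.Mar.Lam_subset M hM ℓ ℓ
  have hφ := φ_off M hM hr hb
  have hχ := χ_off M hℓ hm hK hM hr hb
  have hK' : (0 : ℝ) ≤ K := by positivity
  set P : ℝ := 4 * √β * √K * m * ℓ with hPdef
  have hP : 0 ≤ P := by positivity
  have hψ : ∀ G : Gen k,
      M.Ex U σ₀ (M.psi (M.Lam ℓ ℓ W) G (fun v => χ (M.pos v)) ^ 2) ≤ P ^ 2 := by
    intro G
    refine (psi_sq_le M σ₀ hβ.le hℓ hm hK hM hr hb G).trans ?_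
    have : P ^ 2 = 16 * β * K * m ^ 2 * ℓ ^ 2 := by
      rw [hPdef, mul_pow, mul_pow, mul_pow, mul_pow, Real.sq_sqrt hβ.le, Real.sq_sqrt hK']
      norm_num
    rw [this]
    have : 0 ≤ β * K * m ^ 2 * ℓ ^ 2 := by positivity
    nlinarith
  -- the quantities attached to one generator
  set q : Fin 3 → ℝ := fun c => M.Q U σ₀ (M.Lam ℓ ℓ (rect (m * ℓ) (K * m * ℓ) r)) (L k c)
    (M.rst (rect (m * ℓ) (K * m * ℓ) r) M.ω)
    (M.rst (rect (m * ℓ) (K * m * ℓ) r) fun e => M.av (fun v => φ (M.pos v)) e * M.ω e) with hq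
  set j : Fin 3 → ℝ := fun c => ∑ B ∈ lay, M.Ex U σ₀ (M.J (L k c) (M.rst (rect ℓ ℓ B)
    fun e => (1 - M.av (fun v => φ (M.pos v)) e) * M.ω e) ^ 2) with hj
  have hj0 : ∀ c, 0 ≤ j c := fun c => Finset.sum_nonneg fun B _ => M.Ex_sq_nonneg U σ₀ _
  have hlow : ∀ c : Fin 3, 2 * q (c + 2) - 2 * P * s * β * m ^ 2 * ℓ ≤
      M.Ex U σ₀ (M.ce (M.Lam ℓ ℓ W) (M.J (L k c) (M.rst W M.ω)) *
            M.score (M.Lam ℓ ℓ W) (L k (c + 1)) (L k (c + 2))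
              (fun v => φ (M.pos v)) (fun v => χ (M.pos v))) -
          M.Ex U σ₀ (M.ce (M.Lam ℓ ℓ W) (M.J (L k (c + 1)) (M.rst W M.ω)) *
            M.score (M.Lam ℓ ℓ W) (L k c) (L k (c + 2))
              (fun v => φ (M.pos v)) (fun v => χ (M.pos v))) := by
    intro c
    rw [step1 M σ₀ _ _ _ _ (L_comm k c) _ hφ, step2 M σ₀ hΛ _ hχ, step2' M σ₀ hℓ hm hK hr hb]
    have := step4 M σ₀ hβ.le hs hBB hℓ hm hK hM hr hb (L k c) (L k (c + 1)) hP (hψ (L k (c + 2)))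
    simp only [hq]
    linarith
  have hup : ∀ c : Fin 3, M.Q U σ₀ (M.Lam ℓ ℓ (rect (m * ℓ) (K * m * ℓ) r)) (L k c)
      (M.rst (rect (m * ℓ) (K * m * ℓ) r) M.ω) (M.rst (rect (m * ℓ) (K * m * ℓ) r) M.ω) ≤
      q c + (4 * K * m * ((2 + s / 2) * (β * ℓ ^ 2)) + j c / 2) := by
    intro c
    rw [step3 M σ₀ hℓ hm hK hb]
    refine add_le_add le_rfl ?_
    refine (Finset.sum_le_sum fun B hB => Q_box_le M σ₀ hβ.le hs hBB (L k c) hℓ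
      (mar_box M hm hK hM hr (hb.lay_sub B hB)) (fun e => ?_)).trans ?_
    · rw [abs_mul]
      refine mul_le_one₀ ?_ (abs_nonneg _) (M.abs_ω_le e)
      have h1 := hb.φ0 (M.pos (M.s e))
      have h2 := hb.φ0 (M.pos (M.t e))
      have h3 := hb.φ1 (M.pos (M.s e))
      have h4 := hb.φ1 (M.pos (M.t e))
      simp only [Model.av]
      rw [abs_le]
      constructor <;> linarith
    · rw [Finset.sum_add_distrib, Finset.sum_const, nsmul_eq_mul, ← Finset.sum_div]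
      refine add_le_add (mul_le_mul_of_nonneg_right ?_ (by positivity)) le_rfl
      exact_mod_cast hb.lay_card
  refine le_trans ?_ (Finset.sum_le_sum fun c _ => hlow c)
  have hD : M.Dst U σ₀ ℓ (rect (m * ℓ) (K * m * ℓ) r) ≤
      ∑ c, (q c + (4 * K * m * ((2 + s / 2) * (β * ℓ ^ 2)) + j c / 2)) :=
    Finset.sum_le_sum fun c _ => hup c
  change _ - _ - 2 * ∑ c, j c ≤ _
  simp only [Fin.sum_univ_three] at hD ⊢
  have e0 : (0 : Fin 3) + 2 = 2 := rfl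
  have e1 : (1 : Fin 3) + 2 = 0 := rfl
  have e2 : (2 : Fin 3) + 2 = 1 := rfl
  rw [e0, e1, e2, hPdef]
  have a1 : 0 ≤ β * K * m * ℓ ^ 2 := by positivity
  have a2 : 0 ≤ β * √β * √K * m ^ 3 * ℓ ^ 2 := by positivity
  have a3 := mul_nonneg hs a1
  have a4 := mul_nonneg hs a2
  nlinarith [hj0 0, hj0 1, hj0 2]

end Crest.Agent.R167
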