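import Crest.Agent.R167.Lat

/-!
# Row 167: the bump functions
-/

set_option autoImplicit false

namespace Crest.Agent.R167

open Finset

namespace Geo

/-- integer ramp of height `h` on `[0, L]` -/
def ramp (h L x : ℤ) : ℤ := max 0 (min h (min x (L - x)))

theorem ramp_nonneg (h L x : ℤ) : 0 ≤ ramp h L x := le_max_left _ _

theorem ramp_le {h : ℤ} (hh : 0 ≤ h) (L x : ℤ) : ramp h L x ≤ h := by unfold ramp; omega

theorem ramp_lip (h L x y : ℤ) : |ramp h L x - ramp h L y| ≤ |x - y| := by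
  unfold ramp
  rw [abs_le]
  rcases abs_cases (x - y) with e | e <;> omega

theorem ramp_ne {h L x : ℤ} (hx : ramp h L x ≠ 0) : 0 < x ∧ x < L := by
  unfold ramp at hx; omega

theorem ramp_eq {h L x : ℤ} (hh : 0 ≤ h) (h1 : h ≤ x) (h2 : x ≤ L - h) : ramp h L x = h := by
  unfold ramp; omega

theorem ramp_slope {l m : ℤ} (hl : 1 ≤ l) (hm : 2 ≤ m) (i : ℤ) : ∃ s : ℤ, |s| ≤ 1 ∧
    ∀ u, i * l ≤ u → u < (i + 1) * l → ramp l (m * l) (u + 1) - ramp l (m * l) u = s := by
  have h2 : 2 * l ≤ m * l := by nlinarith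
  rcases lt_trichotomy i 0 with hi | rfl | hi
  · refine ⟨0, by simp, fun u _ hu => ?_⟩
    have : (i + 1) * l ≤ 0 := by nlinarith
    unfold ramp; omega
  · refine ⟨1, by simp, fun u h1 hu => ?_⟩
    unfold ramp; omega
  · have h3 : l ≤ i * l := by nlinarith
    rcases lt_trichotomy (i + 1) m with hj | rfl | hj
    · refine ⟨0, by simp, fun u h1 hu => ?_⟩
      have : (i + 1) * l + l ≤ m * l := by nlinarith
      unfold ramp; omega
    · refine ⟨-1, by simp, fun u h1 hu => ?_⟩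
      have : (i + 1) * l = i * l + l := by ring
      unfold ramp; omega
    · refine ⟨0, by simp, fun u h1 hu => ?_⟩
      have : m * l ≤ i * l := by nlinarith
      unfold ramp; omega

theorem not_dvd {p r x : ℤ} (h1 : 0 < x - r * p) (h2 : x - r * p < p) : ¬ p ∣ x := fun h =>
  absurd (Int.le_of_dvd h1 (dvd_sub h (dvd_mul_left _ _))) (not_le.2 h2)

end Geo

open Geo in
theorem geoStmt : GeoStmt := by
  intro ℓ m K hℓ hm hK r
  have hℓ' : (1 : ℤ) ≤ ℓ := by exact_mod_cast hℓ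
  have hm' : (2 : ℤ) ≤ m := by exact_mod_cast hm
  have hK' : (1 : ℤ) ≤ K := by exact_mod_cast hK
  have hℓr : (0 : ℝ) < ℓ := by exact_mod_cast hℓ
  have hKr : (0 : ℝ) < K := by exact_mod_cast hK
  set p : ℤ := ((m * ℓ : ℕ) : ℤ) with hp
  set q : ℤ := ((K * m * ℓ : ℕ) : ℤ) with hq
  have hp' : p = m * ℓ := by simp [hp]
  have hq' : q = K * m * ℓ := by simp [hq]
  have hp0 : 0 < p := by rw [hp']; positivity
  have hpq : p ≤ q := by rw [hq', mul_assoc, ← hp']; nlinarith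
  let A : ℤ → ℝ := fun x => (ramp ℓ p (x - r.1 * p) : ℤ) / ℓ
  let B : ℤ → ℝ := fun y => (ramp (K * ℓ) q (y - r.2 * q) : ℤ) / (K * ℓ)
  have hA0 : ∀ x, 0 ≤ A x := fun x => div_nonneg (by exact_mod_cast ramp_nonneg _ _ _) hℓr.le
  have hB0 : ∀ x, 0 ≤ B x := fun x =>
    div_nonneg (by exact_mod_cast ramp_nonneg _ _ _) (by positivity)
  have hA1 : ∀ x, A x ≤ 1 := fun x =>
    (div_le_one hℓr).2 (by exact_mod_cast ramp_le (by positivity) _ _)
  have hB1 : ∀ x, B x ≤ 1 := fun x =>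
    (div_le_one (by positivity)).2 (by exact_mod_cast ramp_le (by positivity) _ _)
  have hAl : ∀ x, |A (x + 1) - A x| ≤ 1 / ℓ := fun x => by
    simp only [A]
    rw [← sub_div, abs_div, abs_of_pos hℓr]
    refine div_le_div_of_nonneg_right ?_ hℓr.le
    have := ramp_lip ℓ p (x + 1 - r.1 * p) (x - r.1 * p)
    rw [show x + 1 - r.1 * p - (x - r.1 * p) = 1 by ring] at this
    exact_mod_cast this
  have hBl : ∀ y y' : ℤ, |B y - B y'| ≤ (|y - y'| : ℤ) / (K * ℓ) := fun y y' => by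
    simp only [B]
    rw [← sub_div, abs_div, abs_of_pos (by positivity : (0 : ℝ) < K * ℓ)]
    refine div_le_div_of_nonneg_right ?_ (by positivity)
    have := ramp_lip (K * ℓ) q (y - r.2 * q) (y' - r.2 * q)
    rw [show y - r.2 * q - (y' - r.2 * q) = y - y' by ring] at this
    exact_mod_cast this
  let χ : ℤ × ℤ → ℤ := fun z => max 0 (min (min (z.1 - r.1 * p) (2 * p - (z.1 - r.1 * p)))
    (min (z.2 - r.2 * q + p) (r.2 * q + q + p - z.2)))
  let I1 : Finset ℤ := Ico (r.1 * m) (r.1 * m + m)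
  let I2 : Finset ℤ := Ico (r.2 * (K * m)) (r.2 * (K * m) + K * m)
  refine ⟨fun z => A z.1 * B z.2, fun z => (χ z : ℝ),
    ({r.1 * m, r.1 * m + m - 1} ×ˢ I2) ∪ (I1 ×ˢ (Ico (r.2 * (K * m)) (r.2 * (K * m) + K) ∪
      Ico (r.2 * (K * m) + K * m - K) (r.2 * (K * m) + K * m))),
    fun z => mul_nonneg (hA0 _) (hB0 _), fun z => mul_le_one₀ (hA1 _) (hB0 _) (hB1 _),
    fun z hz => ?_, fun x y => ?_, fun x y => ?_, fun C => ?_, ?_, fun C hC z hz => ?_,
    fun C hC hC' x y h1 h2 h3 h4 => ?_, fun x y => ?_, fun x y => ?_,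
    fun x y h1 h2 h3 h4 => ?_, fun x y h => ?_⟩
  · obtain ⟨h1, h2⟩ := mul_ne_zero_iff.1 hz
    have a1 := ramp_ne (h := ℓ) (L := p) (x := z.1 - r.1 * p) fun e => h1 (by simp [A, e])
    have a2 := ramp_ne (h := K * ℓ) (L := q) (x := z.2 - r.2 * q) fun e => h2 (by simp [B, e])
    refine ⟨?_, not_dvd a1.1 a1.2, not_dvd a2.1 a2.2⟩
    rw [mem_rect, ← hp, ← hq, add_mul, add_mul]
    omega
  · rw [← sub_mul, abs_mul, abs_of_nonneg (hB0 _)]
    exact (mul_le_of_le_one_right (abs_nonneg _) (hB1 _)).trans (hAl x)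
  · rw [← mul_sub, abs_mul, abs_of_nonneg (hA0 _)]
    refine (mul_le_of_le_one_left (abs_nonneg _) (hA1 _)).trans ?_
    simpa using hBl (y + 1) y
  · obtain ⟨s, hs, hs'⟩ := ramp_slope hℓ' hm' (C.1 - r.1 * m)
    refine ⟨s / ℓ * B (C.2 * ℓ), fun x y h1 h2 h3 h4 => ?_⟩
    have e : A (x + 1) - A x = s / ℓ := by
      simp only [A]
      rw [← sub_div, ← hs' (x - r.1 * p) (by rw [hp']; linarith) (by rw [hp']; linarith), ← hp',
        show x + 1 - r.1 * p = x - r.1 * p + 1 by ring]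
      push_cast; rfl
    have hs1 : |(s : ℝ)| ≤ 1 := by exact_mod_cast hs
    have hy : ((|y - C.2 * ℓ| : ℤ) : ℝ) ≤ ℓ := by
      have : |y - C.2 * ℓ| ≤ ℓ := by rw [abs_le]; constructor <;> linarith
      exact_mod_cast this
    rw [← sub_mul, e, ← mul_sub, abs_mul, abs_div, abs_of_pos hℓr]
    calc _ ≤ (1 : ℝ) / ℓ * (ℓ / (K * ℓ)) := by
          refine mul_le_mul (div_le_div_of_nonneg_right hs1 hℓr.le) ((hBl _ _).trans ?_)
            (abs_nonneg _) (by positivity)
          exact div_le_div_of_nonneg_right hy (by positivity)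
      _ = _ := by field_simp
  · refine (card_union_le _ _).trans ?_
    rw [card_product, card_product]
    have c1 : ({r.1 * m, r.1 * m + m - 1} : Finset ℤ).card ≤ 2 := card_le_two
    have c2 : I2.card = K * m := by
      simp only [I2, Int.card_Ico, add_sub_cancel_left]; exact_mod_cast Int.toNat_natCast _
    have c3 : I1.card = m := by simp [I1]
    have c4 := card_union_le (Ico (r.2 * (K * m)) (r.2 * (K * m) + K))
      (Ico (r.2 * (K * m) + K * m - K) (r.2 * (K * m) + K * m))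
    simp only [Int.card_Ico, add_sub_cancel_left, sub_sub_cancel, Int.toNat_natCast] at c4
    rw [c2, c3]
    nlinarith [Nat.mul_le_mul_right (K * m) c1, Nat.mul_le_mul_left m c4]
  · have hKm : (K : ℤ) ≤ K * m := by nlinarith
    have b : (r.1 * m ≤ C.1 ∧ C.1 + 1 ≤ r.1 * m + m) ∧
        (r.2 * (K * m) ≤ C.2 ∧ C.2 + 1 ≤ r.2 * (K * m) + K * m) := by
      simp only [I1, I2, mem_union, mem_product, mem_insert, mem_singleton, mem_Ico] at hC
      omega
    rw [mem_rect] at hz ⊢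
    rw [← hp, ← hq, hp', hq']
    obtain ⟨⟨b1, b2⟩, b3, b4⟩ := b
    obtain ⟨⟨z1, z2⟩, z3, z4⟩ := hz
    have hl0 : (0 : ℤ) ≤ ℓ := by positivity
    refine ⟨⟨?_, ?_⟩, ?_, ?_⟩
    · nlinarith [mul_le_mul_of_nonneg_right b1 hl0]
    · nlinarith [mul_le_mul_of_nonneg_right b2 hl0]
    · nlinarith [mul_le_mul_of_nonneg_right b3 hl0]
    · nlinarith [mul_le_mul_of_nonneg_right b4 hl0]
  · have hl0 : (0 : ℤ) < ℓ := by omega
    have hz := hC (show (C.1 * ℓ, C.2 * ℓ) ∈ rect ℓ ℓ C by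
      rw [mem_rect]; simp only [add_mul]; omega)
    rw [mem_rect, ← hp, ← hq, hp', hq'] at hz
    obtain ⟨⟨z1, z2⟩, z3, z4⟩ := hz
    have b1 : r.1 * m ≤ C.1 := le_of_mul_le_mul_right (by linarith) hl0
    have b2 : C.1 < r.1 * m + m := lt_of_mul_lt_mul_right (by linarith) hl0.le
    have b3 : r.2 * (K * m) ≤ C.2 := le_of_mul_le_mul_right (by linarith) hl0
    have b4 : C.2 < r.2 * (K * m) + K * m := lt_of_mul_lt_mul_right (by linarith) hl0.le
    have b : (r.1 * m + 1 ≤ C.1 ∧ C.1 + 2 ≤ r.1 * m + m) ∧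
        (r.2 * (K * m) + K ≤ C.2 ∧ C.2 + 1 + K ≤ r.2 * (K * m) + K * m) := by
      simp only [I1, I2, mem_union, mem_product, mem_insert, mem_singleton, mem_Ico] at hC'
      omega
    obtain ⟨⟨c1, c2⟩, c3, c4⟩ := b
    have e1 : ramp ℓ p (x - r.1 * p) = ℓ := ramp_eq hl0.le
      (by rw [hp']; nlinarith [mul_le_mul_of_nonneg_right c1 hl0.le])
      (by rw [hp']; nlinarith [mul_le_mul_of_nonneg_right c2 hl0.le])
    have e2 : ramp (K * ℓ) q (y - r.2 * q) = K * ℓ := ramp_eq (by positivity)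
      (by rw [hq']; nlinarith [mul_le_mul_of_nonneg_right c3 hl0.le])
      (by rw [hq']; nlinarith [mul_le_mul_of_nonneg_right c4 hl0.le])
    simp only [A, B, e1, e2]
    push_cast
    field_simp
  · have : |χ (x + 1, y) - χ (x, y)| ≤ 1 := by rw [abs_le]; simp only [χ]; omega
    exact_mod_cast this
  · have : |χ (x, y + 1) - χ (x, y)| ≤ 1 := by rw [abs_le]; simp only [χ]; omega
    exact_mod_cast this
  · have : χ (x, y) = x - r.1 * p := by
      rw [← hp] at h1 h2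
      rw [← hq] at h3 h4
      rw [add_mul] at h2 h4
      simp only [χ]; omega
    exact_mod_cast this
  · have h' : χ (x, y) ≠ 0 := fun e => h (by simp [e])
    rw [← hp, ← hq, add_mul, add_mul, sub_mul]
    simp only [χ] at h'
    omega

end Crest.Agent.R167
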