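import Crest.Agent.R167.Defs

/-!
# Row 167: the last-exit Peierls argument
-/

set_option autoImplicit false
set_option linter.unusedSectionVars false

namespace Crest.Agent.R167

open Finset Relation

namespace Pei

variable {β : ℝ} {V Ed : Type} (M : Model β V Ed)

theorem dist_self (u : V) : M.dist u u = 0 := by simp [Model.dist]

theorem dist_comm (u v : V) : M.dist u v = M.dist v u := by
  unfold Model.dist; omega

theorem dist_tri (u v w : V) : M.dist u w ≤ M.dist u v + M.dist v w := by
  unfold Model.dist; omega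

theorem dist_st (e : Ed) : M.dist (M.s e) (M.t e) ≤ 1 := by
  unfold Model.dist
  rcases M.step e with h | h <;> omega

theorem adj_dist {η : Finset Ed} {u v : V} (h : M.Adj η u v) : M.dist u v ≤ 1 := by
  obtain ⟨e, -, h | h⟩ := h
  · rw [← h.1, ← h.2]; exact dist_st M e
  · rw [← h.1, ← h.2, dist_comm]; exact dist_st M e

variable [Fintype V] [DecidableEq V] [Fintype Ed] [DecidableEq Ed]

theorem mem_ball {z v : V} {R : ℕ} : v ∈ M.ball z R ↔ M.dist v z < R := by
  simp [Model.ball]

/-- The `ℓ^∞` sphere. -/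
def sph (z : V) (ρ : ℕ) : Finset V := univ.filter fun w => M.dist w z = ρ

theorem mem_sph {z w : V} {ρ : ℕ} : w ∈ sph M z ρ ↔ M.dist w z = ρ := by simp [sph]

theorem card_sph (z : V) (ρ : ℕ) (hρ : 1 ≤ ρ) : (sph M z ρ).card ≤ 12 * ρ := by
  set S : Finset (ℤ × ℤ) :=
    (({M.X z - ρ, M.X z + ρ} : Finset ℤ) ×ˢ Icc (M.Y z - ρ) (M.Y z + ρ)) ∪
      (Icc (M.X z - ρ) (M.X z + ρ) ×ˢ ({M.Y z - ρ, M.Y z + ρ} : Finset ℤ)) with hS
  have h1 : (sph M z ρ).card ≤ S.card := by
    refine card_le_card_of_injOn M.pos ?_ ?_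
    · intro w hw
      have hw' : M.dist w z = ρ := (mem_sph M).1 hw
      unfold Model.dist at hw'
      simp only [hS, coe_union, coe_product, Set.mem_union, Set.mem_prod, Model.pos, coe_insert,
        coe_singleton, Set.mem_insert_iff, Set.mem_singleton_iff, coe_Icc, Set.mem_Icc]
      omega
    · intro u _ v _ huv
      simp only [Model.pos, Prod.mk.injEq] at huv
      exact M.inj u v huv.1 huv.2
  have h2 : S.card ≤ 2 * (2 * ρ + 1) + (2 * ρ + 1) * 2 := by
    refine (card_union_le _ _).trans ?_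
    rw [card_product, card_product, Int.card_Icc, Int.card_Icc]
    have e1 : (M.Y z + ρ + 1 - (M.Y z - ρ)).toNat = 2 * ρ + 1 := by omega
    have e2 : (M.X z + ρ + 1 - (M.X z - ρ)).toNat = 2 * ρ + 1 := by omega
    rw [e1, e2]
    exact Nat.add_le_add (Nat.mul_le_mul_right _ card_le_two)
      (Nat.mul_le_mul_left _ card_le_two)
  omega

theorem rtg_mono {r p : V → V → Prop} {a b : V} (hr : ReflTransGen r a b)
    (h : ∀ u v, r u v → p u v) : ReflTransGen p a b := by
  induction hr with
  | refl => exact ReflTransGen.refl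
  | tail _ h2 ih => exact ih.tail (h _ _ h2)

/-- Adjacency through edges with an end in the ball. -/
def AdjB (R : ℕ) (z : V) (η : Finset Ed) (u v : V) : Prop :=
  ∃ e ∈ η, (M.s e ∈ M.ball z R ∨ M.t e ∈ M.ball z R) ∧
    ((M.s e = u ∧ M.t e = v) ∨ (M.s e = v ∧ M.t e = u))

/-- The one-arm event. -/
def Arm (R : ℕ) (z : V) (η : Finset Ed) : Prop :=
  ∃ w, M.dist w z = R ∧ ReflTransGen (AdjB M R z η) z w

theorem arm_conn {R : ℕ} {z w : V} {η : Finset Ed} (h : ReflTransGen (AdjB M R z η) z w) :
    M.Conn η z w :=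
  rtg_mono h fun _ _ ⟨e, he, _, h⟩ => ⟨e, he, h⟩

theorem arm_congr {R : ℕ} {z z' : V} (hz : 2 * R ≤ M.dist z' z) {η η' : Finset Ed}
    (h : ∀ e, M.s e ∉ M.ball z R → M.t e ∉ M.ball z R → (e ∈ η ↔ e ∈ η'))
    (ha : Arm M R z' η) : Arm M R z' η' := by
  obtain ⟨w, hw, hp⟩ := ha
  refine ⟨w, hw, rtg_mono hp ?_⟩
  rintro u v ⟨e, he, hb, huv⟩
  refine ⟨e, (h e ?_ ?_).1 he, hb, huv⟩
  · rw [mem_ball] at *
    rw [mem_ball] at hb
    have h1 := dist_st M e
    have h2 := dist_tri M z' (M.s e) z
    have h3 := dist_tri M z' (M.t e) (M.s e)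
    have h4 := dist_comm M z' (M.s e)
    have h5 := dist_comm M z' (M.t e)
    have h6 := dist_comm M (M.s e) (M.t e)
    omega
  · rw [mem_ball] at *
    rw [mem_ball] at hb
    have h1 := dist_st M e
    have h2 := dist_tri M z' (M.t e) z
    have h3 := dist_tri M z' (M.s e) (M.t e)
    have h4 := dist_comm M z' (M.s e)
    have h5 := dist_comm M z' (M.t e)
    omega

/-- First exit. -/
theorem first_exit {R : ℕ} (hR : 1 ≤ R) {η : Finset Ed} {x y : V} (h : M.Conn η x y) :
    (M.dist y x < R ∧ ReflTransGen (AdjB M R x η) x y) ∨ Arm M R x η := by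
  induction h with
  | refl => left; exact ⟨by rw [dist_self]; omega, ReflTransGen.refl⟩
  | @tail b c _ hbc ih =>
    rcases ih with ⟨hb, hp⟩ | ha
    · have hd := adj_dist M hbc
      have hp' : ReflTransGen (AdjB M R x η) x c := by
        refine hp.tail ?_
        obtain ⟨e, he, huv⟩ := hbc
        refine ⟨e, he, ?_, huv⟩
        rcases huv with h | h
        · left; rw [h.1]; exact (mem_ball M).2 hb
        · right; rw [h.2]; exact (mem_ball M).2 hb
      by_cases hc : M.dist c x < R
      · exact Or.inl ⟨hc, hp'⟩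
      · right
        refine ⟨c, ?_, hp'⟩
        have h1 := dist_tri M c b x
        have h2 := dist_comm M c b
        omega
    · exact Or.inr ha

/-- Steps ending `D`-far from `Z`. -/
def AdjF (D : ℕ) (Z : Finset V) (η : Finset Ed) (u v : V) : Prop :=
  M.Adj η u v ∧ ∀ z ∈ Z, D ≤ M.dist v z

/-- Last exit. -/
theorem last_exit {D : ℕ} {Z : Finset V} {η : Finset Ed} {x y : V} (hy : D ≤ M.dist y x) {u : V}
    (h : ReflTransGen (AdjF M D Z η) u y) :
    (D ≤ M.dist u x ∧ ReflTransGen (AdjF M D (insert x Z) η) u y) ∨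
      ∃ x', M.dist x' x = D ∧ (∀ z ∈ Z, D ≤ M.dist x' z) ∧
        ReflTransGen (AdjF M D (insert x Z) η) x' y := by
  induction h using ReflTransGen.head_induction_on with
  | refl => exact Or.inl ⟨hy, ReflTransGen.refl⟩
  | @head a c hac _ ih =>
    rcases ih with ⟨hc, hp⟩ | h
    · by_cases ha : D ≤ M.dist a x
      · refine Or.inl ⟨ha, hp.head ⟨hac.1, ?_⟩⟩
        intro z hz
        rcases mem_insert.1 hz with rfl | hz
        · exact hc
        · exact hac.2 z hz
      · right
        refine ⟨c, ?_, hac.2, hp⟩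
        have h1 := adj_dist M hac.1
        have h2 := dist_tri M c a x
        have h3 := dist_comm M c a
        omega
    · exact Or.inr h

/-- Long connection avoiding the neighbourhood of `Z`. -/
def Far (D m : ℕ) (x : V) (Z : Finset V) (η : Finset Ed) : Prop :=
  ∃ y, m * D ≤ M.dist y x ∧ ReflTransGen (AdjF M D Z η) x y

/-- Separated sets. -/
def Sep (D : ℕ) (Z : Finset V) : Prop := ∀ z ∈ Z, ∀ z' ∈ Z, z ≠ z' → D ≤ M.dist z z'

open Classical in
theorem sum_le_sum_sum {ι : Type} (S : Finset ι) (f : Finset Ed → ℝ) (hf : ∀ η, 0 ≤ f η)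
    (P : Finset Ed → Prop) (Q : ι → Finset Ed → Prop) (h : ∀ η, P η → ∃ i ∈ S, Q i η) :
    ∑ η with P η, f η ≤ ∑ i ∈ S, ∑ η with Q i η, f η := by
  simp only [sum_filter]
  rw [sum_comm]
  refine sum_le_sum fun η _ => ?_
  have hn : ∀ i ∈ S, 0 ≤ if Q i η then f η else 0 := fun i _ => by
    split_ifs; exacts [hf η, le_rfl]
  split_ifs with hP
  · obtain ⟨i, hi, hQ⟩ := h η hP
    refine le_trans ?_ (single_le_sum hn hi)
    rw [if_pos hQ]
  · exact sum_nonneg hn

section Main

variable {π : Finset Ed → ℝ} {R : ℕ} {δ : ℝ}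

open Classical in
theorem arms_le (hR : 1 ≤ R) (hδ : 0 ≤ δ) (hπ : ∀ η, 0 ≤ π η) (h1 : ∑ η, π η = 1)
    (H : ∀ z w, w ∉ M.ball z R → ∀ Φ : Finset Ed → ℝ, (∀ η, 0 ≤ Φ η) →
      (∀ η η', (∀ e, M.s e ∉ M.ball z R → M.t e ∉ M.ball z R → (e ∈ η ↔ e ∈ η')) → Φ η = Φ η') →
      ∑ η with M.Conn η z w, π η * Φ η ≤ δ * ∑ η, π η * Φ η)
    (Z : Finset V) (hZ : Sep M (2 * R) Z) :
    ∑ η with (∀ z ∈ Z, Arm M R z η), π η ≤ (12 * R * δ) ^ Z.card := by
  induction Z using Finset.induction_on with
  | empty => simp [h1]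
  | @insert z Z hz ih =>
    have ih' := ih fun a ha b hb hab => hZ a (mem_insert_of_mem ha) b (mem_insert_of_mem hb) hab
    set Φ : Finset Ed → ℝ := fun η => if ∀ z' ∈ Z, Arm M R z' η then 1 else 0 with hΦ
    have hΦ0 : ∀ η, 0 ≤ Φ η := fun η => by
      simp only [hΦ]; split_ifs <;> norm_num
    have hsep : ∀ z' ∈ Z, 2 * R ≤ M.dist z' z := fun z' hz' =>
      hZ z' (mem_insert_of_mem hz') z (mem_insert_self _ _) (by rintro rfl; exact hz hz')
    have hΦl : ∀ η η', (∀ e, M.s e ∉ M.ball z R → M.t e ∉ M.ball z R → (e ∈ η ↔ e ∈ η')) →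
        Φ η = Φ η' := by
      intro η η' h
      have : (∀ z' ∈ Z, Arm M R z' η) ↔ ∀ z' ∈ Z, Arm M R z' η' :=
        ⟨fun g z' hz' => arm_congr M (hsep z' hz') h (g z' hz'),
          fun g z' hz' => arm_congr M (hsep z' hz') (fun e a b => (h e a b).symm) (g z' hz')⟩
      simp only [hΦ, this]
    have hS : ∑ η, π η * Φ η = ∑ η with (∀ z ∈ Z, Arm M R z η), π η := by
      rw [sum_filter]
      refine sum_congr rfl fun η _ => ?_
      simp only [hΦ]
      split_ifs <;> simp
    have hc : ((sph M z R).card : ℝ) ≤ 12 * R := by exact_mod_cast card_sph M z R hR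
    calc ∑ η with (∀ z' ∈ insert z Z, Arm M R z' η), π η
        = ∑ η with (∀ z' ∈ insert z Z, Arm M R z' η), π η * Φ η := by
          refine sum_congr rfl fun η hη => ?_
          have := (mem_filter.1 hη).2
          simp only [hΦ]
          rw [if_pos fun z' hz' => this z' (mem_insert_of_mem hz'), mul_one]
      _ ≤ ∑ w ∈ sph M z R, ∑ η with M.Conn η z w, π η * Φ η := by
          convert sum_le_sum_sum (sph M z R) (fun η => π η * Φ η)
            (fun η => mul_nonneg (hπ η) (hΦ0 η)) (fun η => ∀ z' ∈ insert z Z, Arm M R z' η)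
            (fun w η => M.Conn η z w) ?_
          intro η hη
          obtain ⟨w, hw, hp⟩ := hη z (mem_insert_self _ _)
          exact ⟨w, (mem_sph M).2 hw, arm_conn M hp⟩
      _ ≤ ∑ _w ∈ sph M z R, δ * (12 * R * δ) ^ Z.card := by
          refine sum_le_sum fun w hw => ?_
          have hw' := (mem_sph M).1 hw
          refine (H z w (by rw [mem_ball]; omega) Φ hΦ0 hΦl).trans ?_
          rw [hS]
          exact mul_le_mul_of_nonneg_left ih' hδ
      _ ≤ (12 * R * δ) ^ (insert z Z).card := by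
          rw [sum_const, nsmul_eq_mul, card_insert_of_notMem hz, pow_succ]
          have : 0 ≤ δ * (12 * R * δ) ^ Z.card := by positivity
          nlinarith

open Classical in
theorem far_le (hR : 1 ≤ R) (hδ : 0 ≤ δ) (hπ : ∀ η, 0 ≤ π η)
    (H : ∀ Z : Finset V, Sep M (2 * R) Z →
      ∑ η with (∀ z ∈ Z, Arm M R z η), π η ≤ (12 * R * δ) ^ Z.card) (m : ℕ) :
    ∀ (x : V) (Z : Finset V), Sep M (2 * R) Z → (∀ z ∈ Z, 2 * R ≤ M.dist x z) →
      ∑ η with ((∀ z ∈ Z, Arm M R z η) ∧ Far M (2 * R) m x Z η), π η ≤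
        (12 * R * δ) ^ Z.card * (24 * R * (12 * R * δ)) ^ m := by
  induction m with
  | zero =>
    intro x Z hZ _
    rw [pow_zero, mul_one]
    refine le_trans (sum_le_sum_of_subset_of_nonneg ?_ fun η _ _ => hπ η) (H Z hZ)
    intro η hη
    simp only [mem_filter, mem_univ, true_and] at hη ⊢
    exact hη.1
  | succ m ih =>
    intro x Z hZ hx
    have hxZ : x ∉ Z := fun h => by
      have := hx x h
      rw [dist_self] at this
      omega
    have hZ' : Sep M (2 * R) (insert x Z) := by
      intro a ha b hb hab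
      rcases mem_insert.1 ha with ha | ha <;> rcases mem_insert.1 hb with hb | hb
      · exact absurd (ha.trans hb.symm) hab
      · rw [ha]; exact hx b hb
      · rw [dist_comm, hb]; exact hx a ha
      · exact hZ a ha b hb hab
    set S := (sph M x (2 * R)).filter fun x' => ∀ z ∈ Z, 2 * R ≤ M.dist x' z with hS
    have hc : (S.card : ℝ) ≤ 24 * R := by
      have h1 : S.card ≤ 12 * (2 * R) :=
        (card_filter_le _ _).trans (card_sph M x (2 * R) (by omega))
      have h2 : (S.card : ℝ) ≤ ((12 * (2 * R) : ℕ) : ℝ) := by exact_mod_cast h1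
      push_cast at h2
      linarith
    calc ∑ η with ((∀ z ∈ Z, Arm M R z η) ∧ Far M (2 * R) (m + 1) x Z η), π η
        ≤ ∑ x' ∈ S, ∑ η with ((∀ z ∈ insert x Z, Arm M R z η) ∧
            Far M (2 * R) m x' (insert x Z) η), π η := by
          convert sum_le_sum_sum S π hπ
            (fun η => (∀ z ∈ Z, Arm M R z η) ∧ Far M (2 * R) (m + 1) x Z η)
            (fun x' η => (∀ z ∈ insert x Z, Arm M R z η) ∧
              Far M (2 * R) m x' (insert x Z) η) ?_
          rintro η ⟨hA, y, hy, hp⟩
          have hy' : m * (2 * R) + 2 * R ≤ M.dist y x := by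
            rw [← Nat.succ_mul]; exact hy
          have hAx : Arm M R x η := by
            have hc : M.Conn η x y := rtg_mono hp fun _ _ h => h.1
            rcases first_exit M hR hc with h | h
            · have := h.1; omega
            · exact h
          rcases last_exit M (x := x) (by omega) hp with h | ⟨x', h1, h2, h3⟩
          · have := h.1
            rw [dist_self] at this
            omega
          · refine ⟨x', mem_filter.2 ⟨(mem_sph M).2 h1, h2⟩, ?_, y, ?_, h3⟩
            · intro z hz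
              rcases mem_insert.1 hz with rfl | hz
              · exact hAx
              · exact hA z hz
            · have := dist_tri M y x' x
              omega
      _ ≤ ∑ _x' ∈ S, (12 * R * δ) ^ (Z.card + 1) * (24 * R * (12 * R * δ)) ^ m := by
          refine sum_le_sum fun x' hx' => ?_
          obtain ⟨h1, h2⟩ := mem_filter.1 hx'
          have h1' := (mem_sph M).1 h1
          have := ih x' (insert x Z) hZ' (by
            intro z hz
            rcases mem_insert.1 hz with rfl | hz
            · exact h1'.ge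
            · exact h2 z hz)
          rwa [card_insert_of_notMem hxZ] at this
      _ ≤ (12 * R * δ) ^ Z.card * (24 * R * (12 * R * δ)) ^ (m + 1) := by
          rw [sum_const, nsmul_eq_mul]
          have : 0 ≤ (12 * R * δ) ^ (Z.card + 1) * (24 * R * (12 * R * δ)) ^ m := by positivity
          calc (S.card : ℝ) * ((12 * R * δ) ^ (Z.card + 1) * (24 * R * (12 * R * δ)) ^ m)
              ≤ 24 * R * ((12 * R * δ) ^ (Z.card + 1) * (24 * R * (12 * R * δ)) ^ m) :=
                mul_le_mul_of_nonneg_right hc this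
            _ = _ := by ring

end Main

end Pei

open Classical in
theorem peierlsStmt : PeierlsStmt := by
  intro β V Ed _ _ _ _ M π R δ hR hδ hδR hπ h1 H x y
  have h := Pei.far_le M hR hδ hπ (Pei.arms_le M hR hδ hπ h1 H) (M.dist x y / (2 * R)) x ∅
    (by intro a ha; simp at ha) (by intro a ha; simp at ha)
  rw [card_empty, pow_zero, one_mul] at h
  refine le_trans (le_trans (sum_le_sum_of_subset_of_nonneg ?_ fun η _ _ => hπ η) h) ?_
  · intro η hη
    simp only [mem_filter, mem_univ, true_and] at hη ⊢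
    refine ⟨by simp, y, ?_, Pei.rtg_mono hη fun u v h => ⟨h, by simp⟩⟩
    rw [Pei.dist_comm M y x]
    exact Nat.div_mul_le_self _ _
  · refine pow_le_pow_left₀ (by positivity) ?_ _
    nlinarith

end Crest.Agent.R167
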