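import Crest.Agent.R167.Basic

/-!
# Row 167: iterating the renormalisation step
-/

set_option autoImplicit false

namespace Crest.Agent.R167

theorem propAStmt_of (h : StepStmt) : PropAStmt := by
  intro k β ε hβ hε
  obtain ⟨n, c, κ, hn, hc, hκ, hstep⟩ := h k β ε hβ hε
  obtain ⟨N, hN⟩ := exists_nat_ge (6 * β / c)
  have hN' : 6 * β ≤ N * c := by rwa [div_le_iff₀ hc] at hN
  refine ⟨n ^ N, κ * ((n ^ N : ℕ) : ℝ) ^ 2, Nat.one_le_pow _ _ hn, by positivity, ?_⟩
  intro V Ed _ _ _ M U σ₀ W A hS hM hA hb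
  have hA0 : 0 ≤ A := (Nat.cast_nonneg _).trans hA
  have key : ∀ i, i ≤ N → M.Dst U σ₀ (n ^ i) W ≤ ε * A ∨
      M.Dst U σ₀ (n ^ i) W ≤ 6 * β * A - i * c * A := by
    intro i
    induction i with
    | zero =>
      intro _
      right
      have := M.Dst_le σ₀ (U := U) hβ.le (n ^ 0) W
      have h2 : 6 * β * W.card ≤ 6 * β * A := by gcongr
      simp only [Nat.cast_zero, zero_mul, sub_zero]
      linarith
    | succ i ih =>
      intro hi
      have hd : n * n ^ i ∣ n ^ N := by rw [← pow_succ']; exact pow_dvd_pow n hi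
      have hle : n * n ^ i ≤ n ^ N := Nat.le_of_dvd (Nat.one_le_pow _ _ hn) hd
      have hM' : M.Mar U W (n * n ^ i) := Model.Mar.mono M hM subset_rfl hle
      by_cases hsm : M.Dst U σ₀ (n ^ i) W ≤ ε * A
      · left
        refine le_trans (M.Dst_anti σ₀ (pow_dvd_pow n (Nat.le_succ i)) (Model.Mar.Lam_subset M hM _ _)) hsm
      · right
        have h1 := (ih (Nat.le_of_succ_le hi)).resolve_left hsm
        have hle' : ((n ^ i : ℕ) : ℝ) ≤ ((n ^ N : ℕ) : ℝ) := by
          exact_mod_cast Nat.pow_le_pow_right hn (Nat.le_of_succ_le hi)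
        have h2 := hstep V Ed M U σ₀ (n ^ i) W A (Nat.one_le_pow _ _ hn) (hS.of_dvd hd hd) hM' hA
          (le_trans (by gcongr) hb) (not_le.1 hsm).le
        rw [pow_succ']
        push_cast
        linarith
  rcases key N le_rfl with h1 | h1
  · exact h1
  · have : 6 * β * A ≤ N * c * A := by gcongr
    have : 0 ≤ ε * A := by positivity
    linarith

end Crest.Agent.R167
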