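import Crest.Agent.R167.Basic

/-!
# Row 167: orthogonality, locality and size of the score of one cell
-/

set_option autoImplicit false
set_option linter.unusedSectionVars false

namespace Crest.Agent.R167

open MeasureTheory Finset
open scoped InnerProductSpace

namespace ScoreAux

/-- The window containing the sources of the edges with `dχ ≠ 0`. -/
noncomputable def win (p q : ℕ) (r : ℤ × ℤ) : Finset (ℤ × ℤ) :=
  Ico (r.1 * p) ((r.1 + 2) * p) ×ˢ Ico ((r.2 - 1) * q) ((r.2 + 2) * q)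

theorem mem_win {p q : ℕ} {r z : ℤ × ℤ} : z ∈ win p q r ↔
    (r.1 * p ≤ z.1 ∧ z.1 < (r.1 + 2) * p) ∧ ((r.2 - 1) * q ≤ z.2 ∧ z.2 < (r.2 + 2) * q) := by
  simp [win]

theorem card_win (p q : ℕ) (r : ℤ × ℤ) : (win p q r).card = 6 * (p * q) := by
  have h1 : (r.1 + 2) * (p : ℤ) - r.1 * p = ((2 * p : ℕ) : ℤ) := by push_cast; ring
  have h2 : (r.2 + 2) * (q : ℤ) - (r.2 - 1) * q = ((3 * q : ℕ) : ℤ) := by push_cast; ring
  rw [win, card_product, Int.card_Ico, Int.card_Ico, h1, h2, Int.toNat_natCast, Int.toNat_natCast]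
  ring

theorem rect_subset_win (p q : ℕ) (r : ℤ × ℤ) : rect p q r ⊆ win p q r := by
  intro z hz
  rw [mem_rect] at hz
  rw [mem_win]
  have hp : (0 : ℤ) ≤ p := Int.natCast_nonneg p
  have hq : (0 : ℤ) ≤ q := Int.natCast_nonneg q
  refine ⟨⟨hz.1.1, ?_⟩, ?_, ?_⟩ <;> nlinarith [hz.1.2, hz.2.1, hz.2.2]

theorem not_mem_rect_of_far {p q : ℕ} {r r' z : ℤ × ℤ}
    (h : 1 < |r'.1 - r.1| ∨ 1 < |r'.2 - r.2|) (hz : z ∈ win p q r) : z ∉ rect p q r' := by
  intro hz'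
  rw [mem_rect] at hz'
  rw [mem_win] at hz
  have hp : (0 : ℤ) ≤ p := Int.natCast_nonneg p
  have hq : (0 : ℤ) ≤ q := Int.natCast_nonneg q
  have a1 : r'.1 < r.1 + 2 := lt_of_mul_lt_mul_right (hz'.1.1.trans_lt hz.1.2) hp
  have a2 : r.1 < r'.1 + 1 := lt_of_mul_lt_mul_right (hz.1.1.trans_lt hz'.1.2) hp
  have a3 : r'.2 < r.2 + 2 := lt_of_mul_lt_mul_right (hz'.2.1.trans_lt hz.2.2) hq
  have a4 : r.2 - 1 < r'.2 + 1 := lt_of_mul_lt_mul_right (hz.2.1.trans_lt hz'.2.2) hq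
  rcases h with h | h <;> rw [lt_abs] at h <;> omega

variable {β : ℝ} {V Ed : Type} (M : Model β V Ed) [Fintype V] [DecidableEq V] [Fintype Ed]
  {ℓ m K : ℕ} {r : ℤ × ℤ} {φ χ : ℤ × ℤ → ℝ} {lay : Finset (ℤ × ℤ)}

theorem φ_mem (hb : Bump ℓ m K r φ χ lay) {v : V} (hv : φ (M.pos v) ≠ 0) :
    v ∈ M.Lam (m * ℓ) (K * m * ℓ) (rect (m * ℓ) (K * m * ℓ) r) :=
  M.mem_Lam.2 (hb.φsupp _ hv)

theorem dφ_src (hb : Bump ℓ m K r φ χ lay) {e : Ed}
    (he : φ (M.pos (M.s e)) ≠ 0 ∨ φ (M.pos (M.t e)) ≠ 0) :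
    M.pos (M.s e) ∈ rect (m * ℓ) (K * m * ℓ) r :=
  M.src_mem_rect (he.imp (φ_mem M hb) (φ_mem M hb))

theorem dφ_src' (hb : Bump ℓ m K r φ χ lay) {e : Ed}
    (he : M.d (fun v => φ (M.pos v)) e ≠ 0) :
    M.pos (M.s e) ∈ rect (m * ℓ) (K * m * ℓ) r := by
  refine dφ_src M hb ?_
  by_contra hn
  push Not at hn
  simp [Model.d, hn.1, hn.2] at he

theorem dχ_src (hb : Bump ℓ m K r φ χ lay) {e : Ed}
    (he : M.d (fun v => χ (M.pos v)) e ≠ 0) :
    M.pos (M.s e) ∈ win (m * ℓ) (K * m * ℓ) r := by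
  have h : χ (M.pos (M.s e)) ≠ 0 ∨ χ (M.pos (M.t e)) ≠ 0 := by
    by_contra hn
    push Not at hn
    simp [Model.d, hn.1, hn.2] at he
  rw [mem_win]
  simp only [Model.pos] at h ⊢
  rcases h with h | h
  · have := hb.χsupp _ _ h
    omega
  · have := hb.χsupp _ _ h
    rcases M.step e with h' | h' <;> omega

theorem abs_dχ_le (hb : Bump ℓ m K r φ χ lay) (e : Ed) :
    |M.d (fun v => χ (M.pos v)) e| ≤ 1 := by
  simp only [Model.d, Model.pos]
  rcases M.step e with h | h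
  · rw [h.1, h.2]; exact hb.χx _ _
  · rw [h.1, h.2]; exact hb.χy _ _

theorem abs_dφ_le (hb : Bump ℓ m K r φ χ lay) (hℓ : 1 ≤ ℓ) (hK : 1 ≤ K) (e : Ed) :
    |M.d (fun v => φ (M.pos v)) e| ≤ 1 / ℓ := by
  simp only [Model.d, Model.pos]
  rcases M.step e with h | h
  · rw [h.1, h.2]; exact hb.φx _ _
  · rw [h.1, h.2]
    refine (hb.φy _ _).trans (one_div_le_one_div_of_le (by exact_mod_cast hℓ) ?_)
    have h1 : (1 : ℝ) ≤ K := by exact_mod_cast hK
    have h2 : (0 : ℝ) ≤ ℓ := Nat.cast_nonneg ℓ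
    nlinarith

theorem χ_mem (hb : Bump ℓ m K r φ χ lay) (hℓ : 1 ≤ ℓ) (hm : 2 ≤ m) (hK : 1 ≤ K)
    {U : Finset V} {W : Finset (ℤ × ℤ)} (hU : M.Mar U W (K * m * ℓ))
    (hW : rect (m * ℓ) (K * m * ℓ) r ⊆ W) {v : V} (hv : χ (M.pos v) ≠ 0) : v ∈ U := by
  have h := hb.χsupp _ _ hv
  have hp : 1 ≤ m * ℓ := Nat.mul_pos (by omega) hℓ
  have hpq : m * ℓ ≤ K * m * ℓ := by rw [mul_assoc]; exact Nat.le_mul_of_pos_left _ hK
  generalize m * ℓ = p at *
  generalize K * m * ℓ = q at *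
  have e1 : (r.1 + 2) * (p : ℤ) = r.1 * p + 2 * p := by ring
  have e2 : (r.1 + 1) * (p : ℤ) = r.1 * p + p := by ring
  have e3 : (r.2 + 2) * (q : ℤ) = r.2 * q + 2 * q := by ring
  have e4 : (r.2 + 1) * (q : ℤ) = r.2 * q + q := by ring
  have e5 : (r.2 - 1) * (q : ℤ) = r.2 * q - q := by ring
  refine hU v (min (M.X v) ((r.1 + 1) * p - 1), max (r.2 * q) (min (M.Y v) ((r.2 + 1) * q - 1)))
    (hW (mem_rect.2 ?_)) ?_ ?_
  · simp only
    omega
  · simp only [abs_le]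
    omega
  · simp only [abs_le]
    omega

theorem av_mul_dχ (hb : Bump ℓ m K r φ χ lay) :
    (fun e => M.av (fun v => φ (M.pos v)) e * M.d (fun v => χ (M.pos v)) e) =
      M.rst (rect (m * ℓ) (K * m * ℓ) r) fun e => M.av (fun v => φ (M.pos v)) e * M.ω e := by
  funext e
  by_cases h : φ (M.pos (M.s e)) ≠ 0 ∨ φ (M.pos (M.t e)) ≠ 0
  · have hs := dφ_src M hb h
    simp only [Model.rst, hs, if_true]
    congr 1
    rw [mem_rect] at hs
    simp only [Model.pos] at hs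
    simp only [Model.d, Model.ω, Model.pos]
    rw [hb.χcell _ _ hs.1.1 hs.1.2.le hs.2.1 hs.2.2.le, hb.χcell (M.X (M.t e)) (M.Y (M.t e))]
    · push_cast; ring
    all_goals rcases M.step e with h' | h' <;> omega
  · push Not at h
    simp [Model.rst, Model.av, h.1, h.2]

end ScoreAux

open ScoreAux in
theorem scoreStmt : ScoreStmt := by
  intro k
  refine ⟨7000, by norm_num, ?_⟩
  intro β hβ V Ed _ _ _ M U σ₀ ℓ m K W r φ χ lay hℓ hm hK hU hW hb B C' hBC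
  have hp : ℓ ∣ m * ℓ := Dvd.intro_left _ rfl
  have hq : ℓ ∣ K * m * ℓ := Dvd.intro_left _ rfl
  have hΛ : M.Lam ℓ ℓ W ⊆ U := hU.Lam_subset M ℓ ℓ
  have hφL : ∀ v, v ∉ M.Lam (m * ℓ) (K * m * ℓ) (rect (m * ℓ) (K * m * ℓ) r) →
      φ (M.pos v) = 0 := fun v hv => by_contra fun hn => hv (φ_mem M hb hn)
  have hφU : ∀ v, v ∉ U → φ (M.pos v) = 0 := fun v hv => hφL v fun hn =>
    hv ((Model.Mar.mono M hU hW le_rfl).Lam_subset M _ _ hn)
  have hχU : ∀ v, v ∉ U → χ (M.pos v) = 0 := fun v hv =>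
    by_contra fun hn => hv (χ_mem M hb hℓ hm hK hU hW hn)
  refine ⟨fun F hF => ?_, fun r' hr' => ?_, ?_⟩
  · rw [M.Ex_mul_score σ₀ _ _ _ _ hφU (hF.hasD hφL), mul_zero, map_zero]
  · have hwin : ∀ e, M.pos (M.s e) ∈ win (m * ℓ) (K * m * ℓ) r →
        M.s e ∉ M.Lam (m * ℓ) (K * m * ℓ) (rect (m * ℓ) (K * m * ℓ) r') ∧
        M.t e ∉ M.Lam (m * ℓ) (K * m * ℓ) (rect (m * ℓ) (K * m * ℓ) r') := fun e he =>
      ⟨fun h => not_mem_rect_of_far hr' he (M.src_mem_rect (Or.inl h)),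
        fun h => not_mem_rect_of_far hr' he (M.src_mem_rect (Or.inr h))⟩
    have hψ : Indep (M.Lam (m * ℓ) (K * m * ℓ) (rect (m * ℓ) (K * m * ℓ) r'))
        (M.psi (M.Lam ℓ ℓ W) (L k C') fun v => χ (M.pos v)) :=
      M.indep_ce_cell hp hq W r' (M.indep_bil _ fun e he => hwin e (dχ_src M hb he))
    have hJ : Indep (M.Lam (m * ℓ) (K * m * ℓ) (rect (m * ℓ) (K * m * ℓ) r'))
        (M.J (L k B) (M.d fun v => φ (M.pos v))) :=
      M.indep_bil _ fun e he => hwin e (rect_subset_win _ _ _ (dφ_src' M hb he))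
    exact (hψ.mul hJ).neg.sub ((M.hasD_psi _ (L k B) (L k C') _ _).indep hψ)
  · obtain ⟨c, ε, hε, hc⟩ := L_comm' k hBC
    set φv : V → ℝ := fun v => φ (M.pos v) with hφv
    set χv : V → ℝ := fun v => χ (M.pos v) with hχv
    set Λ := M.Lam ℓ ℓ W with hΛdef
    set P : ℝ := β * K * m ^ 2 * ℓ with hP
    set a : Ed → ℝ := M.rst (rect (m * ℓ) (K * m * ℓ) r) fun e => M.av φv e * M.ω e with ha
    set Jφ := M.J (L k B) (M.d φv) with hJφ
    set Jχ := M.J (L k C') (M.d χv) with hJχ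
    set Y : CF k V := (1 / 2 : ℝ) • M.bil k ((L k C').A * (L k B).A + (L k B).A * (L k C').A)
      (fun e => M.d χv e * M.d φv e) with hY
    have hℓ0 : (0 : ℝ) < ℓ := by exact_mod_cast hℓ
    have hP0 : 0 ≤ P := by positivity
    -- decomposition of the score
    have hsc : M.score Λ (L k B) (L k C') φv χv =
        -(M.ce Λ Jχ * Jφ) - M.ce Λ (ε • M.J (L k c) a) - M.ce Λ Y - M.cv Λ Jχ Jφ := by
      rw [Model.score, Model.dpsi, Model.psi, M.bil_deriv_eq, hc, M.bil_smul_op, av_mul_dχ M hb,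
        map_add]
      simp only [Model.J, hJφ, hJχ, hY, ha]
      ring
    -- fourth moments
    have hχ2 : ∑ e, M.d χv e ^ 2 ≤ 12 * (K * m ^ 2 * ℓ ^ 2) := by
      have := M.sum_sq_le (fun e he => dχ_src M hb he) (abs_dχ_le M hb)
      rw [card_win] at this
      push_cast at this
      linarith
    have hφ2 : ∑ e, M.d φv e ^ 2 ≤ 2 * (K * m ^ 2) := by
      have := M.sum_sq_le (fun e he => dφ_src' M hb he) (abs_dφ_le M hb hℓ hK)
      rw [card_rect] at this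
      push_cast at this
      refine this.trans (le_of_eq ?_)
      field_simp
    have hχ4 : M.Ex U σ₀ (Jχ ^ 4) ≤ (24 * β * (K * m ^ 2 * ℓ ^ 2)) ^ 2 := by
      refine (M.Ex_J_four_le σ₀ hβ.le _ hχU).trans ?_
      have h0 : 0 ≤ β * ∑ e, M.d χv e ^ 2 := by positivity
      have h1 : β * ∑ e, M.d χv e ^ 2 ≤ 12 * β * (K * m ^ 2 * ℓ ^ 2) := by nlinarith
      have h2 := pow_le_pow_left₀ h0 h1 2
      nlinarith [sq_nonneg (β * (K * m ^ 2 * ℓ ^ 2))]
    have hφ4 : M.Ex U σ₀ (Jφ ^ 4) ≤ (4 * β * (K * m ^ 2)) ^ 2 := by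
      refine (M.Ex_J_four_le σ₀ hβ.le _ hφU).trans ?_
      have h0 : 0 ≤ β * ∑ e, M.d φv e ^ 2 := by positivity
      have h1 : β * ∑ e, M.d φv e ^ 2 ≤ 2 * β * (K * m ^ 2) := by nlinarith
      have h2 := pow_le_pow_left₀ h0 h1 2
      nlinarith [sq_nonneg (β * (K * m ^ 2))]
    have t1 : M.Ex U σ₀ ((M.ce Λ Jχ * Jφ) ^ 2) ≤ 96 * P ^ 2 := by
      refine (M.Ex_mul_sq_le_of_four U σ₀ (by positivity) (by positivity)
        ((M.Ex_ce_four_le σ₀ hΛ _).trans hχ4) hφ4).trans (le_of_eq ?_)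
      rw [hP]; ring
    have t2 : M.Ex U σ₀ (M.ce Λ (ε • M.J (L k c) a) ^ 2) ≤
        ∑ c : Fin 3, M.Ex U σ₀ (M.J (L k c) a ^ 2) := by
      refine (M.Ex_ce_sq_le σ₀ hΛ _).trans ?_
      rw [_root_.smul_pow, hε, one_smul]
      exact Finset.single_le_sum (f := fun c => M.Ex U σ₀ (M.J (L k c) a ^ 2))
        (fun c _ => M.Ex_sq_nonneg U σ₀ _) (Finset.mem_univ c)
    have t3 : M.Ex U σ₀ (M.ce Λ Y ^ 2) ≤ 4 * P ^ 2 := by
      refine (M.Ex_ce_sq_le σ₀ hΛ _).trans (M.Ex_le U σ₀ fun σ => ?_)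
      have hn : ‖(L k C').A * (L k B).A + (L k B).A * (L k C').A‖ ≤ 2 := by
        have h1 := (L k C').norm_le_one
        have h2 := (L k B).norm_le_one
        have h3 := norm_mul_le (L k C').A (L k B).A
        have h4 := norm_mul_le (L k B).A (L k C').A
        have h5 := norm_add_le ((L k C').A * (L k B).A) ((L k B).A * (L k C').A)
        nlinarith [norm_nonneg (L k C').A, norm_nonneg (L k B).A]
      have hs : ∑ e, |M.d χv e * M.d φv e| ≤ 2 * (K * m ^ 2 * ℓ) := by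
        have := M.sum_abs_le (W := rect (m * ℓ) (K * m * ℓ) r)
          (a := fun e => M.d χv e * M.d φv e) (μ := 1 / ℓ) (by positivity)
          (fun e he => dφ_src' M hb (right_ne_zero_of_mul he)) fun e => by
            rw [abs_mul]
            have h1 := abs_dχ_le M hb e
            have h2 := abs_dφ_le M hb hℓ hK e
            nlinarith [abs_nonneg (M.d χv e), abs_nonneg (M.d φv e)]
        rw [card_rect] at this
        push_cast at this
        refine this.trans (le_of_eq ?_)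
        field_simp
      have hb' := M.abs_bil_le ((L k C').A * (L k B).A + (L k B).A * (L k C').A)
        (fun e => M.d χv e * M.d φv e) σ
      have hs0 : 0 ≤ ∑ e, |M.d χv e * M.d φv e| := by positivity
      have h4 : β * ‖(L k C').A * (L k B).A + (L k B).A * (L k C').A‖ *
          ∑ e, |M.d χv e * M.d φv e| ≤ β * 2 * (2 * (K * m ^ 2 * ℓ)) := by gcongr
      have h5 : |Y σ| ≤ 2 * P := by
        rw [hY, ContinuousMap.smul_apply, smul_eq_mul, abs_mul, abs_of_pos (by norm_num), hP]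
        linarith
      rw [ContinuousMap.pow_apply, ← sq_abs]
      have := pow_le_pow_left₀ (abs_nonneg _) h5 2
      linarith
    have t4 : M.Ex U σ₀ (M.cv Λ Jχ Jφ ^ 2) ≤ 1536 * P ^ 2 := by
      refine (M.Ex_cv_sq_le σ₀ hΛ (a := 4 * (24 * β * (K * m ^ 2 * ℓ ^ 2)))
        (b := 4 * (4 * β * (K * m ^ 2))) (by positivity) (by positivity)
        ((M.Ex_sub_ce_four_le σ₀ hΛ _).trans (by linarith))
        ((M.Ex_sub_ce_four_le σ₀ hΛ _).trans (by linarith))).trans (le_of_eq ?_)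
      rw [hP]; ring
    have hsum : M.Ex U σ₀ (M.score Λ (L k B) (L k C') φv χv ^ 2) ≤
        M.Ex U σ₀ ((4 : ℝ) • ((M.ce Λ Jχ * Jφ) ^ 2 + M.ce Λ (ε • M.J (L k c) a) ^ 2 +
          M.ce Λ Y ^ 2 + M.cv Λ Jχ Jφ ^ 2)) := by
      refine M.Ex_mono U σ₀ fun σ => ?_
      rw [hsc]
      simp only [ContinuousMap.pow_apply, ContinuousMap.sub_apply, ContinuousMap.neg_apply,
        ContinuousMap.add_apply, ContinuousMap.smul_apply, smul_eq_mul]
      generalize (M.ce Λ Jχ * Jφ) σ = x1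
      generalize M.ce Λ (ε • M.J (L k c) a) σ = x2
      generalize M.ce Λ Y σ = x3
      generalize M.cv Λ Jχ Jφ σ = x4
      nlinarith [sq_nonneg (x1 - x2), sq_nonneg (x1 - x3), sq_nonneg (x1 - x4), sq_nonneg (x2 - x3),
        sq_nonneg (x2 - x4), sq_nonneg (x3 - x4)]
    rw [map_smul, map_add, map_add, map_add, smul_eq_mul] at hsum
    have h0 : 0 ≤ ∑ c : Fin 3, M.Ex U σ₀ (M.J (L k c) a ^ 2) :=
      Finset.sum_nonneg fun c _ => M.Ex_sq_nonneg U σ₀ _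
    nlinarith [sq_nonneg P]

end Crest.Agent.R167
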