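import Crest.Agent.R167.Basic

/-!
# Row 167: one renormalisation step
-/

set_option autoImplicit false
set_option linter.unusedSectionVars false

namespace Crest.Agent.R167

open MeasureTheory Finset
open scoped InnerProductSpace

namespace StepA

/-- At most nine cells are neighbours of a given cell. -/
theorem card_near (R : Finset (ℤ × ℤ)) (r : ℤ × ℤ) :
    #{r' ∈ R | ¬(1 < |r'.1 - r.1| ∨ 1 < |r'.2 - r.2|)} ≤ 9 := by
  have h : {r' ∈ R | ¬(1 < |r'.1 - r.1| ∨ 1 < |r'.2 - r.2|)} ⊆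
      Icc (r.1 - 1) (r.1 + 1) ×ˢ Icc (r.2 - 1) (r.2 + 1) := by
    intro r' hr'
    simp only [mem_filter, not_or, not_lt, abs_le] at hr'
    simp only [mem_product, mem_Icc]
    omega
  refine (card_le_card h).trans ?_
  rw [card_product, Int.card_Icc, Int.card_Icc]
  have h1 : (r.1 + 1 + 1 - (r.1 - 1)).toNat = 3 := by omega
  have h2 : (r.2 + 1 + 1 - (r.2 - 1)).toNat = 3 := by omega
  rw [h1, h2]

variable {β : ℝ} {V Ed : Type} (M : Model β V Ed) [Fintype V] [DecidableEq V] [Fintype Ed]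
  {k : ℕ} (U : Finset V) (σ₀ : Ω k V)

theorem Ex_mul_le (F G : CF k V) {l : ℝ} (hl : 0 < l) :
    M.Ex U σ₀ (F * G) ≤ l / 2 * M.Ex U σ₀ (F ^ 2) + 1 / (2 * l) * M.Ex U σ₀ (G ^ 2) := by
  rw [← smul_eq_mul (l / 2), ← smul_eq_mul (1 / (2 * l)), ← map_smul, ← map_smul, ← map_add]
  refine M.Ex_mono U σ₀ fun σ => ?_
  simp only [ContinuousMap.mul_apply, ContinuousMap.add_apply, ContinuousMap.smul_apply,
    ContinuousMap.pow_apply, smul_eq_mul]
  have h : l / 2 * F σ ^ 2 + 1 / (2 * l) * G σ ^ 2 - F σ * G σ =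
      (l * F σ - G σ) ^ 2 / (2 * l) := by field_simp; ring
  have h' : 0 ≤ (l * F σ - G σ) ^ 2 / (2 * l) := by positivity
  linarith

theorem neg_Ex_mul_le (F G : CF k V) {l : ℝ} (hl : 0 < l) :
    -M.Ex U σ₀ (F * G) ≤ l / 2 * M.Ex U σ₀ (F ^ 2) + 1 / (2 * l) * M.Ex U σ₀ (G ^ 2) := by
  have := Ex_mul_le M U σ₀ F (-G) hl
  rwa [mul_neg, map_neg, neg_sq] at this

/-- Sums of almost orthogonal functions. -/
theorem Ex_sum_sq_le (R : Finset (ℤ × ℤ)) (s : ℤ × ℤ → CF k V)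
    (h : ∀ r ∈ R, ∀ r' ∈ R, (1 < |r'.1 - r.1| ∨ 1 < |r'.2 - r.2|) →
      M.Ex U σ₀ (s r * s r') = 0) :
    M.Ex U σ₀ ((∑ r ∈ R, s r) ^ 2) ≤ 9 * ∑ r ∈ R, M.Ex U σ₀ (s r ^ 2) := by
  set e : ℤ × ℤ → ℝ := fun r => M.Ex U σ₀ (s r ^ 2) with he
  have he0 : ∀ r, 0 ≤ e r := fun r => M.Ex_sq_nonneg U σ₀ _
  set far : ℤ × ℤ → ℤ × ℤ → Prop := fun r r' => 1 < |r'.1 - r.1| ∨ 1 < |r'.2 - r.2| with hfar
  have hsymm : ∀ r r', far r r' ↔ far r' r := fun r r' => by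
    simp only [hfar, abs_sub_comm r'.1, abs_sub_comm r'.2]
  have h1 : ∑ r ∈ R, ∑ r' ∈ R, (if ¬far r r' then e r else 0) ≤ 9 * ∑ r ∈ R, e r := by
    rw [mul_sum]
    refine sum_le_sum fun r _ => ?_
    rw [← sum_filter, sum_const, nsmul_eq_mul]
    refine mul_le_mul_of_nonneg_right ?_ (he0 r)
    exact_mod_cast card_near R r
  have h2 : ∑ r ∈ R, ∑ r' ∈ R, (if ¬far r r' then e r' else 0) ≤ 9 * ∑ r ∈ R, e r := by
    rw [sum_comm]
    simpa only [hsymm] using h1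
  have h3 : M.Ex U σ₀ ((∑ r ∈ R, s r) ^ 2) ≤ ∑ r ∈ R, ∑ r' ∈ R,
      (1 / 2 * (if ¬far r r' then e r else 0) + 1 / 2 * (if ¬far r r' then e r' else 0)) := by
    rw [sq, sum_mul_sum, map_sum]
    refine sum_le_sum fun r hr => ?_
    rw [map_sum]
    refine sum_le_sum fun r' hr' => ?_
    by_cases hf : far r r'
    · simp [h r hr r' hr' hf, hf]
    · have := Ex_mul_le M U σ₀ (s r) (s r') one_pos
      simp only [hf, not_false_eq_true, if_true]
      linarith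
  simp only [sum_add_distrib, ← mul_sum] at h3
  linarith

theorem rst_ne_zero {W : Finset (ℤ × ℤ)} {a : Ed → ℝ} {e : Ed} (h : M.rst W a e ≠ 0) :
    M.pos (M.s e) ∈ W := by
  by_contra hc
  exact h (by simp [Model.rst, hc])

theorem abs_rst_le {W : Finset (ℤ × ℤ)} {a : Ed → ℝ} (h : ∀ e, |a e| ≤ 1) (e : Ed) :
    |M.rst W a e| ≤ 1 := by
  unfold Model.rst
  split_ifs
  · exact h e
  · simp

theorem sum_rst_sq_le {W : Finset (ℤ × ℤ)} {a : Ed → ℝ} (h : ∀ e, |a e| ≤ 1) :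
    ∑ e, M.rst W a e ^ 2 ≤ 2 * W.card := by
  simpa using M.sum_sq_le (W := W) (μ := 1) (fun e => rst_ne_zero M) (abs_rst_le M h)

theorem av_mem {φ : ℤ × ℤ → ℝ} (h0 : ∀ z, 0 ≤ φ z) (h1 : ∀ z, φ z ≤ 1) (e : Ed) :
    0 ≤ M.av (fun v => φ (M.pos v)) e ∧ M.av (fun v => φ (M.pos v)) e ≤ 1 := by
  unfold Model.av
  constructor
  · have := h0 (M.pos (M.s e)); have := h0 (M.pos (M.t e)); positivity
  · have := h1 (M.pos (M.s e)); have := h1 (M.pos (M.t e)); linarith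

theorem abs_mul_ω_le {c : ℝ} (h0 : 0 ≤ c) (h1 : c ≤ 1) (e : Ed) : |c * M.ω e| ≤ 1 := by
  rw [abs_mul, abs_of_nonneg h0]
  exact mul_le_one₀ h1 (abs_nonneg _) (M.abs_ω_le e)

end StepA

open StepA in
theorem stepStmt_of (hG : GeoStmt) (hS : ScoreStmt) (hGa : GainStmt) (hT : TBStmt) :
    StepStmt := by
  intro k β ε hβ hε
  obtain ⟨Cs, hCs, hS⟩ := hS k
  obtain ⟨Cg, hCg, hGa⟩ := hGa k
  -- choice of the constants
  obtain ⟨m, hm2, hm⟩ : ∃ m : ℕ, 2 ≤ m ∧ (Cg + 384) * β ≤ ε / 3 * m := by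
    refine ⟨⌈3 * ((Cg + 384) * β) / ε⌉₊ + 2, by omega, ?_⟩
    have := Nat.le_ceil (3 * ((Cg + 384) * β) / ε)
    rw [div_le_iff₀ hε] at this
    push_cast
    nlinarith
  obtain ⟨K, hK1, hK⟩ : ∃ K : ℕ, 1 ≤ K ∧ Cg * β * √β * m ≤ ε / 3 * √K := by
    refine ⟨⌈(3 * (Cg * β * √β * m) / ε) ^ 2⌉₊ + 1, by omega, ?_⟩
    have h1 := Nat.le_ceil ((3 * (Cg * β * √β * m) / ε) ^ 2)
    have h2 : 3 * (Cg * β * √β * m) / ε ≤
        √((⌈(3 * (Cg * β * √β * m) / ε) ^ 2⌉₊ + 1 : ℕ) : ℝ) := by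
      refine Real.le_sqrt_of_sq_le ?_
      push_cast; linarith
    rw [div_le_iff₀ hε] at h2
    linarith
  have hm0 : (0 : ℝ) < m := by exact_mod_cast (by omega : 0 < m)
  have hK0 : (0 : ℝ) < K := by exact_mod_cast (by omega : 0 < K)
  set κ : ℝ := 576 * β ^ 2 / ε with hκ
  have hκ0 : 0 < κ := by positivity
  set C₃ : ℝ := Cs * (β ^ 2 * K * m ^ 2 + 48 * β + 96 * β ^ 2 * K * m ^ 2 / κ) with hC₃
  have hC₃0 : 0 < C₃ := by positivity
  refine ⟨K * m, ε ^ 2 / (324 * C₃), κ, Nat.mul_pos hK1 (by omega), by positivity, hκ0, ?_⟩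
  intro V Ed _ _ _ M U σ₀ ℓ W A hℓ hW hMar hA hbd hD
  have hp1 : 1 ≤ m * ℓ := Nat.mul_pos (by omega) hℓ
  have hq1 : 1 ≤ K * m * ℓ := Nat.mul_pos (Nat.mul_pos hK1 (by omega)) hℓ
  have hpq : m * ℓ ∣ K * m * ℓ := ⟨K, by ring⟩
  have hℓp : ℓ ∣ m * ℓ := Dvd.intro_left m rfl
  have hℓq : ℓ ∣ K * m * ℓ := Dvd.intro_left _ rfl
  have hW' : Sat (m * ℓ) (K * m * ℓ) W := hW.of_dvd hpq dvd_rfl
  set R := W.image (cell (m * ℓ) (K * m * ℓ)) with hR
  have hsub : ∀ r ∈ R, rect (m * ℓ) (K * m * ℓ) r ⊆ W := fun r hr => hW'.rect_subset hp1 hq1 hr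
  have hℓ0 : (0 : ℝ) < ℓ := by exact_mod_cast hℓ
  set x : ℝ := R.card * ℓ ^ 2 with hx
  set y : ℝ := ℓ ^ 2 * M.bd U with hy
  have hx0 : 0 ≤ x := by positivity
  have hy0 : 0 ≤ y := by positivity
  have hxA : K * m ^ 2 * x ≤ A := by
    have := hW'.card_image hp1 hq1
    rw [← hR] at this
    have h2 : (W.card : ℝ) = K * m ^ 2 * x := by rw [← this, hx]; push_cast; ring
    linarith
  have hyA : κ * y ≤ A := by rw [hy, ← mul_assoc]; exact hbd
  choose φ χ lay hB using hG ℓ m K hℓ hm2 hK1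
  set j : Fin 3 → CF k V := fun c => M.ce (M.Lam ℓ ℓ W) (M.J (L k c) (M.rst W M.ω)) with hj
  set j' : Fin 3 → CF k V := fun c =>
    M.ce (M.Lam (K * m * ℓ) (K * m * ℓ) W) (M.J (L k c) (M.rst W M.ω)) with hj'
  set s : Fin 3 → Fin 3 → ℤ × ℤ → CF k V := fun B C' r => M.score (M.Lam ℓ ℓ W) (L k B) (L k C')
    (fun v => φ r (M.pos v)) (fun v => χ r (M.pos v)) with hs
  set D : ℝ := M.Dst U σ₀ ℓ W - M.Dst U σ₀ (K * m * ℓ) W with hDdef
  have hDeq : D = ∑ c : Fin 3, M.Ex U σ₀ ((j c - j' c) ^ 2) :=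
    M.Dst_sub σ₀ hℓq (Model.Mar.Lam_subset M hMar _ _)
  have hDc : ∀ c, M.Ex U σ₀ ((j c - j' c) ^ 2) ≤ D := fun c => by
    rw [hDeq]
    exact single_le_sum (f := fun c => M.Ex U σ₀ ((j c - j' c) ^ 2))
      (fun c _ => M.Ex_sq_nonneg U σ₀ _) (mem_univ c)
  have hSr := fun r (hr : r ∈ R) =>
    hS β hβ V Ed M U σ₀ ℓ m K W r (φ r) (χ r) (lay r) hℓ hm2 hK1 hMar (hsub r hr) (hB r)
  -- the transverse budget of the cells
  have hT1 : ∀ c : Fin 3, ∑ r ∈ R, M.Ex U σ₀ (M.J (L k c) (M.rst (rect (m * ℓ) (K * m * ℓ) r)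
      fun e => M.av (fun v => φ r (M.pos v)) e * M.ω e) ^ 2) ≤
      8 * β * (2 * (K * m ^ 2 * ℓ ^ 2)) * (R.card + 2 * β * M.bd U) := by
    intro c
    refine hT k β hβ V Ed M U σ₀ c (ℤ × ℤ) R _ _ (by positivity) ?_ ?_ ?_
    · intro r _ r' _ hne e
      by_contra hc
      obtain ⟨h1, h2⟩ := mul_ne_zero_iff.mp hc
      exact hne (((mem_rect_iff_cell hp1 hq1).mp (rst_ne_zero M h1)).symm.trans
        ((mem_rect_iff_cell hp1 hq1).mp (rst_ne_zero M h2)))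
    · intro r hr e he
      exact Model.Mar.ends M hMar hq1 (hsub r hr (rst_ne_zero M he))
    · intro r _
      refine (sum_rst_sq_le M fun e => ?_).trans (le_of_eq ?_)
      · have := av_mem M (hB r).φ0 (hB r).φ1 e
        exact abs_mul_ω_le M this.1 this.2 e
      · rw [card_rect]; push_cast; ring
  -- second moment of the total score
  have hS2 : ∀ B C' : Fin 3, B ≠ C' → M.Ex U σ₀ ((∑ r ∈ R, s B C' r) ^ 2) ≤ 9 * (C₃ * A) := by
    intro B C' hne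
    refine (Ex_sum_sq_le M U σ₀ R (s B C') fun r hr r' hr' hf =>
      (hSr r' hr' B C' hne).1 _ ((hSr r hr B C' hne).2.1 r' hf)).trans ?_
    refine mul_le_mul_of_nonneg_left ?_ (by norm_num)
    refine (sum_le_sum fun r hr => (hSr r hr B C' hne).2.2).trans ?_
    rw [sum_add_distrib, sum_const, nsmul_eq_mul, ← mul_sum R _ Cs, sum_comm]
    have h1 := sum_le_sum fun c (_ : c ∈ (univ : Finset (Fin 3))) => hT1 c
    rw [sum_const, card_univ, Fintype.card_fin, nsmul_eq_mul] at h1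
    have h2 : (R.card : ℝ) * (Cs * (β * K * m ^ 2 * ℓ) ^ 2) +
        Cs * ((3 : ℕ) * (8 * β * (2 * (K * m ^ 2 * ℓ ^ 2)) * (R.card + 2 * β * M.bd U))) =
        Cs * ((β ^ 2 * K * m ^ 2 + 48 * β) * (K * m ^ 2 * x) +
          96 * β ^ 2 * K * m ^ 2 / κ * (κ * y)) := by
      rw [hx, hy]; push_cast; field_simp; ring
    have h3 : Cs * ((β ^ 2 * K * m ^ 2 + 48 * β) * (K * m ^ 2 * x) +
          96 * β ^ 2 * K * m ^ 2 / κ * (κ * y)) ≤ C₃ * A := by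
      rw [hC₃, mul_assoc Cs, add_mul _ _ A]
      gcongr
    have h4 := mul_le_mul_of_nonneg_left h1 hCs.le
    exact (add_le_add le_rfl h4).trans (h2.le.trans h3)
  -- the pairing of the current with the total score
  set l : ℝ := 54 * C₃ / ε with hl
  have hl0 : 0 < l := by positivity
  have hpair : ∀ c B C' : Fin 3, B ≠ C' →
      ∑ r ∈ R, M.Ex U σ₀ (j c * s B C' r) = M.Ex U σ₀ ((j c - j' c) * ∑ r ∈ R, s B C' r) := by
    intro c B C' hne
    rw [mul_sum, map_sum]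
    refine sum_congr rfl fun r hr => ?_
    rw [sub_mul, map_sub, (hSr r hr B C' hne).1 (j' c)
      ((indep_cE _ _ _).mono (M.Lam_mono hpq dvd_rfl (hsub r hr))), sub_zero]
  have hbound : ∀ c B C' : Fin 3, B ≠ C' → l / 2 * M.Ex U σ₀ ((j c - j' c) ^ 2) +
      1 / (2 * l) * M.Ex U σ₀ ((∑ r ∈ R, s B C' r) ^ 2) ≤ l / 2 * D + ε * A / 12 := by
    intro c B C' hne
    have h1 : 1 / (2 * l) * (9 * (C₃ * A)) = ε * A / 12 := by rw [hl]; field_simp; ring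
    rw [← h1]
    have := hDc c
    have := hS2 B C' hne
    gcongr
  have hup : ∑ r ∈ R, ∑ c : Fin 3, (M.Ex U σ₀ (j c * s (c + 1) (c + 2) r) -
      M.Ex U σ₀ (j (c + 1) * s c (c + 2) r)) ≤ 3 * l * D + ε * A / 2 := by
    rw [sum_comm]
    have h1 : ∀ c : Fin 3, ∑ r ∈ R, (M.Ex U σ₀ (j c * s (c + 1) (c + 2) r) -
        M.Ex U σ₀ (j (c + 1) * s c (c + 2) r)) ≤ l * D + ε * A / 6 := by
      intro c
      have n1 : c + 1 ≠ c + 2 := by revert c; decide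
      have n2 : c ≠ c + 2 := by revert c; decide
      rw [sum_sub_distrib, hpair _ _ _ n1, hpair _ _ _ n2]
      have e1 := (Ex_mul_le M U σ₀ _ _ hl0).trans (hbound c _ _ n1)
      have e2 := (neg_Ex_mul_le M U σ₀ _ _ hl0).trans (hbound (c + 1) _ _ n2)
      linarith
    refine (sum_le_sum fun c _ => h1 c).trans (le_of_eq ?_)
    rw [sum_const, card_univ, Fintype.card_fin, nsmul_eq_mul]; push_cast; ring
  -- the transverse budget of the boundary layers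
  have hT2 : ∀ c : Fin 3, ∑ r ∈ R, ∑ B ∈ lay r, M.Ex U σ₀ (M.J (L k c) (M.rst (rect ℓ ℓ B)
      fun e => (1 - M.av (fun v => φ r (M.pos v)) e) * M.ω e) ^ 2) ≤
      8 * β * (2 * ℓ ^ 2) * (R.card * (4 * K * m) + 2 * β * M.bd U) := by
    intro c
    have h1 := hT k β hβ V Ed M U σ₀ c (Σ _ : ℤ × ℤ, ℤ × ℤ) (R.sigma lay)
      (fun i => M.rst (rect ℓ ℓ i.2) fun e => (1 - M.av (fun v => φ i.1 (M.pos v)) e) * M.ω e)
      (2 * ℓ ^ 2) (by positivity) ?_ ?_ ?_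
    · rw [sum_sigma] at h1
      refine h1.trans ?_
      have h2 : ((R.sigma lay).card : ℝ) ≤ R.card * (4 * K * m) := by
        rw [card_sigma]
        have := sum_le_card_nsmul R (fun r => (lay r).card) (4 * K * m)
          fun r _ => (hB r).lay_card
        rw [smul_eq_mul] at this
        exact_mod_cast this
      gcongr
    · rintro ⟨r, B⟩ hi ⟨r', B'⟩ hi' hne e
      by_contra hc
      obtain ⟨h1, h2⟩ := mul_ne_zero_iff.mp hc
      have h3 := rst_ne_zero M h1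
      have h4 := rst_ne_zero M h2
      have e1 : B = B' := ((mem_rect_iff_cell hℓ hℓ).mp h3).symm.trans
        ((mem_rect_iff_cell hℓ hℓ).mp h4)
      have e2 : r = r' :=
        ((mem_rect_iff_cell hp1 hq1).mp ((hB r).lay_sub B (mem_sigma.mp hi).2 h3)).symm.trans
          ((mem_rect_iff_cell hp1 hq1).mp ((hB r').lay_sub B' (mem_sigma.mp hi').2 h4))
      exact hne (by rw [e1, e2])
    · rintro ⟨r, B⟩ hi e he
      exact Model.Mar.ends M hMar hq1 (hsub r (mem_sigma.mp hi).1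
        ((hB r).lay_sub B (mem_sigma.mp hi).2 (rst_ne_zero M he)))
    · rintro ⟨r, B⟩ _
      refine (sum_rst_sq_le M fun e => ?_).trans (le_of_eq ?_)
      · have := av_mem M (hB r).φ0 (hB r).φ1 e
        exact abs_mul_ω_le M (by linarith [this.2]) (by linarith [this.1]) e
      · rw [card_rect]; push_cast; ring
  -- sum of the gains
  have hlow := sum_le_sum fun r (hr : r ∈ R) =>
    hGa β hβ V Ed M U σ₀ ℓ m K W r (φ r) (χ r) (lay r) hℓ hm2 hK1 hMar (hsub r hr) (hB r)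
  have hlow' := hlow.trans hup
  rw [sum_sub_distrib, sum_sub_distrib, ← mul_sum R _ 2, ← mul_sum R _ 2, sum_const, nsmul_eq_mul,
    ← M.Dst_sum σ₀ hp1 hq1 hℓp hℓq hW', sum_comm] at hlow'
  have h1 := sum_le_sum fun c (_ : c ∈ (univ : Finset (Fin 3))) => hT2 c
  rw [sum_const, card_univ, Fintype.card_fin, nsmul_eq_mul] at h1
  have h2 : (R.card : ℝ) * (Cg * (β * K * m + β * √β * √K * m ^ 3) * ℓ ^ 2) +
      2 * ((3 : ℕ) * (8 * β * (2 * ℓ ^ 2) * (R.card * (4 * K * m) + 2 * β * M.bd U))) =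
      (Cg + 384) * β * (K * m * x) + Cg * β * √β * m * (√K * m ^ 2 * x) + ε / 3 * (κ * y) := by
    rw [hx, hy, hκ]; push_cast; field_simp; ring
  have h3 : (Cg + 384) * β * (K * m * x) ≤ ε / 3 * A := by
    calc (Cg + 384) * β * (K * m * x) ≤ ε / 3 * m * (K * m * x) := by gcongr
      _ = ε / 3 * (K * m ^ 2 * x) := by ring
      _ ≤ ε / 3 * A := by gcongr
  have h4 : Cg * β * √β * m * (√K * m ^ 2 * x) ≤ ε / 3 * A := by
    calc Cg * β * √β * m * (√K * m ^ 2 * x) ≤ ε / 3 * √K * (√K * m ^ 2 * x) := by gcongr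
      _ = ε / 3 * ((√K * √K) * m ^ 2 * x) := by ring
      _ = ε / 3 * (K * m ^ 2 * x) := by rw [Real.mul_self_sqrt hK0.le]
      _ ≤ ε / 3 * A := by gcongr
  have h5 : ε / 3 * (κ * y) ≤ ε / 3 * A := by gcongr
  have h6 : ε * A / 2 ≤ 3 * l * D := by
    have key : ∀ a b c d e f g t : ℝ, 2 * a - b - 2 * c ≤ t + ε * A / 2 → c ≤ d →
        b + 2 * d = e + f + g → e ≤ ε / 3 * A → f ≤ ε / 3 * A → g ≤ ε / 3 * A → ε * A ≤ a →
        ε * A / 2 ≤ t := by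
      intros; linarith
    exact key _ _ _ _ _ _ _ _ hlow' h1 h2 h3 h4 h5 hD
  have h7 : ε ^ 2 / (324 * C₃) * A ≤ D := by
    have e : ε ^ 2 / (324 * C₃) * A = (ε * A / 2) / (3 * l) := by rw [hl]; field_simp; ring
    rw [e, div_le_iff₀ (by positivity)]
    linarith
  linarith

end Crest.Agent.R167
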