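import Crest.Agent.R167.Basic

/-!
# Row 167: the transverse budget
-/

set_option autoImplicit false
set_option linter.unusedSectionVars false

namespace Crest.Agent.R167

open MeasureTheory Finset
open scoped InnerProductSpace

namespace TBA

lemma gauss_shift {b : ℝ} (hb : 0 < b) (x : ℝ) :
    ∫ t : ℝ, Real.exp (t * x - b * t ^ 2) = √(Real.pi / b) * Real.exp (x ^ 2 / (4 * b)) := by
  have h : ∀ t : ℝ, Real.exp (t * x - b * t ^ 2) =
      Real.exp (-b * (t - x / (2 * b)) ^ 2) * Real.exp (x ^ 2 / (4 * b)) := by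
    intro t
    rw [← Real.exp_add]
    congr 1
    field_simp
    ring
  simp_rw [h]
  rw [integral_mul_const, integral_sub_right_eq_self (fun t : ℝ => Real.exp (-b * t ^ 2)),
    integral_gaussian]

variable {k : ℕ} {V : Type} [Fintype V] [DecidableEq V]

lemma integrable_cont {f : Ω k V → ℝ} (hf : Continuous f) : Integrable f (ν k V) :=
  integrable_CF ⟨f, hf⟩

/-- One Hubbard-Stratonovich step. -/
lemma hs_step (G X : CF k V) (hG : ∀ σ, 0 ≤ G σ) {A c : ℝ} (hc : 0 < c)
    (h : ∀ t : ℝ, ∫ σ, G σ * Real.exp (t * X σ) ∂ν k V ≤ A * Real.exp (c * t ^ 2)) :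
    ∫ σ, G σ * Real.exp (X σ ^ 2 / (8 * c)) ∂ν k V ≤ Real.exp 1 * A := by
  let f : ℝ → Ω k V → ℝ := fun t σ => G σ * Real.exp (t * X σ - 2 * c * t ^ 2)
  have hf : Continuous (Function.uncurry f) := by
    change Continuous fun p : ℝ × Ω k V => G p.2 * Real.exp (p.1 * X p.2 - 2 * c * p.1 ^ 2)
    fun_prop
  have hf0 : ∀ t σ, 0 ≤ f t σ := fun t σ => mul_nonneg (hG σ) (Real.exp_pos _).le
  have hin : ∀ t, ∫ σ, f t σ ∂ν k V ≤ A * Real.exp (-c * t ^ 2) := by
    intro t
    have : ∀ σ, f t σ = G σ * Real.exp (t * X σ) * Real.exp (-(2 * c * t ^ 2)) := fun σ => by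
      simp only [f]; rw [sub_eq_add_neg, Real.exp_add, ← mul_assoc]
    simp_rw [this]
    rw [integral_mul_const]
    refine (mul_le_mul_of_nonneg_right (h t) (Real.exp_pos _).le).trans (le_of_eq ?_)
    rw [mul_assoc, ← Real.exp_add]
    congr 2; ring
  have hA : 0 ≤ A := by
    have h0 := h 0
    simp only [zero_mul, Real.exp_zero, mul_one, ne_eq, OfNat.ofNat_ne_zero, not_false_eq_true,
      zero_pow, mul_zero] at h0
    exact (integral_nonneg hG).trans h0
  have hbd : Integrable fun t : ℝ => A * Real.exp (-c * t ^ 2) :=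
    (integrable_exp_neg_mul_sq hc).const_mul A
  have hint : Integrable (Function.uncurry f) (volume.prod (ν k V)) := by
    rw [integrable_prod_iff hf.aestronglyMeasurable]
    refine ⟨Filter.Eventually.of_forall fun t => integrable_cont
      (hf.comp (Continuous.prodMk_right t)), ?_⟩
    refine hbd.mono' hf.aestronglyMeasurable.norm.integral_prod_right'
      (Filter.Eventually.of_forall fun t => ?_)
    have : ∀ σ, ‖Function.uncurry f (t, σ)‖ = f t σ := fun σ => Real.norm_of_nonneg (hf0 t σ)
    simp_rw [this]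
    rw [Real.norm_of_nonneg (integral_nonneg (hf0 t))]
    exact hin t
  have hswap := integral_integral_swap hint
  have h1 : ∫ t, ∫ σ, f t σ ∂ν k V ≤ A * √(Real.pi / c) := by
    refine (integral_mono hint.integral_prod_left hbd hin).trans (le_of_eq ?_)
    rw [integral_const_mul, integral_gaussian]
  have h2 : ∀ σ, ∫ t, f t σ =
      G σ * Real.exp (X σ ^ 2 / (8 * c)) * √(Real.pi / (2 * c)) := by
    intro σ
    simp only [f]
    rw [integral_const_mul, gauss_shift (by positivity : 0 < 2 * c),
      show 4 * (2 * c) = 8 * c by ring]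
    ring
  rw [hswap] at h1
  simp_rw [h2] at h1
  rw [integral_mul_const] at h1
  have hpos : 0 < √(Real.pi / (2 * c)) := Real.sqrt_pos.mpr (by positivity)
  refine le_of_mul_le_mul_right (h1.trans ?_) hpos
  have h3 : √(Real.pi / c) ≤ Real.exp 1 * √(Real.pi / (2 * c)) := by
    have e2 : (2 : ℝ) ≤ Real.exp 1 := by linarith [Real.add_one_le_exp 1]
    refine le_trans ?_ (mul_le_mul_of_nonneg_right e2 hpos.le)
    rw [Real.sqrt_le_iff]
    refine ⟨by positivity, ?_⟩
    rw [mul_pow, Real.sq_sqrt (by positivity)]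
    have : 2 ^ 2 * (Real.pi / (2 * c)) = 2 * (Real.pi / c) := by field_simp
    rw [this]
    have : 0 ≤ Real.pi / c := by positivity
    linarith
  calc A * √(Real.pi / c) ≤ A * (Real.exp 1 * √(Real.pi / (2 * c))) :=
        mul_le_mul_of_nonneg_left h3 hA
    _ = _ := by ring

lemma hs_multi {ι : Type} (X : ι → CF k V) {c : ℝ} (hc : 0 < c) (I : Finset ι) :
    ∀ (G : CF k V) (A : ℝ), (∀ σ, 0 ≤ G σ) →
    (∀ t : ι → ℝ, ∫ σ, G σ * Real.exp (∑ i ∈ I, t i * X i σ) ∂ν k V ≤
      A * Real.exp (c * ∑ i ∈ I, t i ^ 2)) →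
    ∫ σ, G σ * Real.exp (∑ i ∈ I, X i σ ^ 2 / (8 * c)) ∂ν k V ≤ Real.exp I.card * A := by
  classical
  induction I using Finset.induction_on with
  | empty => intro G A _ h; simpa using h 0
  | insert j I hj ih =>
    intro G A hG h
    let G' : CF k V := ⟨fun σ => G σ * Real.exp (∑ i ∈ I, X i σ ^ 2 / (8 * c)), by fun_prop⟩
    have key := hs_step G' (X j) (fun σ => mul_nonneg (hG σ) (Real.exp_pos _).le)
      (A := Real.exp I.card * A) hc (fun s => by
        let G'' : CF k V := ⟨fun σ => G σ * Real.exp (s * X j σ), by fun_prop⟩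
        have := ih G'' (A * Real.exp (c * s ^ 2))
          (fun σ => mul_nonneg (hG σ) (Real.exp_pos _).le) (fun t => by
            have h1 := h (Function.update t j s)
            have e1 : ∀ σ, ∑ i ∈ insert j I, Function.update t j s i * X i σ =
                s * X j σ + ∑ i ∈ I, t i * X i σ := fun σ => by
              rw [Finset.sum_insert hj, Function.update_self]
              congr 1
              exact Finset.sum_congr rfl fun i hi => by
                rw [Function.update_of_ne (ne_of_mem_of_not_mem hi hj)]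
            have e2 : ∑ i ∈ insert j I, Function.update t j s i ^ 2 =
                s ^ 2 + ∑ i ∈ I, t i ^ 2 := by
              rw [Finset.sum_insert hj, Function.update_self]
              congr 1
              exact Finset.sum_congr rfl fun i hi => by
                rw [Function.update_of_ne (ne_of_mem_of_not_mem hi hj)]
            simp_rw [e1, e2, mul_add, Real.exp_add, ← mul_assoc] at h1
            exact h1)
        rw [mul_assoc (Real.exp _)]
        refine le_trans (le_of_eq ?_) this
        congr 1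
        funext σ
        simp only [G', G'', ContinuousMap.coe_mk]
        ring)
    rw [Finset.card_insert_of_notMem hj, Nat.cast_add, Nat.cast_one, add_comm (I.card : ℝ) 1, Real.exp_add,
      mul_assoc]
    refine le_trans (le_of_eq ?_) key
    congr 1
    funext σ
    simp only [G', ContinuousMap.coe_mk]
    rw [Finset.sum_insert hj, Real.exp_add]
    ring

variable {β : ℝ} {Ed : Type} [Fintype Ed] (M : Model β V Ed)

lemma keep_bil (P : Ed → Prop) [DecidablePred P] (A : E k →L[ℝ] E k) (a : Ed → ℝ) :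
    (M.keep P).bil k A a = M.bil k A fun e => if P e then a e else 0 := by
  ext σ
  rw [Model.bil_apply, Model.bil_apply]
  refine Finset.sum_congr rfl fun e _ => ?_
  simp only [Model.keep]
  split_ifs <;> simp

/-- Comparison of the Gibbs measure in `U` with the free one. -/
lemma cE_le_of_bdd {H₀ H₁ F : CF k V} {U : Finset V} (σ₀ : Ω k V) {b : ℝ}
    (hb : ∀ σ, |H₁ σ| ≤ b) (hF : ∀ σ, 0 ≤ F σ) :
    cE (H₀ + H₁) U F σ₀ ≤ Real.exp (2 * b) * cE H₀ U F σ₀ := by
  rw [cE_apply, cE_apply]
  have h1 : pint U (F * cexp (H₀ + H₁)) σ₀ ≤ Real.exp b * pint U (F * cexp H₀) σ₀ := by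
    have := pint_mono U (F := F * cexp (H₀ + H₁)) (G := Real.exp b • (F * cexp H₀)) (fun σ => by
      simp only [ContinuousMap.mul_apply, cexp_apply, ContinuousMap.add_apply,
        ContinuousMap.smul_apply, smul_eq_mul, Real.exp_add]
      have := Real.exp_le_exp.mpr (abs_le.mp (hb σ)).2
      have h3 : 0 ≤ F σ * Real.exp (H₀ σ) := mul_nonneg (hF σ) (Real.exp_pos _).le
      nlinarith) σ₀
    simpa using this
  have h2 : Real.exp (-b) * pint U (cexp H₀) σ₀ ≤ pint U (cexp (H₀ + H₁)) σ₀ := by
    have := pint_mono U (F := Real.exp (-b) • cexp H₀) (G := cexp (H₀ + H₁)) (fun σ => by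
      simp only [cexp_apply, ContinuousMap.add_apply, ContinuousMap.smul_apply, smul_eq_mul,
        Real.exp_add]
      have := Real.exp_le_exp.mpr (abs_le.mp (hb σ)).1
      have h3 := Real.exp_pos (H₀ σ)
      nlinarith) σ₀
    simpa using this
  have h3 : 0 ≤ pint U (F * cexp H₀) σ₀ :=
    pint_nonneg U (fun σ => mul_nonneg (hF σ) (Real.exp_pos _).le) σ₀
  have h4 := pint_cexp_pos U H₀ σ₀
  refine (div_le_div₀ (by positivity) h1 (by positivity) h2).trans (le_of_eq ?_)
  rw [two_mul, Real.exp_add, Real.exp_neg]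
  field_simp

end TBA

open TBA in
theorem tbStmt_of (h : ExpStmt) : TBStmt := by
  classical
  intro k β hβ V Ed _ _ _ M U σ₀ c ι I a w hw hdisj hsupp hsum
  let P : Ed → Prop := fun e => M.s e ∈ U ∧ M.t e ∈ U
  let M₀ := M.keep P
  let H₀ : CF k V := M.bil k 1 fun e => if P e then 1 else 0
  let H₁ : CF k V := M.bil k 1 fun e => if ¬(M.s e ∈ U ↔ M.t e ∈ U) then 1 else 0
  have hH₀ : M₀.H k = H₀ := keep_bil M P 1 1
  have hc : 0 < β * w := mul_pos hβ hw
  -- the free exponential moments
  have hexp : ∀ t : ι → ℝ, ∫ σ, cexp H₀ σ * Real.exp (∑ i ∈ I, t i * M.J (L k c) (a i) σ) ∂ν k V ≤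
      (∫ σ, Real.exp (H₀ σ) ∂ν k V) * Real.exp (β * w * ∑ i ∈ I, t i ^ 2) := by
    intro t
    have h1 := h k β hβ V Ed M₀ c (∑ i ∈ I, t i • a i)
    have hJ : M₀.J (L k c) (∑ i ∈ I, t i • a i) = ∑ i ∈ I, t i • M.J (L k c) (a i) := by
      rw [Model.J, keep_bil]
      have : (fun e => if P e then (∑ i ∈ I, t i • a i) e else 0) = ∑ i ∈ I, t i • a i := by
        funext e
        split_ifs with he
        · rfl
        · rw [Finset.sum_apply]
          refine (Finset.sum_eq_zero fun i hi => ?_).symm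
          have : a i e = 0 := by by_contra h0; exact he (hsupp i hi e h0)
          simp [this]
      rw [this, M.bil_sum]
      exact Finset.sum_congr rfl fun i _ => M.bil_smul _ _ _
    have hsq : ∑ e, (∑ i ∈ I, t i • a i) e ^ 2 ≤ w * ∑ i ∈ I, t i ^ 2 := by
      have : ∀ e, (∑ i ∈ I, t i • a i) e ^ 2 = ∑ i ∈ I, t i ^ 2 * a i e ^ 2 := by
        intro e
        rw [Finset.sum_apply, sq, Finset.sum_mul_sum]
        refine Finset.sum_congr rfl fun i hi => ?_
        rw [Finset.sum_eq_single i]
        · simp only [Pi.smul_apply, smul_eq_mul]; ring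
        · intro j hj hji
          have := hdisj i hi j hj (Ne.symm hji) e
          simp only [Pi.smul_apply, smul_eq_mul]
          linear_combination (t i * t j) * this
        · intro hi'; exact absurd hi hi'
      simp_rw [this]
      rw [Finset.sum_comm, Finset.mul_sum]
      refine Finset.sum_le_sum fun i hi => ?_
      rw [← Finset.mul_sum, mul_comm w]
      exact mul_le_mul_of_nonneg_left (hsum i hi) (sq_nonneg _)
    rw [hH₀, hJ] at h1
    refine le_trans (le_of_eq ?_) (h1.trans ?_)
    · congr 1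
      funext σ
      simp [Real.exp_add]
    · rw [mul_comm]
      refine mul_le_mul_of_nonneg_left (Real.exp_le_exp.mpr ?_)
        (integral_nonneg fun σ => (Real.exp_pos _).le)
      rw [mul_assoc]
      exact mul_le_mul_of_nonneg_left hsq hβ.le
  have hHS := hs_multi (fun i => M.J (L k c) (a i)) hc I (cexp H₀) _
    (fun σ => (Real.exp_pos _).le) hexp
  let Y : CF k V := (1 / (8 * (β * w))) • ∑ i ∈ I, M.J (L k c) (a i) ^ 2
  have hY : ∀ σ, Y σ = ∑ i ∈ I, M.J (L k c) (a i) σ ^ 2 / (8 * (β * w)) := by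
    intro σ
    simp only [Y, ContinuousMap.smul_apply, ContinuousMap.coe_sum, Finset.sum_apply,
      ContinuousMap.pow_apply, smul_eq_mul, Finset.mul_sum]
    exact Finset.sum_congr rfl fun i _ => by ring
  have hi₀ : Indep Uᶜ H₀ := M.indep_bil 1 fun e he => by
    have : P e := by by_contra h0; simp [h0] at he
    simpa using this
  have hiY : Indep Uᶜ Y := Indep.smul _ (indep_sum I fun i hi =>
    Indep.pow (M.indep_bil _ fun e he => by simpa using hsupp i hi e he) 2)
  have hfree : cE H₀ U (cexp Y) σ₀ ≤ Real.exp I.card := by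
    rw [cE_apply, div_le_iff₀ (pint_cexp_pos U H₀ σ₀), pint_eq_integral (hiY.cexp.mul hi₀.cexp),
      pint_eq_integral hi₀.cexp]
    refine le_trans (le_of_eq ?_) hHS
    congr 1
    funext σ
    simp only [ContinuousMap.mul_apply, cexp_apply, hY]
    ring
  have hcongr : cE (M.H k) U = cE (H₀ + H₁) U := by
    apply cE_congr_H
    have : M.H k - (H₀ + H₁) = M.bil k 1 fun e => if M.s e ∉ U ∧ M.t e ∉ U then 1 else 0 := by
      simp only [Model.H, H₀, H₁]
      rw [← M.bil_add, ← M.bil_sub]
      congr 1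
      funext e
      simp only [Pi.sub_apply, Pi.add_apply, Pi.one_apply, P]
      by_cases h1 : M.s e ∈ U <;> by_cases h2 : M.t e ∈ U <;> simp [h1, h2]
    rw [this]
    exact M.indep_bil 1 fun e he => by by_contra h0; simp [h0] at he
  have hb : ∀ σ, |H₁ σ| ≤ β * M.bd U := by
    intro σ
    refine (M.abs_bil_le _ _ σ).trans ?_
    have h1 : ‖(1 : E k →L[ℝ] E k)‖ ≤ 1 := ContinuousLinearMap.norm_id_le
    have h2 : ∑ e, |(if ¬(M.s e ∈ U ↔ M.t e ∈ U) then (1 : ℝ) else 0)| = M.bd U := by
      rw [Model.bd, Finset.card_filter]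
      push_cast
      exact Finset.sum_congr rfl fun e _ => by split_ifs <;> simp
    rw [h2]
    refine mul_le_mul_of_nonneg_right ?_ (Nat.cast_nonneg _)
    calc β * _ ≤ β * 1 := mul_le_mul_of_nonneg_left h1 hβ.le
      _ = β := mul_one β
  have hmain : M.Ex U σ₀ Y ≤ I.card + 2 * β * M.bd U := by
    rw [← Real.exp_le_exp, M.Ex_apply]
    refine (exp_cE_le _ _ _ _).trans ?_
    rw [hcongr]
    refine (cE_le_of_bdd σ₀ hb fun σ => (Real.exp_pos _).le).trans ?_
    rw [Real.exp_add, mul_comm, mul_assoc]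
    exact mul_le_mul_of_nonneg_right hfree (Real.exp_pos _).le
  simp only [Y, map_smul, map_sum, smul_eq_mul] at hmain
  rw [one_div, inv_mul_le_iff₀ (by positivity)] at hmain
  refine hmain.trans (le_of_eq ?_)
  ring

end Crest.Agent.R167
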